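import Vale.Agent.P087.Defs

/-!
# P087: shared (non-statement) definitions for the proof

`Rel` : the relations of the full Fock space with a free projection.
-/

open MeasureTheory Filter
open scoped ENNReal InnerProductSpace Matrix.Norms.L2Operator

noncomputable section

namespace P087

/-- `l i` (`i : I`) are free creation operators over the algebra `ℂ e + ℂ (1 - e)`, `τ(e) = α`,
and `Ω` is the vacuum vector. -/
structure Rel {H : Type} [NormedAddCommGroup H] [InnerProductSpace ℂ H] [CompleteSpace H]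
    (T : TracialVN H) {I : Type} [DecidableEq I] (α : ℝ) (l : I → (H →L[ℂ] H))
    (e : H →L[ℂ] H) : Prop where
  ll : ∀ i j, star (l i) * l j = if i = j then 1 else 0
  lel : ∀ i j, star (l i) * e * l j = if i = j then (α : ℂ) • 1 else 0
  lΩ : ∀ i, (star (l i)) T.Ω = 0
  leΩ : ∀ i, (star (l i)) (e T.Ω) = 0
  e_idem : e * e = e
  e_sa : star e = e
  eΩ : ⟪T.Ω, e T.Ω⟫_ℂ = (α : ℂ)
  mem_l : ∀ i, l i + star (l i) ∈ T.M
  mem_e : e ∈ T.M

/-- The generators: `gen none = e`, `gen (some i) = l i + l i⋆`. -/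
def gen {H : Type} [NormedAddCommGroup H] [InnerProductSpace ℂ H] [CompleteSpace H] {I : Type}
    (l : I → (H →L[ℂ] H)) (e : H →L[ℂ] H) : Option I → (H →L[ℂ] H)
  | none => e
  | some i => l i + star (l i)

/-- Properties characterising the joint law of a projection of trace `α` and a free family of
standard semicirculars, free from it. -/
structure LawProps {I : Type} [DecidableEq I] (α : ℝ) (φ : List (Option I) → ℂ) : Prop where
  nil : φ [] = 1
  proj : ∀ m : ℕ, φ (List.replicate (m + 1) none) = α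
  cyc : ∀ u v, φ (u ++ v) = φ (v ++ u)
  rev : ∀ u, φ u.reverse = (starRingEnd ℂ) (φ u)
  sd : ∀ (i : I) (w : List (Option I)), φ (some i :: w) =
    ∑ p : Fin w.length, if w.get p = some i then φ (w.take p) * φ (w.drop (p + 1)) else 0

/-- the polynomial `ψ(x) = x² (6 - 8 x + 3 x²)`; `1 - ψ(x) = (1-x)³ (1 + 3x)`. -/
def psi {A : Type*} [Ring A] (x : A) : A := x ^ 2 * (6 - 8 * x + 3 * x ^ 2)

/-- `Tpol Q J = (∑_{i ∈ J} x_i² - |J|) / (|J| Q)` evaluated at a tuple in a `ℂ`-algebra. -/
def Tpol {A : Type*} [Ring A] [Algebra ℂ A] {N : ℕ} (Q : ℝ) (J : Finset (Fin N)) (X : Fin N → A) : A :=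
  ((J.card * Q : ℝ)⁻¹ : ℂ) • (∑ i ∈ J, X i ^ 2 - (J.card : ℂ) • 1)

/-- letters: `(0, i)` for the hidden semicirculars, `(1, i)` for the noise at level one,
`(2, i)` for the additional noise. -/
abbrev Letter (N : ℕ) : Type := Fin 3 × Fin N

/-- `X_i = Q e ŝ_i e + S_i`, as a function of the generators, in any algebra. -/
def Xof {A : Type*} [Ring A] [Algebra ℂ A] {N : ℕ} (Q : ℝ) (g : Option (Letter N) → A) (i : Fin N) :
    A :=
  (Q : ℂ) • (g none * g (some (0, i)) * g none) + g (some (1, i))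

end P087
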