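import Mathlib

/-!
# P087: microstates and nonmicrostates free entropy

All definitions used by the hand-ins for P087.
-/

open MeasureTheory Filter
open scoped ENNReal InnerProductSpace Matrix.Norms.L2Operator

noncomputable section

namespace P087

/-- A von Neumann algebra `M` with a faithful normal tracial state `τ`, represented on a Hilbert
space `H` with a unit vector `Ω` such that `τ a = ⟪Ω, a Ω⟫` (the GNS picture; a vector state is
normal).  `tracial` says `τ (a b) = τ (b a)`, and `faithful` says `τ (a⋆ a) = 0 → a = 0`. -/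
structure TracialVN (H : Type) [NormedAddCommGroup H] [InnerProductSpace ℂ H]
    [CompleteSpace H] where
  M : VonNeumannAlgebra H
  Ω : H
  norm_Ω : ‖Ω‖ = 1
  tracial : ∀ a ∈ M, ∀ b ∈ M, ⟪Ω, (a * b) Ω⟫_ℂ = ⟪Ω, (b * a) Ω⟫_ℂ
  faithful : ∀ a ∈ M, ⟪Ω, (star a * a) Ω⟫_ℂ = 0 → a = 0

/-- The noncommutative monomial `X_{w₁} X_{w₂} ⋯ X_{w_p}` of a tuple `X` (in any monoid). -/
def word {A : Type*} [Monoid A] {n : ℕ} (X : Fin n → A) (w : List (Fin n)) : A :=
  (w.map X).prod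

/-- The linear isometry `x ↦ (x + xᵀ)/2 + √-1 (x - xᵀ)/2` from the real `k × k` matrices `ℝ^{k²}`
onto the self-adjoint complex `k × k` matrices with the Euclidean structure `⟨A, B⟩ = Tr (A B)`.
Lebesgue measure on `M_k^{sa}` is the image of Lebesgue measure on `ℝ^{k²}` under this map. -/
def herm {k : ℕ} (x : Fin k → Fin k → ℝ) : Matrix (Fin k) (Fin k) ℂ :=
  Matrix.of fun i j =>
    ((x i j : ℂ) + (x j i : ℂ)) / 2 + Complex.I * ((x i j : ℂ) - (x j i : ℂ)) / 2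

namespace TracialVN

variable {H : Type} [NormedAddCommGroup H] [InnerProductSpace ℂ H] [CompleteSpace H]
  (T : TracialVN H) {n : ℕ}

/-- The trace `τ`. -/
def τ (a : H →L[ℂ] H) : ℂ := ⟪T.Ω, a T.Ω⟫_ℂ

/-! ### Microstates free entropy -/

/-- The microstates `Γ_R(X; m, k, ε)`, in the coordinates `herm` on `(M_k^{sa})^n`.
The norm of a matrix is its operator norm. -/
def Gamma (X : Fin n → (H →L[ℂ] H)) (R : ℝ) (m k : ℕ) (ε : ℝ) :
    Set (Fin n → Fin k → Fin k → ℝ) :=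
  {x | (∀ j, ‖herm (x j)‖ ≤ R) ∧
    ∀ w : List (Fin n), 1 ≤ w.length → w.length ≤ m →
      ‖(word (fun j => herm (x j)) w).trace / k - T.τ (word X w)‖ < ε}

/-- `χ_R(X) = inf_{m, ε} limsup_k (k⁻² log vol Γ_R(X; m, k, ε) + (n/2) log k)`. -/
def chiR (X : Fin n → (H →L[ℂ] H)) (R : ℝ) : EReal :=
  ⨅ (m : ℕ) (ε : ℝ) (_ : 0 < ε), limsup (fun k : ℕ =>
    ((((k : ℝ) ^ 2)⁻¹ : ℝ) : EReal) * ENNReal.log (volume (T.Gamma X R m k ε)) +
      (((n : ℝ) / 2 * Real.log k : ℝ) : EReal)) atTop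

/-- The microstates free entropy `χ(X) = sup_{R > 0} χ_R(X)`. -/
def chi (X : Fin n → (H →L[ℂ] H)) : EReal :=
  ⨆ (R : ℝ) (_ : 0 < R), T.chiR X R

/-! ### Nonmicrostates free entropy -/

/-- `L²(W*(X), τ)`, realised in `H` as the closure of `{P(X) Ω : P a noncommutative polynomial}`. -/
def L2 (X : Fin n → (H →L[ℂ] H)) : Submodule ℂ H :=
  (Submodule.span ℂ (Set.range fun w : List (Fin n) => word X w T.Ω)).topologicalClosure

/-- `(τ ⊗ τ)(∂_j X_w)`, the sum over the occurrences of `j` in `w` of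
`τ(X_{left part}) τ(X_{right part})`. -/
def tauPartial (X : Fin n → (H →L[ℂ] H)) (j : Fin n) (w : List (Fin n)) : ℂ :=
  ∑ l : Fin w.length,
    if w.get l = j then T.τ (word X (w.take l)) * T.τ (word X (w.drop (l + 1))) else 0

/-- `ξ` is the tuple of conjugate variables of `X`: `ξ_j ∈ L²(W*(X), τ)` and
`τ(ξ_j P(X)) = (τ ⊗ τ)(∂_j P(X))` for every monomial (hence every polynomial) `P`.
For `ξ ∈ L²` the number `τ(ξ P(X)) = τ(P(X) ξ)` is `⟪P(X)⋆ Ω, ξ⟫`. -/
def IsConjugate (X : Fin n → (H →L[ℂ] H)) (ξ : Fin n → H) : Prop :=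
  ∀ j, ξ j ∈ T.L2 X ∧
    ∀ w : List (Fin n), ⟪(star (word X w)) T.Ω, ξ j⟫_ℂ = T.tauPartial X j w

/-- The free Fisher information: `Φ*(X) = ∑_j ‖ξ_j‖²` if the (unique) conjugate variables exist
and `∞` otherwise. -/
def fisher (X : Fin n → (H →L[ℂ] H)) : ℝ≥0∞ :=
  ⨅ (ξ : Fin n → H) (_ : T.IsConjugate X ξ), ∑ j, ENNReal.ofReal (‖ξ j‖ ^ 2)

/-- Freeness of a family of subalgebras: alternating products of centred elements are centred. -/
def IsFree {ι : Type} (B : ι → Subalgebra ℂ (H →L[ℂ] H)) : Prop :=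
  ∀ l : List (ι × (H →L[ℂ] H)), l ≠ [] → l.IsChain (fun p q => p.1 ≠ q.1) →
    (∀ p ∈ l, p.2 ∈ B p.1 ∧ T.τ p.2 = 0) → T.τ (l.map Prod.snd).prod = 0

/-- `S` consists of free semicircular elements of variance `1` (self-adjoint, with moments
`τ(S^{2m})` the Catalan numbers and `τ(S^{2m+1}) = 0`), free from `X`. -/
structure IsFreeSemicircular (X S : Fin n → (H →L[ℂ] H)) : Prop where
  mem : ∀ j, S j ∈ T.M
  selfAdjoint : ∀ j, IsSelfAdjoint (S j)
  even : ∀ j (m : ℕ), T.τ (S j ^ (2 * m)) = catalan m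
  odd : ∀ j (m : ℕ), T.τ (S j ^ (2 * m + 1)) = 0
  free : T.IsFree (fun o : Option (Fin n) =>
    o.elim (Algebra.adjoin ℂ (Set.range X)) (fun j => Algebra.adjoin ℂ {S j}))

/-- The nonmicrostates free entropy
`χ*(X) = ½ ∫₀^∞ (n/(1+t) - Φ*(X + √t S)) dt + (n/2) log (2πe)`,
computed with a tuple `S` of free semicircular elements, free from `X`. The integral is the
difference of the integrals of the positive part and of the negative part. -/
def chiStar (X S : Fin n → (H →L[ℂ] H)) : EReal :=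
  ((1 / 2 : ℝ) : EReal) *
    (((∫⁻ t in Set.Ioi (0 : ℝ),
        (ENNReal.ofReal (n / (1 + t)) - T.fisher (fun j => X j + (√t : ℂ) • S j)) : ℝ≥0∞) : EReal) -
     ((∫⁻ t in Set.Ioi (0 : ℝ),
        (T.fisher (fun j => X j + (√t : ℂ) • S j) - ENNReal.ofReal (n / (1 + t))) : ℝ≥0∞) : EReal))
  + (((n : ℝ) / 2 * Real.log (2 * Real.pi * Real.exp 1) : ℝ) : EReal)

end TracialVN

end P087
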