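import Vale.Agent.P087.Basic

/-!
Frobenius norm of complex matrices and its relation with the coordinates `herm`.
-/

open MeasureTheory Filter
open scoped ENNReal InnerProductSpace Matrix.Norms.L2Operator Matrix
noncomputable section
namespace P087

/-- Frobenius norm -/
def frob {m n : ℕ} (A : Matrix (Fin m) (Fin n) ℂ) : ℝ := √(∑ i, ∑ j, ‖A i j‖ ^ 2)

end P087
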