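import Vale.Agent.P087.Frob

/-! Lemmas on the Frobenius norm `frob` and on the coordinates `herm`. -/

open MeasureTheory Filter
open scoped ENNReal InnerProductSpace Matrix.Norms.L2Operator Matrix
noncomputable section
namespace P087

variable {m n p : ℕ}

lemma frob_eq_norm (A : Matrix (Fin m) (Fin n) ℂ) :
    frob A = ‖(WithLp.toLp 2 (fun q : Fin m × Fin n => A q.1 q.2) :
      EuclideanSpace ℂ (Fin m × Fin n))‖ := by
  rw [EuclideanSpace.norm_eq, frob, Fintype.sum_prod_type]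

lemma frob_sq (A : Matrix (Fin m) (Fin n) ℂ) : frob A ^ 2 = ∑ i, ∑ j, ‖A i j‖ ^ 2 :=
  Real.sq_sqrt (Finset.sum_nonneg fun _ _ => Finset.sum_nonneg fun _ _ => sq_nonneg _)

lemma frob_nonneg (A : Matrix (Fin m) (Fin n) ℂ) : 0 ≤ frob A := Real.sqrt_nonneg _

@[simp] lemma frob_zero : frob (0 : Matrix (Fin m) (Fin n) ℂ) = 0 := by simp [frob]

lemma frob_add_le (A B : Matrix (Fin m) (Fin n) ℂ) : frob (A + B) ≤ frob A + frob B := by
  rw [frob_eq_norm, frob_eq_norm, frob_eq_norm]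
  exact norm_add_le (WithLp.toLp 2 (fun q : Fin m × Fin n => A q.1 q.2) :
    EuclideanSpace ℂ (Fin m × Fin n)) (WithLp.toLp 2 (fun q : Fin m × Fin n => B q.1 q.2))

lemma frob_neg (A : Matrix (Fin m) (Fin n) ℂ) : frob (-A) = frob A := by simp [frob]

lemma frob_sub_comm (A B : Matrix (Fin m) (Fin n) ℂ) : frob (A - B) = frob (B - A) := by
  rw [← frob_neg (B - A), neg_sub]

lemma frob_sub_le (A B : Matrix (Fin m) (Fin n) ℂ) : frob (A - B) ≤ frob A + frob B := by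
  rw [sub_eq_add_neg, ← frob_neg B]
  exact frob_add_le A (-B)

lemma frob_sub_le_add (A B C : Matrix (Fin m) (Fin n) ℂ) :
    frob (A - C) ≤ frob (A - B) + frob (B - C) := by
  have := frob_add_le (A - B) (B - C)
  simpa using this

lemma frob_smul (c : ℂ) (A : Matrix (Fin m) (Fin n) ℂ) : frob (c • A) = ‖c‖ * frob A := by
  rw [frob_eq_norm, frob_eq_norm]
  exact norm_smul c (WithLp.toLp 2 (fun q : Fin m × Fin n => A q.1 q.2) :
    EuclideanSpace ℂ (Fin m × Fin n))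

lemma frob_conjTranspose (A : Matrix (Fin m) (Fin n) ℂ) : frob Aᴴ = frob A := by
  unfold frob
  rw [Finset.sum_comm]
  simp [Matrix.conjTranspose_apply]

/-- `frob² = Tr (A⋆ A)` -/
lemma trace_conjTranspose_mul (A : Matrix (Fin m) (Fin n) ℂ) :
    (Aᴴ * A).trace = ((frob A ^ 2 : ℝ) : ℂ) := by
  rw [frob_sq, Matrix.trace, Finset.sum_comm]
  push_cast
  refine Finset.sum_congr rfl fun j _ => ?_
  rw [Matrix.diag_apply, Matrix.mul_apply]
  refine Finset.sum_congr rfl fun i _ => ?_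
  rw [Matrix.conjTranspose_apply, Complex.star_def, ← Complex.normSq_eq_conj_mul_self,
    Complex.normSq_eq_norm_sq]
  push_cast
  rfl

lemma frob_sq_eq_trace (A : Matrix (Fin m) (Fin n) ℂ) : frob A ^ 2 = (Aᴴ * A).trace.re := by
  rw [trace_conjTranspose_mul, Complex.ofReal_re]

/-- `frob (A * B) ≤ ‖A‖ * frob B` -/
lemma frob_mul_le (A : Matrix (Fin m) (Fin n) ℂ) (B : Matrix (Fin n) (Fin p) ℂ) :
    frob (A * B) ≤ ‖A‖ * frob B := by
  have hA : 0 ≤ ‖A‖ := norm_nonneg _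
  apply Real.sqrt_le_iff.2
  refine ⟨mul_nonneg hA (frob_nonneg B), ?_⟩
  rw [mul_pow, frob_sq, Finset.sum_comm, Finset.sum_comm (f := fun i j => ‖B i j‖ ^ 2),
    Finset.mul_sum]
  refine Finset.sum_le_sum fun j _ => ?_
  have h1 := Matrix.l2_opNorm_mulVec A (WithLp.toLp 2 (fun i => B i j) : EuclideanSpace ℂ (Fin n))
  have h2 : ‖(WithLp.toLp 2 (fun i => B i j) : EuclideanSpace ℂ (Fin n))‖ ^ 2 = ∑ i, ‖B i j‖ ^ 2 := by
    rw [EuclideanSpace.norm_sq_eq]
  have h3 : ∑ i, ‖(A * B) i j‖ ^ 2 =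
      ‖(EuclideanSpace.equiv (Fin m) ℂ).symm (A *ᵥ (fun i => B i j))‖ ^ 2 := by
    rw [EuclideanSpace.norm_sq_eq]
    rfl
  rw [h3, ← h2, ← mul_pow]
  exact pow_le_pow_left₀ (norm_nonneg _) h1 2

/-- `frob (A * B) ≤ frob A * ‖B‖` -/
lemma frob_mul_le' (A : Matrix (Fin m) (Fin n) ℂ) (B : Matrix (Fin n) (Fin p) ℂ) :
    frob (A * B) ≤ frob A * ‖B‖ := by
  rw [← frob_conjTranspose, Matrix.conjTranspose_mul, mul_comm, ← frob_conjTranspose A,
    ← Matrix.l2_opNorm_conjTranspose B]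
  exact frob_mul_le _ _

lemma l2_norm_conjTranspose (A : Matrix (Fin m) (Fin n) ℂ) : ‖Aᴴ‖ = ‖A‖ :=
  Matrix.l2_opNorm_conjTranspose A

/-- `frob (V B V⋆) ≤ frob B` for a contraction `V` -/
lemma frob_conj_le (V : Matrix (Fin m) (Fin n) ℂ) (hV : ‖V‖ ≤ 1) (B : Matrix (Fin n) (Fin n) ℂ) :
    frob (V * B * Vᴴ) ≤ frob B := by
  have hV' : ‖Vᴴ‖ ≤ 1 := by rwa [l2_norm_conjTranspose]
  calc frob (V * B * Vᴴ) ≤ frob (V * B) * ‖Vᴴ‖ := frob_mul_le' _ _
    _ ≤ frob (V * B) := mul_le_of_le_one_right (frob_nonneg _) hV'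
    _ ≤ ‖V‖ * frob B := frob_mul_le _ _
    _ ≤ frob B := mul_le_of_le_one_left (frob_nonneg _) hV

/-- the operator norm is at most the Frobenius norm -/
lemma norm_le_frob (A : Matrix (Fin m) (Fin n) ℂ) : ‖A‖ ≤ frob A := by
  rw [Matrix.l2_opNorm_def]
  refine ContinuousLinearMap.opNorm_le_bound _ (frob_nonneg A) fun x => ?_
  rw [← Real.sqrt_sq (norm_nonneg (_ : EuclideanSpace ℂ (Fin m)))]
  refine Real.sqrt_le_iff.2 ⟨mul_nonneg (frob_nonneg A) (norm_nonneg x), ?_⟩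
  rw [EuclideanSpace.norm_sq_eq, mul_pow, frob_sq, EuclideanSpace.norm_sq_eq, Finset.sum_mul]
  refine Finset.sum_le_sum fun i _ => ?_
  have h1 : ‖∑ j, A i j * x j‖ ≤ ∑ j, ‖A i j‖ * ‖x j‖ := by
    refine (norm_sum_le _ _).trans (le_of_eq ?_)
    exact Finset.sum_congr rfl fun j _ => norm_mul _ _
  have h2 := Finset.sum_mul_sq_le_sq_mul_sq Finset.univ (fun j => ‖A i j‖) (fun j => ‖x j‖)
  exact (pow_le_pow_left₀ (norm_nonneg _) h1 2).trans h2

/-! ### Coordinates -/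

section herm
variable {k : ℕ}

lemma herm_apply (x : Fin k → Fin k → ℝ) (i j : Fin k) :
    herm x i j = ((x i j : ℂ) + (x j i : ℂ)) / 2 + Complex.I * ((x i j : ℂ) - (x j i : ℂ)) / 2 :=
  rfl

lemma herm_add (x y : Fin k → Fin k → ℝ) : herm (x + y) = herm x + herm y := by
  ext i j
  simp only [herm_apply, Matrix.add_apply, Pi.add_apply]
  push_cast
  ring

lemma herm_sub (x y : Fin k → Fin k → ℝ) : herm (x - y) = herm x - herm y := by
  ext i j
  simp only [herm_apply, Matrix.sub_apply, Pi.sub_apply]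
  push_cast
  ring

lemma herm_smul (c : ℝ) (x : Fin k → Fin k → ℝ) : herm (c • x) = (c : ℂ) • herm x := by
  ext i j
  simp only [herm_apply, Matrix.smul_apply, Pi.smul_apply, smul_eq_mul]
  push_cast
  ring

lemma isHermitian_herm (x : Fin k → Fin k → ℝ) : (herm x).IsHermitian := by
  ext i j
  rw [Matrix.conjTranspose_apply, herm_apply, herm_apply]
  simp only [Complex.star_def, map_add, map_sub, map_mul, map_div₀, Complex.conj_ofReal,
    Complex.conj_I]
  have h2 : (starRingEnd ℂ) 2 = 2 := Complex.conj_ofNat 2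
  rw [h2]
  ring

lemma exists_herm {A : Matrix (Fin k) (Fin k) ℂ} (hA : A.IsHermitian) :
    ∃ x : Fin k → Fin k → ℝ, herm x = A := by
  refine ⟨fun i j => (A i j).re + (A i j).im, ?_⟩
  ext i j
  have hij : A j i = star (A i j) := by
    have := congrFun (congrFun hA j) i
    rw [Matrix.conjTranspose_apply] at this
    exact this.symm
  rw [herm_apply, hij]
  apply Complex.ext
  · simp
    ring
  · simp

lemma norm_herm_sq_add (x : Fin k → Fin k → ℝ) (i j : Fin k) :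
    ‖herm x i j‖ ^ 2 = (x i j ^ 2 + x j i ^ 2) / 2 := by
  rw [← Complex.normSq_eq_norm_sq, Complex.normSq_apply]
  have hre : (herm x i j).re = (x i j + x j i) / 2 := by
    rw [herm_apply]; simp
  have him : (herm x i j).im = (x i j - x j i) / 2 := by
    rw [herm_apply]; simp
  rw [hre, him]
  ring

lemma frob_herm_sq (x : Fin k → Fin k → ℝ) : frob (herm x) ^ 2 = ∑ i, ∑ j, x i j ^ 2 := by
  rw [frob_sq]
  simp only [norm_herm_sq_add]
  have h : ∑ i, ∑ j, x j i ^ 2 = ∑ i, ∑ j, x i j ^ 2 := Finset.sum_comm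
  have : ∑ i, ∑ j, (x i j ^ 2 + x j i ^ 2) / 2 =
      ((∑ i, ∑ j, x i j ^ 2) + ∑ i, ∑ j, x j i ^ 2) / 2 := by
    rw [← Finset.sum_add_distrib, Finset.sum_div]
    refine Finset.sum_congr rfl fun i _ => ?_
    rw [← Finset.sum_add_distrib, Finset.sum_div]
  rw [this, h]
  ring

end herm

end P087
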