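import Mathlib

/-!
# P087: sums over decompositions of words

`ssum j w f = ∑_{w = u j v} f u v` and `csum w f = ∑_{w = u v} f u v`.
-/

namespace P087

variable {ι V W : Type*}

/-- `∑_{w = u ++ j :: v} f u v` -/
def ssum [DecidableEq ι] [AddCommMonoid V] (j : ι) : List ι → (List ι → List ι → V) → V
  | [], _ => 0
  | i :: w, f => (if i = j then f [] w else 0) + ssum j w (fun u v => f (i :: u) v)

/-- `∑_{w = u ++ v} f u v` -/
def csum [AddCommMonoid V] : List ι → (List ι → List ι → V) → V
  | [], f => f [] []
  | i :: w, f => f [] (i :: w) + csum w (fun u v => f (i :: u) v)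

section
variable [DecidableEq ι] [AddCommMonoid V] [AddCommMonoid W]

@[simp] lemma ssum_nil (j : ι) (f : List ι → List ι → V) : ssum j [] f = 0 := rfl

lemma ssum_cons (j i : ι) (w : List ι) (f : List ι → List ι → V) :
    ssum j (i :: w) f = (if i = j then f [] w else 0) + ssum j w (fun u v => f (i :: u) v) := rfl

omit [DecidableEq ι] in
@[simp] lemma csum_nil (f : List ι → List ι → V) : csum [] f = f [] [] := rfl

omit [DecidableEq ι] in
lemma csum_cons (i : ι) (w : List ι) (f : List ι → List ι → V) :
    csum (i :: w) f = f [] (i :: w) + csum w (fun u v => f (i :: u) v) := rfl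

lemma ssum_eq_fin (j : ι) (w : List ι) (f : List ι → List ι → V) :
    ssum j w f = ∑ p : Fin w.length, if w.get p = j then f (w.take p) (w.drop (p + 1)) else 0 := by
  induction w generalizing f with
  | nil => simp
  | cons i w ih =>
    rw [ssum_cons, ih]
    exact (Fin.sum_univ_succ (n := w.length) (fun p : Fin (w.length + 1) =>
      if (i :: w).get p = j then f (List.take p (i :: w)) (List.drop (p + 1) (i :: w)) else 0)).symm

lemma ssum_congr {j : ι} {w : List ι} {f g : List ι → List ι → V}
    (h : ∀ u v, w = u ++ j :: v → f u v = g u v) : ssum j w f = ssum j w g := by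
  induction w generalizing f g with
  | nil => rfl
  | cons i w ih =>
    rw [ssum_cons, ssum_cons, ih (fun u v huv => h _ _ (by rw [huv]; rfl))]
    by_cases hij : i = j
    · rw [if_pos hij, if_pos hij, h [] w (by rw [hij]; rfl)]
    · rw [if_neg hij, if_neg hij]

omit [DecidableEq ι] in
lemma csum_congr {w : List ι} {f g : List ι → List ι → V}
    (h : ∀ u v, w = u ++ v → f u v = g u v) : csum w f = csum w g := by
  induction w generalizing f g with
  | nil => exact h _ _ rfl
  | cons i w ih =>
    rw [csum_cons, csum_cons, ih (fun u v huv => h _ _ (by rw [huv]; rfl)), h _ _ rfl]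

@[simp] lemma ssum_zero (j : ι) (w : List ι) : ssum j w (fun _ _ => (0 : V)) = 0 := by
  induction w with
  | nil => rfl
  | cons i w ih => rw [ssum_cons, ih]; simp

lemma ssum_add (j : ι) (w : List ι) (f g : List ι → List ι → V) :
    ssum j w (fun u v => f u v + g u v) = ssum j w f + ssum j w g := by
  induction w generalizing f g with
  | nil => simp
  | cons i w ih =>
    rw [ssum_cons, ssum_cons, ssum_cons, ih]
    split_ifs
    · abel
    · abel

omit [DecidableEq ι] in
lemma csum_add (w : List ι) (f g : List ι → List ι → V) :
    csum w (fun u v => f u v + g u v) = csum w f + csum w g := by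
  induction w generalizing f g with
  | nil => simp
  | cons i w ih => rw [csum_cons, csum_cons, csum_cons, ih]; abel

/-- additive maps commute with `ssum` -/
lemma map_ssum {F : Type*} [FunLike F V W] [AddMonoidHomClass F V W] (φ : F) (j : ι) (w : List ι)
    (f : List ι → List ι → V) : φ (ssum j w f) = ssum j w (fun u v => φ (f u v)) := by
  induction w generalizing f with
  | nil => simp
  | cons i w ih => rw [ssum_cons, ssum_cons, map_add, ih]; split_ifs <;> simp

omit [DecidableEq ι] in
lemma map_csum {F : Type*} [FunLike F V W] [AddMonoidHomClass F V W] (φ : F) (w : List ι)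
    (f : List ι → List ι → V) : φ (csum w f) = csum w (fun u v => φ (f u v)) := by
  induction w generalizing f with
  | nil => simp
  | cons i w ih => rw [csum_cons, csum_cons, map_add, ih]

/-- `w = u i a j b` in two ways -/
lemma ssum_ssum (i j : ι) (w : List ι) (f : List ι → List ι → List ι → V) :
    ssum i w (fun u v => ssum j v (fun a b => f u a b)) =
      ssum j w (fun c b => ssum i c (fun u a => f u a b)) := by
  induction w generalizing f with
  | nil => rfl
  | cons k w ih =>
    rw [ssum_cons, ih (fun u a b => f (k :: u) a b), ssum_cons, ssum_nil, ite_self, zero_add]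
    simp only [ssum_cons]
    rw [ssum_add]
    congr 1
    by_cases h : k = i
    · simp [h]
    · simp [h]

omit [DecidableEq ι] in
lemma csum_csum (w : List ι) (f : List ι → List ι → List ι → V) :
    csum w (fun u v => csum v (fun a b => f u a b)) =
      csum w (fun c b => csum c (fun u a => f u a b)) := by
  induction w generalizing f with
  | nil => rfl
  | cons k w ih =>
    simp only [csum_cons, csum_nil]
    rw [ih (fun u a b => f (k :: u) a b), csum_add, add_assoc]

/-- `w = u a j b` -/
lemma csum_ssum (j : ι) (w : List ι) (f : List ι → List ι → List ι → V) :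
    csum w (fun u v => ssum j v (fun a b => f u a b)) =
      ssum j w (fun c b => csum c (fun u a => f u a b)) := by
  induction w generalizing f with
  | nil => rfl
  | cons k w ih =>
    rw [csum_cons, ih (fun u a b => f (k :: u) a b), ssum_cons, ssum_cons]
    simp only [csum_cons, csum_nil]
    rw [ssum_add, add_assoc]

/-- `w = a j b v` -/
lemma csum_ssum' (j : ι) (w : List ι) (f : List ι → List ι → List ι → V) :
    csum w (fun u v => ssum j u (fun a b => f a b v)) =
      ssum j w (fun a c => csum c (fun b v => f a b v)) := by
  induction w generalizing f with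
  | nil => rfl
  | cons k w ih =>
    rw [csum_cons, ssum_nil, zero_add, ssum_cons]
    simp only [ssum_cons]
    rw [csum_add, ih (fun a b v => f (k :: a) b v)]
    congr 1
    by_cases h : k = j
    · simp [h]
    · simp only [h, if_false]
      clear ih
      induction w with
      | nil => rfl
      | cons i w ih => rw [csum_cons, zero_add]; exact ih

lemma ssum_append (j : ι) (u v : List ι) (f : List ι → List ι → V) :
    ssum j (u ++ v) f = ssum j u (fun a b => f a (b ++ v)) + ssum j v (fun a b => f (u ++ a) b) := by
  induction u generalizing f with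
  | nil => simp
  | cons k u ih => rw [List.cons_append, ssum_cons, ssum_cons, ih]; simp [add_assoc]

end

section
variable [DecidableEq ι]

lemma smul_ssum {R : Type*} [AddCommMonoid V] [Monoid R] [DistribMulAction R V]
    (r : R) (j : ι) (w : List ι) (f : List ι → List ι → V) :
    r • ssum j w f = ssum j w (fun u v => r • f u v) :=
  map_ssum (DistribSMul.toAddMonoidHom V r) j w f

lemma mul_ssum {R : Type*} [NonUnitalNonAssocSemiring R]
    (r : R) (j : ι) (w : List ι) (f : List ι → List ι → R) :
    r * ssum j w f = ssum j w (fun u v => r * f u v) :=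
  map_ssum (AddMonoidHom.mulLeft r) j w f

lemma ssum_mul {R : Type*} [NonUnitalNonAssocSemiring R]
    (r : R) (j : ι) (w : List ι) (f : List ι → List ι → R) :
    ssum j w f * r = ssum j w (fun u v => f u v * r) :=
  map_ssum (AddMonoidHom.mulRight r) j w f

omit [DecidableEq ι] in
lemma mul_csum {R : Type*} [NonUnitalNonAssocSemiring R]
    (r : R) (w : List ι) (f : List ι → List ι → R) :
    r * csum w f = csum w (fun u v => r * f u v) :=
  map_csum (AddMonoidHom.mulLeft r) w f

omit [DecidableEq ι] in
lemma csum_mul {R : Type*} [NonUnitalNonAssocSemiring R]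
    (r : R) (w : List ι) (f : List ι → List ι → R) :
    csum w f * r = csum w (fun u v => f u v * r) :=
  map_csum (AddMonoidHom.mulRight r) w f

omit [DecidableEq ι] in
lemma smul_csum {R : Type*} [AddCommMonoid V] [Monoid R] [DistribMulAction R V]
    (r : R) (w : List ι) (f : List ι → List ι → V) :
    r • csum w f = csum w (fun u v => r • f u v) :=
  map_csum (DistribSMul.toAddMonoidHom V r) w f

lemma ssum_smul_left {R : Type*} [Semiring R] [AddCommMonoid V] [Module R V]
    (x : V) (j : ι) (w : List ι) (f : List ι → List ι → R) :
    ssum j w f • x = ssum j w (fun u v => f u v • x) :=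
  map_ssum ((AddMonoidHom.flip (smulAddHom R V)) x) j w f

lemma ssum_sum {κ : Type*} [AddCommMonoid V] (s : Finset κ) (j : ι) (w : List ι)
    (f : κ → List ι → List ι → V) :
    ∑ k ∈ s, ssum j w (f k) = ssum j w (fun u v => ∑ k ∈ s, f k u v) := by
  classical
  induction s using Finset.induction_on with
  | empty => simp
  | insert a s ha ih => simp [Finset.sum_insert ha, ih, ssum_add]

end

end P087
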