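import Vale.Agent.P087.Basic
import Vale.Agent.P087.Words

/-!
Gaussian matrix model.
-/

open MeasureTheory Filter
open scoped ENNReal InnerProductSpace Matrix.Norms.L2Operator Matrix
noncomputable section
namespace P087

/-- the law of the coordinates of `|I|` independent GUE matrices (normalised so that
`E tr_k (G²) = 1`) -/
def gm (I : Type) [Fintype I] (k : ℕ) : Measure (I → Fin k → Fin k → ℝ) :=
  Measure.pi fun _ => Measure.pi fun _ => Measure.pi fun _ =>
    ProbabilityTheory.gaussianReal 0 ((k : NNReal)⁻¹)

/-- the projection onto the first `d` coordinates -/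
def pmat (k d : ℕ) : Matrix (Fin k) (Fin k) ℂ :=
  Matrix.diagonal fun i => if (i : ℕ) < d then 1 else 0

/-- matrix generators -/
def mgen {I : Type} {k : ℕ} (d : ℕ) (x : I → Fin k → Fin k → ℝ) :
    Option I → Matrix (Fin k) (Fin k) ℂ
  | none => pmat k d
  | some i => herm (x i)

/-- normalised trace of a word in the matrix generators -/
def mtr {I : Type} {k : ℕ} (d : ℕ) (x : I → Fin k → Fin k → ℝ) (w : List (Option I)) : ℂ :=
  ((w.map (mgen d x)).prod).trace / k

end P087
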