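import Vale.Agent.P087.Basic

open MeasureTheory Filter
open scoped ENNReal InnerProductSpace
noncomputable section
namespace P087
variable {H : Type} [NormedAddCommGroup H] [InnerProductSpace ℂ H] [CompleteSpace H]

omit [CompleteSpace H] in
/-- an antilinear isometry reverses the inner product -/
private lemma t1_inner_J (J : H ≃ₗᵢ⋆[ℂ] H) (x y : H) : ⟪J x, J y⟫_ℂ = ⟪y, x⟫_ℂ := by
  rw [← inner_conj_symm y x, inner_eq_sum_norm_sq_div_four (𝕜 := ℂ) (J x) (J y),
    inner_eq_sum_norm_sq_div_four (𝕜 := ℂ) x y]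
  have h1 : ‖J x + J y‖ = ‖x + y‖ := by rw [← map_add, J.norm_map]
  have h2 : ‖J x - J y‖ = ‖x - y‖ := by rw [← map_sub, J.norm_map]
  have hI : ((starRingEnd ℂ) (RCLike.I : ℂ)) = -(RCLike.I : ℂ) := RCLike.conj_I
  have hJI : J ((RCLike.I : ℂ) • y) = -((RCLike.I : ℂ) • J y) := by
    rw [map_smulₛₗ, hI, neg_smul]
  have h3 : ‖J x - (RCLike.I : ℂ) • J y‖ = ‖x + (RCLike.I : ℂ) • y‖ := by
    rw [← J.norm_map (x + (RCLike.I : ℂ) • y), map_add, hJI, sub_eq_add_neg]
  have h4 : ‖J x + (RCLike.I : ℂ) • J y‖ = ‖x - (RCLike.I : ℂ) • y‖ := by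
    rw [← J.norm_map (x - (RCLike.I : ℂ) • y), map_sub, hJI, sub_neg_eq_add]
  rw [h1, h2, h3, h4]
  simp only [map_div₀, map_add, map_sub, map_mul, map_pow, hI]
  have hr : ∀ r : ℝ, (starRingEnd ℂ) (RCLike.ofReal r : ℂ) = (RCLike.ofReal r : ℂ) :=
    fun r => RCLike.conj_ofReal r
  rw [hr, hr, hr, hr]
  have h4' : (starRingEnd ℂ) (4 : ℂ) = 4 := by
    rw [show (4 : ℂ) = ((4 : ℝ) : ℂ) by norm_num]; exact Complex.conj_ofReal _
  rw [h4']
  ring

/-- T1a.  Left operators `a i` and right operators `b i`, intertwined by an antiunitary `J`.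
`T.M` is the commutant of `{b i}`. -/
theorem exists_tracialVN {ι : Type} (a b : ι → (H →L[ℂ] H)) (Ω : H) (hΩ : ‖Ω‖ = 1)
    (J : H ≃ₗᵢ⋆[ℂ] H) (hJJ : ∀ x, J (J x) = x) (hJΩ : J Ω = Ω)
    (ha : ∀ i, star (a i) = a i) (hab : ∀ i x, J (a i (J x)) = b i x)
    (hcomm : ∀ i j, a i * b j = b j * a i) (hΩ' : ∀ i, a i Ω = b i Ω)
    (hdense : (Submodule.span ℂ
      (Set.range fun w : List ι => ((w.map a).prod : H →L[ℂ] H) Ω)).topologicalClosure = ⊤) :
    ∃ T : TracialVN H, T.Ω = Ω ∧ ∀ i, a i ∈ T.M := by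
  classical
  have hJ1 : ∀ x y, ⟪J x, y⟫_ℂ = ⟪J y, x⟫_ℂ := by
    intro x y
    have h := t1_inner_J J x (J y)
    rwa [hJJ] at h
  have hJ2 : ∀ x y, ⟪x, J y⟫_ℂ = ⟪y, J x⟫_ℂ := by
    intro x y
    have h := t1_inner_J J (J x) y
    rwa [hJJ] at h
  have hsa : ∀ (i : ι) (x y : H), ⟪a i x, y⟫_ℂ = ⟪x, a i y⟫_ℂ := by
    intro i x y
    have h := ContinuousLinearMap.adjoint_inner_left (a i) y x
    rw [← ContinuousLinearMap.star_eq_adjoint, ha i] at h
    exact h
  have hb : ∀ i, star (b i) = b i := by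
    intro i
    refine ContinuousLinearMap.ext fun x => ?_
    refine ext_inner_right ℂ fun y => ?_
    rw [ContinuousLinearMap.star_eq_adjoint, ContinuousLinearMap.adjoint_inner_left, ← hab i x,
      ← hab i y, hJ1, hJ2, ← hsa]
  set A : List ι → (H →L[ℂ] H) := fun w => (w.map a).prod with hA
  set B : List ι → (H →L[ℂ] H) := fun w => (w.map b).prod with hB
  have hAcons : ∀ i w, A (i :: w) = a i * A w := fun i w => by
    simp only [hA, List.map_cons, List.prod_cons]
  have hBcons : ∀ i w, B (i :: w) = b i * B w := fun i w => by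
    simp only [hB, List.map_cons, List.prod_cons]
  have hAapp : ∀ u v, A (u ++ v) = A u * A v := fun u v => by
    simp only [hA, List.map_append, List.prod_append]
  have hAone : ∀ i, A [i] = a i := fun i => by
    simp only [hA, List.map_cons, List.map_nil, List.prod_cons, List.prod_nil, mul_one]
  have hA0 : A [] = 1 := rfl
  have hB0 : B [] = 1 := rfl
  -- `B w` commutes with the `a i`, hence with the `A w`
  have hcA : ∀ j w, A w * b j = b j * A w := by
    intro j w
    induction w with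
    | nil => rw [hA0, one_mul, mul_one]
    | cons i w ih => rw [hAcons, mul_assoc, ih, ← mul_assoc, hcomm, mul_assoc]
  have hBΩ : ∀ w, B w Ω = A w.reverse Ω := by
    intro w
    induction w with
    | nil => rfl
    | cons i w ih =>
      rw [hBcons, List.reverse_cons, hAapp, hAone]
      change b i (B w Ω) = A w.reverse (a i Ω)
      rw [ih, hΩ' i]
      exact (DFunLike.congr_fun (hcA i w.reverse) Ω).symm
  have hJA : ∀ w x, J (A w x) = B w (J x) := by
    intro w
    induction w with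
    | nil => intro x; rfl
    | cons i w ih =>
      intro x
      rw [hAcons, hBcons]
      change J (a i (A w x)) = b i (B w (J x))
      rw [← ih, ← hab i, hJJ]
  have hstarA : ∀ w, star (A w) = A w.reverse := by
    intro w
    induction w with
    | nil => rw [List.reverse_nil, hA0, star_one]
    | cons i w ih => rw [hAcons, star_mul, ih, ha, List.reverse_cons, hAapp, hAone]
  have hBapp : ∀ u v, B (u ++ v) = B u * B v := fun u v => by
    simp only [hB, List.map_append, List.prod_append]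
  have hBone : ∀ i, B [i] = b i := fun i => by
    simp only [hB, List.map_cons, List.map_nil, List.prod_cons, List.prod_nil, mul_one]
  have hstarB : ∀ w, star (B w) = B w.reverse := by
    intro w
    induction w with
    | nil => rw [List.reverse_nil, hB0, star_one]
    | cons i w ih => rw [hBcons, star_mul, ih, hb, List.reverse_cons, hBapp, hBone]
  -- the von Neumann algebra
  let M : VonNeumannAlgebra H :=
    { StarSubalgebra.centralizer ℂ (Set.range b) with
      centralizer_centralizer' := Set.centralizer_centralizer_centralizer _ }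
  have hM : ∀ x, x ∈ M → ∀ i, b i * x = x * b i := by
    intro x hx i
    exact ((StarSubalgebra.mem_centralizer_iff (R := ℂ)).mp hx (b i) ⟨i, rfl⟩).1
  have hMi : ∀ x, (∀ i, b i * x = x * b i) → x ∈ M := by
    intro x hx
    refine (StarSubalgebra.mem_centralizer_iff (R := ℂ)).mpr ?_
    rintro _ ⟨i, rfl⟩
    refine ⟨hx i, ?_⟩
    rw [hb i]
    exact hx i
  have hMB : ∀ x, x ∈ M → ∀ w, B w * x = x * B w := by
    intro x hx w
    induction w with
    | nil => rw [hB0, one_mul, mul_one]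
    | cons i w ih => rw [hBcons, mul_assoc, ih, ← mul_assoc, hM x hx, mul_assoc]
  have hMstar : ∀ x, x ∈ M → star x ∈ M := fun x hx => M.star_mem' hx
  -- density
  have hz : ∀ z : H, (∀ w, ⟪z, A w Ω⟫_ℂ = 0) → z = 0 := by
    intro z hz
    rw [Submodule.topologicalClosure_eq_top_iff] at hdense
    have h1 : z ∈ (Submodule.span ℂ
        (Set.range fun w : List ι => ((w.map a).prod : H →L[ℂ] H) Ω))ᗮ := by
      rw [Submodule.mem_orthogonal']
      intro u hu
      induction hu using Submodule.span_induction with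
      | mem x hx => obtain ⟨w, rfl⟩ := hx; exact hz w
      | zero => exact inner_zero_right _
      | add x y _ _ hx hy => rw [inner_add_right, hx, hy, add_zero]
      | smul c x _ hx => rw [inner_smul_right, hx, mul_zero]
    rw [hdense] at h1
    exact (Submodule.mem_bot ℂ).mp h1
  have hext : ∀ x y : H, (∀ w, ⟪x, A w Ω⟫_ℂ = ⟪y, A w Ω⟫_ℂ) → x = y := by
    intro x y h
    have h1 := hz (x - y) (fun w => by rw [inner_sub_left, h w, sub_self])
    exact sub_eq_zero.mp h1
  -- the key identity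
  have hkey : ∀ m, m ∈ M → J (m Ω) = (star m) Ω := by
    intro m hm
    refine hext _ _ fun v => ?_
    have e1 : ⟪J (m Ω), A v Ω⟫_ℂ = ⟪B v Ω, m Ω⟫_ℂ := by
      rw [hJ1, hJA, hJΩ]
    have e2 : ⟪B v Ω, m Ω⟫_ℂ = ⟪Ω, m (B v.reverse Ω)⟫_ℂ := by
      have h1 : ⟪B v Ω, m Ω⟫_ℂ = ⟪Ω, (star (B v)) (m Ω)⟫_ℂ := by
        rw [ContinuousLinearMap.star_eq_adjoint, ContinuousLinearMap.adjoint_inner_right]
      rw [h1, hstarB]
      have h2 := DFunLike.congr_fun (hMB m hm v.reverse) Ω
      change B v.reverse (m Ω) = m (B v.reverse Ω) at h2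
      rw [h2]
    rw [e1, e2, hBΩ, List.reverse_reverse, ContinuousLinearMap.star_eq_adjoint,
      ContinuousLinearMap.adjoint_inner_left]
  have haM : ∀ i, a i ∈ M := fun i => hMi _ (fun j => (hcomm i j).symm)
  refine ⟨{ M := M, Ω := Ω, norm_Ω := hΩ, tracial := ?_, faithful := ?_ }, rfl, haM⟩
  · intro x hx y hy
    have e1 : ⟪Ω, (x * y) Ω⟫_ℂ = ⟪J (x Ω), y Ω⟫_ℂ := by
      rw [hkey x hx, ContinuousLinearMap.star_eq_adjoint, ContinuousLinearMap.adjoint_inner_left]
      rfl
    have e2 : ⟪Ω, (y * x) Ω⟫_ℂ = ⟪J (y Ω), x Ω⟫_ℂ := by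
      rw [hkey y hy, ContinuousLinearMap.star_eq_adjoint, ContinuousLinearMap.adjoint_inner_left]
      rfl
    rw [e1, e2, hJ1]
  · intro x hx h0
    have h1 : x Ω = 0 := by
      have h2 : ⟪Ω, (star x * x) Ω⟫_ℂ = ⟪x Ω, x Ω⟫_ℂ := by
        change ⟪Ω, (star x) (x Ω)⟫_ℂ = _
        rw [ContinuousLinearMap.star_eq_adjoint, ContinuousLinearMap.adjoint_inner_right]
      rw [h2] at h0
      exact inner_self_eq_zero.mp h0
    have h2 : ∀ w, x (A w Ω) = 0 := by
      intro w
      have h3 : A w Ω = B w.reverse Ω := by rw [hBΩ, List.reverse_reverse]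
      rw [h3]
      have h4 := DFunLike.congr_fun (hMB x hx w.reverse) Ω
      change B w.reverse (x Ω) = x (B w.reverse Ω) at h4
      rw [← h4, h1, map_zero]
    refine ContinuousLinearMap.ext fun ξ => ?_
    have h6 : ∀ ξ, (star x) ξ = 0 := by
      intro ξ
      refine hz _ fun w => ?_
      rw [ContinuousLinearMap.star_eq_adjoint, ContinuousLinearMap.adjoint_inner_left, h2 w,
        inner_zero_right]
    refine ext_inner_left ℂ fun η => ?_
    have h7 : ⟪η, x ξ⟫_ℂ = ⟪(star x) η, ξ⟫_ℂ := by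
      rw [ContinuousLinearMap.star_eq_adjoint, ContinuousLinearMap.adjoint_inner_left]
    rw [h7, h6, inner_zero_left]
    exact (inner_zero_right _).symm

end P087
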