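import Vale.Agent.P087.T01b_base

/-!
The path space: words `d₀ j₁ d₁ ⋯ j_m d_m`, creation operators, and their commutation with the
right creation operators.
-/

namespace P087.Fk

open ContinuousLinearMap InnerProductSpace

noncomputable section

/-- paths `d₀ j₁ d₁ ⋯ j_m d_m` -/
inductive Pth (I : Type) : Type
  | nil : Bool → Pth I
  | cons : Bool → I → Pth I → Pth I

namespace Pth
variable {I : Type}

def snoc : Pth I → I → Bool → Pth I
  | nil b, j, c => cons b j (nil c)
  | cons b i w, j, c => cons b i (snoc w j c)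

def rev : Pth I → Pth I
  | nil b => nil b
  | cons b j w => snoc (rev w) j b

def hd : Pth I → Bool
  | nil b => b
  | cons b _ _ => b

lemma rev_snoc (w : Pth I) (j : I) (c : Bool) : rev (snoc w j c) = cons c j (rev w) := by
  induction w with
  | nil b => rfl
  | cons b i w ih => rw [snoc, rev, ih, snoc, rev]

lemma rev_rev (w : Pth I) : rev (rev w) = w := by
  induction w with
  | nil b => rfl
  | cons b i w ih => rw [rev, rev_snoc, ih]

lemma hd_snoc (w : Pth I) (j : I) (c : Bool) : hd (snoc w j c) = hd w := by
  cases w <;> rfl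

lemma cons_inj (d : Bool) (j : I) : Function.Injective (cons d j) := by
  intro w w' h
  injection h

end Pth

open Pth

variable {I : Type}

/-- the space -/
abbrev HP (I : Type) := Hs (Pth I)

theorem rv : Function.Involutive (rev (I := I)) := rev_rev

/-- the antiunitary -/
def JJ (I : Type) : HP I ≃ₗᵢ⋆[ℂ] HP I := Jop rev rv

/-- the projection on paths with first label `true` -/
def eop (I : Type) : HP I →L[ℂ] HP I :=
  Wop (fun w => if hd w then some w else none) (by
    intro h h' k h1 h2
    by_cases ha : hd h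
    · by_cases hb : hd h'
      · simp only [ha, hb, if_true] at h1 h2
        exact (Option.some.inj h1).trans (Option.some.inj h2).symm
      · simp [hb] at h2
    · simp [ha] at h1)

lemma eop_apply (ξ : HP I) (w : Pth I) : eop I ξ w = if hd w then ξ w else 0 := by
  change (if hd w then some w else none : Option (Pth I)).elim (0 : ℂ) (ξ : Pth I → ℂ) = _
  by_cases h : hd w
  · simp [h]
  · simp [h]

lemma eop_bv (w : Pth I) : eop I (bv w) = if hd w then bv w else 0 := by
  classical
  ext v
  rw [eop_apply]
  by_cases h : v = w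
  · subst h
    by_cases h2 : hd v
    · simp [h2]
    · simp [h2]
  · by_cases h2 : hd w
    · simp [h2, bv_apply, h]
    · simp [h2, bv_apply, h]

lemma eop_star : star (eop I) = eop I := by
  refine ext_bv fun w => ?_
  refine ext_inner_right ℂ fun ξ => ?_
  rw [ContinuousLinearMap.star_eq_adjoint, ContinuousLinearMap.adjoint_inner_left,
    inner_bv_left, eop_apply, eop_bv]
  by_cases h2 : hd w
  · simp [h2, inner_bv_left]
  · simp [h2]

lemma eop_idem : eop I * eop I = eop I := by
  refine ContinuousLinearMap.ext fun ξ => ?_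
  ext w
  rw [ContinuousLinearMap.mul_apply, eop_apply, eop_apply]
  by_cases h2 : hd w
  · simp [h2]
  · simp [h2]

variable (s : Bool → ℝ)

/-- annihilation operator -/
def cop (j : I) : HP I →L[ℂ] HP I := ∑ d : Bool, (s d : ℂ) • pull (cons d j) (cons_inj d j)

/-- creation operator -/
def lop (j : I) : HP I →L[ℂ] HP I := star (cop s j)

/-- the vacuum -/
def vac (I : Type) (s : Bool → ℝ) : HP I := ∑ d : Bool, (s d : ℂ) • bv (nil d)

lemma cop_apply (j : I) (ξ : HP I) (w : Pth I) :
    cop s j ξ w = ∑ d : Bool, (s d : ℂ) * ξ (cons d j w) := by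
  unfold cop
  rw [Fintype.sum_bool, Fintype.sum_bool]
  rfl

lemma cop_nil (j : I) (d : Bool) : cop s j (bv (nil d)) = 0 := by
  classical
  ext w
  rw [cop_apply]
  rw [Finset.sum_eq_zero]
  · rfl
  · intro c _
    rw [bv_apply, if_neg (by intro h; cases h), mul_zero]

open Classical in
lemma cop_cons (j i : I) (d : Bool) (w : Pth I) :
    cop s j (bv (cons d i w)) = if i = j then (s d : ℂ) • bv w else 0 := by
  ext v
  rw [cop_apply]
  by_cases hij : i = j
  · subst hij
    rw [if_pos rfl]
    change _ = (s d : ℂ) * bv w v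
    rw [Finset.sum_eq_single d]
    · rw [bv_apply, bv_apply]
      by_cases h : v = w
      · simp [h]
      · rw [if_neg h, if_neg (fun h1 => h (cons_inj d i h1))]
    · intro c _ hc
      rw [bv_apply, if_neg (by intro h; injection h with h1; exact hc h1), mul_zero]
    · intro h; exact absurd (Finset.mem_univ d) h
  · rw [if_neg hij]
    rw [Finset.sum_eq_zero]
    · rfl
    · intro c _
      rw [bv_apply, if_neg (by intro h; injection h with h1 h2; exact hij h2.symm), mul_zero]

lemma lop_bv (j : I) (w : Pth I) : lop s j (bv w) = ∑ d : Bool, (s d : ℂ) • bv (cons d j w) := by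
  unfold lop cop
  rw [star_sum, ContinuousLinearMap.sum_apply]
  refine Finset.sum_congr rfl fun d _ => ?_
  rw [star_smul, ContinuousLinearMap.smul_apply, star_pull_bv]
  congr 1
  exact Complex.conj_ofReal _

/-- right creation operator -/
def rop (j : I) : HP I →L[ℂ] HP I := conjJ (JJ I) (lop s j)

/-- right annihilation operator -/
def dop (j : I) : HP I →L[ℂ] HP I := conjJ (JJ I) (cop s j)

/-- right projection -/
def fop (I : Type) : HP I →L[ℂ] HP I := conjJ (JJ I) (eop I)

lemma JJ_bv (w : Pth I) : JJ I (bv w) = bv (rev w) := Jop_bv _ _ _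

lemma JJ_JJ (ξ : HP I) : JJ I (JJ I ξ) = ξ := Jop_Jop _ _ ξ

lemma rop_bv (j : I) (w : Pth I) : rop s j (bv w) = ∑ d : Bool, (s d : ℂ) • bv (snoc w j d) := by
  unfold rop
  rw [conjJ_apply, JJ_bv, lop_bv, map_sum]
  refine Finset.sum_congr rfl fun d _ => ?_
  rw [map_smulₛₗ, Complex.conj_ofReal, JJ_bv, rev, rev_rev]

lemma fop_bv (w : Pth I) : fop I (bv w) = if hd (rev w) then bv w else 0 := by
  unfold fop
  rw [conjJ_apply, JJ_bv, eop_bv]
  by_cases h : hd (rev w)
  · rw [if_pos h, if_pos h, JJ_bv, rev_rev]
  · rw [if_neg h, if_neg h, map_zero]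

/-- adjoint and conjugation by `J` commute -/
lemma star_conjJ (T : HP I →L[ℂ] HP I) : star (conjJ (JJ I) T) = conjJ (JJ I) (star T) := by
  refine ContinuousLinearMap.ext fun ξ => ?_
  refine ext_inner_right ℂ fun η => ?_
  rw [ContinuousLinearMap.star_eq_adjoint, ContinuousLinearMap.adjoint_inner_left,
    conjJ_apply, conjJ_apply]
  have h1 : inner ℂ ξ (JJ I (T (JJ I η))) = inner ℂ (T (JJ I η)) (JJ I ξ) := by
    have := Jop_inner rev rv (JJ I ξ) (T (JJ I η))
    change inner ℂ (JJ I (JJ I ξ)) (JJ I (T (JJ I η))) = _ at this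
    rwa [JJ_JJ] at this
  have h2 : inner ℂ (JJ I (star T (JJ I ξ))) η = inner ℂ (JJ I η) (star T (JJ I ξ)) := by
    have := Jop_inner rev rv (star T (JJ I ξ)) (JJ I η)
    change inner ℂ (JJ I (star T (JJ I ξ))) (JJ I (JJ I η)) = _ at this
    rwa [JJ_JJ] at this
  rw [h1, h2, ContinuousLinearMap.star_eq_adjoint, ContinuousLinearMap.adjoint_inner_right]

lemma conjJ_mul (A B : HP I →L[ℂ] HP I) :
    conjJ (JJ I) (A * B) = conjJ (JJ I) A * conjJ (JJ I) B := by
  refine ContinuousLinearMap.ext fun ξ => ?_
  rw [ContinuousLinearMap.mul_apply, conjJ_apply, conjJ_apply, conjJ_apply, JJ_JJ,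
    ContinuousLinearMap.mul_apply]

lemma conjJ_add (A B : HP I →L[ℂ] HP I) :
    conjJ (JJ I) (A + B) = conjJ (JJ I) A + conjJ (JJ I) B := by
  refine ContinuousLinearMap.ext fun ξ => ?_
  rw [ContinuousLinearMap.add_apply, conjJ_apply, conjJ_apply, conjJ_apply,
    ContinuousLinearMap.add_apply, map_add]

lemma conjJ_conjJ (A : HP I →L[ℂ] HP I) : conjJ (JJ I) (conjJ (JJ I) A) = A := by
  refine ContinuousLinearMap.ext fun ξ => ?_
  rw [conjJ_apply, conjJ_apply, JJ_JJ, JJ_JJ]

lemma star_dop (j : I) : star (dop s j) = rop s j := star_conjJ _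

lemma star_rop (j : I) : star (rop s j) = dop s j := by rw [← star_dop, star_star]

lemma star_lop (j : I) : star (lop s j) = cop s j := star_star _

lemma star_fop : star (fop I) = fop I := by
  unfold fop
  rw [star_conjJ, eop_star]

/-! ### commutation relations -/

lemma eop_rop (j : I) : eop I * rop s j = rop s j * eop I := by
  refine ext_bv fun w => ?_
  rw [ContinuousLinearMap.mul_apply, ContinuousLinearMap.mul_apply, rop_bv, map_sum, eop_bv]
  by_cases h : hd w
  · rw [if_pos h, rop_bv]
    refine Finset.sum_congr rfl fun d _ => ?_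
    rw [map_smul, eop_bv, hd_snoc, if_pos h]
  · rw [if_neg h, map_zero]
    refine Finset.sum_eq_zero fun d _ => ?_
    rw [map_smul, eop_bv, hd_snoc, if_neg h, smul_zero]

lemma eop_dop (j : I) : eop I * dop s j = dop s j * eop I := by
  have h := congrArg star (eop_rop s j)
  rw [star_mul, star_mul, eop_star, star_rop] at h
  exact h.symm

lemma eop_fop : eop I * fop I = fop I * eop I := by
  refine ext_bv fun w => ?_
  rw [ContinuousLinearMap.mul_apply, ContinuousLinearMap.mul_apply, fop_bv, eop_bv]
  by_cases h : hd w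
  · by_cases h' : hd (rev w)
    · rw [if_pos h, if_pos h', fop_bv, eop_bv, if_pos h, if_pos h']
    · rw [if_pos h, if_neg h', fop_bv, map_zero, if_neg h']
  · by_cases h' : hd (rev w)
    · rw [if_neg h, if_pos h', map_zero, eop_bv, if_neg h]
    · rw [if_neg h, if_neg h', map_zero, map_zero]

lemma lop_rop (i j : I) : lop s i * rop s j = rop s j * lop s i := by
  refine ext_bv fun w => ?_
  rw [ContinuousLinearMap.mul_apply, ContinuousLinearMap.mul_apply, rop_bv, lop_bv, map_sum,
    map_sum]
  simp only [map_smul, rop_bv, lop_bv, Finset.smul_sum]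
  rw [Finset.sum_comm]
  refine Finset.sum_congr rfl fun d _ => Finset.sum_congr rfl fun c _ => ?_
  rw [smul_comm]
  rfl

lemma cop_dop (i j : I) : cop s i * dop s j = dop s j * cop s i := by
  have h := congrArg star (lop_rop s i j)
  rw [star_mul, star_mul, star_rop, star_lop] at h
  exact h.symm

lemma vac_apply_nil (d : Bool) : (vac I s) (nil d) = s d := by
  classical
  unfold vac
  rw [Fintype.sum_bool]
  change (s true : ℂ) * bv (nil true) (nil d) + (s false : ℂ) * bv (nil false) (nil d) = _
  rw [bv_apply, bv_apply]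
  cases d
  · rw [if_neg (by intro h; injection h with h1; exact absurd h1 (by decide)), if_pos rfl]; simp
  · rw [if_pos rfl, if_neg (by intro h; injection h with h1; exact absurd h1 (by decide))]; simp

lemma vac_apply_cons (d : Bool) (i : I) (w : Pth I) : (vac I s) (cons d i w) = 0 := by
  classical
  unfold vac
  rw [Fintype.sum_bool]
  change (s true : ℂ) * bv (nil true) (cons d i w) + (s false : ℂ) * bv (nil false) (cons d i w) = _
  rw [bv_apply, bv_apply, if_neg (by intro h; cases h), if_neg (by intro h; cases h)]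
  simp

/-- the rank one operator `ξ ↦ ⟪Ω, ξ⟫ Ω` -/
def vv (I : Type) (s : Bool → ℝ) : HP I →L[ℂ] HP I :=
  (innerSL ℂ (vac I s)).smulRight (vac I s)

lemma vv_apply (ξ : HP I) : vv I s ξ = (inner ℂ (vac I s) ξ : ℂ) • vac I s := rfl

lemma vv_star : star (vv I s) = vv I s := by
  refine ContinuousLinearMap.ext fun ξ => ?_
  refine ext_inner_right ℂ fun η => ?_
  rw [ContinuousLinearMap.star_eq_adjoint, ContinuousLinearMap.adjoint_inner_left, vv_apply,
    vv_apply, inner_smul_right, inner_smul_left, inner_conj_symm, mul_comm]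

open Classical in
lemma cop_rop (i j : I) :
    cop s i * rop s j = rop s j * cop s i + if i = j then vv I s else 0 := by
  refine ext_bv fun w => ?_
  rw [ContinuousLinearMap.add_apply, ContinuousLinearMap.mul_apply,
    ContinuousLinearMap.mul_apply, rop_bv, map_sum]
  have hv : ∀ w : Pth I, (if i = j then vv I s else 0) (bv w) =
      if i = j then ((starRingEnd ℂ) ((vac I s) w)) • vac I s else 0 := by
    intro w
    by_cases h : i = j
    · rw [if_pos h, if_pos h, vv_apply, inner_bv_right]
    · rw [if_neg h, if_neg h]; rfl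
  rw [hv]
  cases w with
  | nil d =>
    rw [cop_nil, map_zero, zero_add, vac_apply_nil]
    by_cases h : i = j
    · subst h
      rw [if_pos rfl, Complex.conj_ofReal]
      unfold vac
      rw [Finset.smul_sum]
      refine Finset.sum_congr rfl fun c _ => ?_
      rw [map_smul, snoc, cop_cons, if_pos rfl, smul_comm]
    · rw [if_neg h]
      refine Finset.sum_eq_zero fun c _ => ?_
      rw [map_smul, snoc, cop_cons, if_neg (fun h1 => h h1.symm), smul_zero]
  | cons d k w =>
    rw [vac_apply_cons, map_zero, zero_smul, ite_self, add_zero, cop_cons]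
    by_cases h : k = i
    · subst h
      rw [if_pos rfl, map_smul, rop_bv, Finset.smul_sum]
      refine Finset.sum_congr rfl fun c _ => ?_
      rw [map_smul, snoc, cop_cons, if_pos rfl, smul_comm]
    · rw [if_neg h, map_zero]
      refine Finset.sum_eq_zero fun c _ => ?_
      rw [map_smul, snoc, cop_cons, if_neg h, smul_zero]

open Classical in
lemma dop_lop (i j : I) :
    dop s j * lop s i = lop s i * dop s j + if i = j then vv I s else 0 := by
  have h := congrArg star (cop_rop s i j)
  rw [star_add, star_mul, star_mul, star_rop] at h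
  have h2 : star (cop s i) = lop s i := rfl
  rw [h2] at h
  rw [h]
  congr 1
  by_cases hij : i = j
  · rw [if_pos hij, vv_star]
  · rw [if_neg hij, star_zero]

lemma semi_comm (i j : I) :
    (lop s i + cop s i) * (rop s j + dop s j) = (rop s j + dop s j) * (lop s i + cop s i) := by
  classical
  rw [add_mul, mul_add, mul_add, add_mul, mul_add, mul_add, lop_rop, cop_rop, cop_dop, dop_lop]
  abel

end

end P087.Fk
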