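import Vale.Agent.P087.T01a
import Vale.Agent.P087.T01b_path

open MeasureTheory Filter
open scoped ENNReal InnerProductSpace
noncomputable section
namespace P087

namespace Fk

open Pth

variable {I : Type} (s : Bool → ℝ)

lemma cop_vac (j : I) : cop s j (vac I s) = 0 := by
  unfold vac
  rw [map_sum]
  refine Finset.sum_eq_zero fun d _ => ?_
  rw [map_smul, cop_nil, smul_zero]

lemma eop_vac : eop I (vac I s) = (s true : ℂ) • bv (nil true) := by
  unfold vac
  rw [Fintype.sum_bool, map_add, map_smul, map_smul, eop_bv, eop_bv, hd, hd, if_pos rfl,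
    if_neg (by decide), smul_zero, add_zero]

lemma cop_eop_vac (j : I) : cop s j (eop I (vac I s)) = 0 := by
  rw [eop_vac, map_smul, cop_nil, smul_zero]

lemma JJ_vac : JJ I (vac I s) = vac I s := by
  unfold vac
  rw [map_sum]
  refine Finset.sum_congr rfl fun d _ => ?_
  rw [map_smulₛₗ, Complex.conj_ofReal, JJ_bv, rev]

lemma lop_vac (j : I) : lop s j (vac I s) =
    ∑ d : Bool, ∑ c : Bool, ((s d : ℂ) * (s c : ℂ)) • bv (cons c j (nil d)) := by
  unfold vac
  rw [map_sum]
  refine Finset.sum_congr rfl fun d _ => ?_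
  rw [map_smul, lop_bv, Finset.smul_sum]
  refine Finset.sum_congr rfl fun c _ => ?_
  rw [smul_smul]

lemma JJ_lop_vac (j : I) : JJ I (lop s j (vac I s)) = lop s j (vac I s) := by
  rw [lop_vac, map_sum, Finset.sum_comm]
  refine Finset.sum_congr rfl fun d _ => ?_
  rw [map_sum]
  refine Finset.sum_congr rfl fun c _ => ?_
  rw [map_smulₛₗ, map_mul, Complex.conj_ofReal, Complex.conj_ofReal, JJ_bv, mul_comm]
  rfl

lemma inner_vac (ξ : HP I) : inner ℂ (vac I s) ξ = ∑ d : Bool, (s d : ℂ) * ξ (nil d) := by
  unfold vac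
  rw [sum_inner]
  refine Finset.sum_congr rfl fun d _ => ?_
  rw [inner_smul_left, Complex.conj_ofReal, inner_bv_left]

/-- the generators -/
def aop (I : Type) (s : Bool → ℝ) : Option I → (HP I →L[ℂ] HP I)
  | none => eop I
  | some j => lop s j + cop s j

def bop (I : Type) (s : Bool → ℝ) (o : Option I) : HP I →L[ℂ] HP I := conjJ (JJ I) (aop I s o)

lemma aop_star (o : Option I) : star (aop I s o) = aop I s o := by
  cases o with
  | none => exact eop_star
  | some j =>
    change star (lop s j + cop s j) = lop s j + cop s j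
    rw [star_add, star_lop, add_comm]
    rfl

lemma bop_some (j : I) : bop I s (some j) = rop s j + dop s j := conjJ_add _ _

lemma aop_bop (o p : Option I) : aop I s o * bop I s p = bop I s p * aop I s o := by
  have hen : ∀ j : I, eop I * bop I s (some j) = bop I s (some j) * eop I := by
    intro j
    rw [bop_some, mul_add, add_mul, eop_rop, eop_dop]
  cases o with
  | none =>
    cases p with
    | none => exact eop_fop
    | some j => exact hen j
  | some i =>
    cases p with
    | none =>
      have h := congrArg (conjJ (JJ I)) (hen i)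
      rw [conjJ_mul, conjJ_mul] at h
      have h2 : conjJ (JJ I) (bop I s (some i)) = aop I s (some i) := conjJ_conjJ _
      rw [h2] at h
      exact h.symm
    | some j =>
      rw [bop_some]
      exact semi_comm s i j

lemma aop_vac (o : Option I) : aop I s o (vac I s) = bop I s o (vac I s) := by
  unfold bop
  rw [conjJ_apply, JJ_vac]
  cases o with
  | none =>
    change eop I (vac I s) = JJ I (eop I (vac I s))
    rw [eop_vac, map_smulₛₗ, Complex.conj_ofReal, JJ_bv, rev]
  | some j =>
    change (lop s j + cop s j) (vac I s) = JJ I ((lop s j + cop s j) (vac I s))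
    rw [ContinuousLinearMap.add_apply, cop_vac, add_zero, JJ_lop_vac]

/-- the span of the words -/
def wsp (I : Type) (s : Bool → ℝ) : Submodule ℂ (HP I) :=
  Submodule.span ℂ (Set.range fun w : List (Option I) => ((w.map (aop I s)).prod : HP I →L[ℂ] HP I)
    (vac I s))

lemma vac_mem : vac I s ∈ wsp I s := Submodule.subset_span ⟨[], rfl⟩

lemma aop_mem (o : Option I) {ξ : HP I} (h : ξ ∈ wsp I s) : aop I s o ξ ∈ wsp I s := by
  unfold wsp at h ⊢
  induction h using Submodule.span_induction with
  | mem x hx =>
    obtain ⟨w, rfl⟩ := hx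
    refine Submodule.subset_span ⟨o :: w, ?_⟩
    simp only [List.map_cons, List.prod_cons]
    rfl
  | zero => rw [map_zero]; exact Submodule.zero_mem _
  | add x y _ _ hx hy => rw [map_add]; exact Submodule.add_mem _ hx hy
  | smul c x _ hx => rw [map_smul]; exact Submodule.smul_mem _ c hx

lemma bv_mem (hs : ∀ d, s d ≠ 0) (w : Pth I) :
    bv w ∈ wsp I s ∧ ∀ j, cop s j (bv w) ∈ wsp I s := by
  classical
  have hsc : ∀ d, (s d : ℂ) ≠ 0 := fun d => Complex.ofReal_ne_zero.mpr (hs d)
  induction w with
  | nil d =>
    refine ⟨?_, fun j => by rw [cop_nil]; exact Submodule.zero_mem _⟩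
    have h1 : (s true : ℂ) • (bv (nil true) : HP I) ∈ wsp I s := by
      have h := aop_mem s (none : Option I) (vac_mem s)
      change eop I (vac I s) ∈ _ at h
      rwa [eop_vac] at h
    cases d with
    | true => exact (Submodule.smul_mem_iff _ (hsc true)).mp h1
    | false =>
      have h2 : (s false : ℂ) • (bv (nil false) : HP I) ∈ wsp I s := by
        have h := Submodule.sub_mem _ (vac_mem (I := I) s) h1
        unfold vac at h
        rwa [Fintype.sum_bool, add_sub_cancel_left] at h
      exact (Submodule.smul_mem_iff _ (hsc false)).mp h2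
  | cons d j w ih =>
    refine ⟨?_, ?_⟩
    · have h1 : lop s j (bv w) ∈ wsp I s := by
        have h := aop_mem s (some j) ih.1
        change (lop s j + cop s j) (bv w) ∈ _ at h
        rw [ContinuousLinearMap.add_apply] at h
        have h2 := Submodule.sub_mem _ h (ih.2 j)
        rwa [add_sub_cancel_right] at h2
      have h3 : (s true : ℂ) • (bv (cons true j w) : HP I) ∈ wsp I s := by
        have h := aop_mem s (none : Option I) h1
        change eop I (lop s j (bv w)) ∈ _ at h
        rwa [lop_bv, Fintype.sum_bool, map_add, map_smul, map_smul, eop_bv, eop_bv, hd, hd,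
          if_pos rfl, if_neg (by decide), smul_zero, add_zero] at h
      cases d with
      | true => exact (Submodule.smul_mem_iff _ (hsc true)).mp h3
      | false =>
        have h4 : (s false : ℂ) • (bv (cons false j w) : HP I) ∈ wsp I s := by
          have h := Submodule.sub_mem _ h1 h3
          rwa [lop_bv, Fintype.sum_bool, add_sub_cancel_left] at h
        exact (Submodule.smul_mem_iff _ (hsc false)).mp h4
    · intro i
      rw [cop_cons]
      by_cases h : j = i
      · rw [if_pos h]; exact Submodule.smul_mem _ _ ih.1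
      · rw [if_neg h]; exact Submodule.zero_mem _

lemma wsp_dense (hs : ∀ d, s d ≠ 0) : (wsp I s).topologicalClosure = ⊤ := by
  rw [eq_top_iff, ← span_bv_dense]
  refine Submodule.topologicalClosure_mono ?_
  rw [Submodule.span_le]
  rintro _ ⟨w, rfl⟩
  exact (bv_mem s hs w).1

lemma cop_lop [DecidableEq I] (hs : s true ^ 2 + s false ^ 2 = 1) (i j : I) :
    cop s i * lop s j = if i = j then 1 else 0 := by
  refine ext_bv fun w => ?_
  rw [ContinuousLinearMap.mul_apply, lop_bv, map_sum]
  by_cases h : i = j
  · subst h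
    rw [if_pos rfl, Fintype.sum_bool, map_smul, map_smul, cop_cons, cop_cons, if_pos rfl,
      if_pos rfl, smul_smul, smul_smul, ← add_smul]
    have h2 : (s true : ℂ) * (s true : ℂ) + (s false : ℂ) * (s false : ℂ) = 1 := by
      rw [← Complex.ofReal_mul, ← Complex.ofReal_mul, ← Complex.ofReal_add, ← sq, ← sq, hs,
        Complex.ofReal_one]
    rw [h2, one_smul]
    rfl
  · rw [if_neg h]
    refine Finset.sum_eq_zero fun c _ => ?_
    rw [map_smul, cop_cons, if_neg (fun h1 => h h1.symm), smul_zero]

lemma cop_eop_lop [DecidableEq I] (i j : I) :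
    cop s i * eop I * lop s j = if i = j then (((s true ^ 2 : ℝ) : ℂ)) • 1 else 0 := by
  refine ext_bv fun w => ?_
  rw [ContinuousLinearMap.mul_apply, ContinuousLinearMap.mul_apply, lop_bv, Fintype.sum_bool,
    map_add, map_smul, map_smul, eop_bv, eop_bv, hd, hd, if_pos rfl, if_neg (by decide),
    smul_zero, add_zero, map_smul, cop_cons]
  by_cases h : i = j
  · subst h
    rw [if_pos rfl, if_pos rfl, smul_smul, ← Complex.ofReal_mul, ← sq]
    rfl
  · rw [if_neg h, if_neg (fun h1 => h h1.symm), smul_zero]
    rfl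

end Fk

open Fk Pth in
/-- T1b. Existence of the model (path space `ℓ²(List (Fin 2 × I) × Fin 2)`). -/
theorem exists_model (I : Type) [DecidableEq I] (α : ℝ) (h0 : 0 < α) (h1 : α < 1) :
    ∃ (H : Type) (_ : NormedAddCommGroup H) (_ : InnerProductSpace ℂ H) (_ : CompleteSpace H)
      (T : TracialVN H) (l : I → (H →L[ℂ] H)) (e : H →L[ℂ] H), Rel T α l e := by
  obtain ⟨s, hst, hsf⟩ : ∃ s : Bool → ℝ, s true ^ 2 = α ∧ s false ^ 2 = 1 - α :=
    ⟨fun d => if d then √α else √(1 - α), by
      simp only [if_true]; exact Real.sq_sqrt h0.le, by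
      simp only [Bool.false_eq_true, if_false]; exact Real.sq_sqrt (by linarith)⟩
  have hs : ∀ d, s d ≠ 0 := by
    intro d hd0
    cases d with
    | true => rw [hd0] at hst; norm_num at hst; linarith
    | false => rw [hd0] at hsf; norm_num at hsf; linarith
  have hs1 : s true ^ 2 + s false ^ 2 = 1 := by rw [hst, hsf]; ring
  have hinner : inner ℂ (vac I s) (vac I s) = (1 : ℂ) := by
    rw [inner_vac, Fintype.sum_bool, vac_apply_nil, vac_apply_nil,
      ← Complex.ofReal_mul, ← Complex.ofReal_mul, ← Complex.ofReal_add, ← sq, ← sq, hs1,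
      Complex.ofReal_one]
  have hnorm : ‖vac I s‖ = 1 := by
    have h := inner_self_eq_norm_sq_to_K (𝕜 := ℂ) (vac I s)
    rw [hinner] at h
    have h2 : ‖vac I s‖ ^ 2 = 1 := by
      have h3 : ((‖vac I s‖ ^ 2 : ℝ) : ℂ) = ((1 : ℝ) : ℂ) := by
        rw [Complex.ofReal_pow, Complex.ofReal_one]
        exact h.symm
      exact Complex.ofReal_injective h3
    have h4 := norm_nonneg (vac I s)
    nlinarith [h2, h4]
  obtain ⟨T, hTΩ, hTM⟩ := exists_tracialVN (aop I s) (bop I s) (vac I s) hnorm (JJ I) JJ_JJ
    (JJ_vac s) (aop_star s) (fun i x => rfl) (aop_bop s) (aop_vac s) (wsp_dense s hs)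
  refine ⟨HP I, inferInstance, inferInstance, inferInstance, T, lop s, eop I, ?_⟩
  refine
    { ll := fun i j => ?_
      lel := fun i j => ?_
      lΩ := fun i => ?_
      leΩ := fun i => ?_
      e_idem := eop_idem
      e_sa := eop_star
      eΩ := ?_
      mem_l := fun i => ?_
      mem_e := hTM none }
  · rw [star_lop]; exact cop_lop s hs1 i j
  · rw [star_lop, cop_eop_lop, hst]
  · rw [star_lop, hTΩ]; exact cop_vac s i
  · rw [star_lop, hTΩ]; exact cop_eop_vac s i
  · rw [hTΩ, inner_vac, Fintype.sum_bool, eop_apply, eop_apply, vac_apply_nil, vac_apply_nil, hd, hd,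
      if_pos rfl, if_neg (by decide), mul_zero, add_zero, ← Complex.ofReal_mul, ← sq, hst]
  · rw [star_lop]; exact hTM (some i)

end P087
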