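import Mathlib

/-!
The full Fock space over a group algebra: the Hilbert space with orthonormal basis the words
`a₀ j₁ a₁ ⋯ j_p a_p` (`a_i` in a group `G`, `j_i` in an index set `I`), with left translations,
creation operators and their right versions.
-/

namespace P087.Fk

open ContinuousLinearMap InnerProductSpace

noncomputable section

abbrev Hs (W : Type) := lp (fun _ : W => ℂ) 2

/-! ### Operators given by partial injections -/

variable {W : Type}

def PInj (q : W → Option W) : Prop := ∀ h h' k, q h = some k → q h' = some k → h = h'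

lemma sum_elim_le {q : W → Option W} (hq : PInj q) (ξ : Hs W) (s : Finset W) :
    ∑ h ∈ s, ‖(q h).elim 0 (ξ : W → ℂ)‖ ^ (2 : ENNReal).toReal ≤ ‖ξ‖ ^ (2 : ENNReal).toReal := by
  classical
  have h2 : 0 < (2 : ENNReal).toReal := by norm_num
  have h0 : ∀ h ∈ s, h ∉ s.filter (fun h => (q h).isSome) →
      ‖(q h).elim 0 (ξ : W → ℂ)‖ ^ (2 : ENNReal).toReal = 0 := by
    intro h hs hns
    have : ¬ (q h).isSome := fun h1 => hns (Finset.mem_filter.mpr ⟨hs, h1⟩)
    rw [Option.not_isSome_iff_eq_none] at this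
    rw [this]; simp
  rw [← Finset.sum_subset (Finset.filter_subset (fun h => (q h).isSome) s) h0]
  let r : W → W := fun h => (q h).getD h
  have hr : ∀ h ∈ s.filter (fun h => (q h).isSome), q h = some (r h) := by
    intro h hh
    obtain ⟨k, hk⟩ := Option.isSome_iff_exists.mp (Finset.mem_filter.mp hh).2
    simp [r, hk]
  have hinj : Set.InjOn r (s.filter (fun h => (q h).isSome) : Finset W) := by
    intro a ha b hb hab
    refine hq a b (r a) (hr a ha) ?_
    rw [hab]; exact hr b hb
  calc ∑ h ∈ s.filter (fun h => (q h).isSome), ‖(q h).elim 0 (ξ : W → ℂ)‖ ^ (2 : ENNReal).toReal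
      = ∑ h ∈ s.filter (fun h => (q h).isSome), ‖ξ (r h)‖ ^ (2 : ENNReal).toReal := by
        refine Finset.sum_congr rfl fun h hh => ?_
        rw [hr h hh]; rfl
    _ = ∑ k ∈ (s.filter (fun h => (q h).isSome)).image r, ‖ξ k‖ ^ (2 : ENNReal).toReal := by
        rw [Finset.sum_image hinj]
    _ ≤ ‖ξ‖ ^ (2 : ENNReal).toReal := lp.sum_rpow_le_norm_rpow h2 ξ _

def Wfun (q : W → Option W) (hq : PInj q) (ξ : Hs W) : Hs W :=
  ⟨fun h => (q h).elim 0 (ξ : W → ℂ), memℓp_gen' (fun s => sum_elim_le hq ξ s)⟩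

/-- the operator `(Wop q ξ) w = ξ (q w)` (`0` where `q` is undefined) -/
def Wop (q : W → Option W) (hq : PInj q) : Hs W →L[ℂ] Hs W :=
  LinearMap.mkContinuous
    { toFun := Wfun q hq
      map_add' := by
        intro ξ η
        ext h
        change (q h).elim 0 ((ξ + η : Hs W) : W → ℂ) =
          (q h).elim 0 (ξ : W → ℂ) + (q h).elim 0 (η : W → ℂ)
        cases q h with
        | none => exact (add_zero (0 : ℂ)).symm
        | some k => rfl
      map_smul' := by
        intro c ξ
        ext h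
        change (q h).elim 0 ((c • ξ : Hs W) : W → ℂ) = c • (q h).elim (0 : ℂ) (ξ : W → ℂ)
        cases q h <;> simp } 1 (by
      intro ξ
      rw [one_mul]
      exact lp.norm_le_of_forall_sum_le (by norm_num) (norm_nonneg _)
        (fun s => sum_elim_le hq ξ s))

lemma Wop_apply (q : W → Option W) (hq : PInj q) (ξ : Hs W) (h : W) :
    Wop q hq ξ h = (q h).elim 0 (ξ : W → ℂ) := rfl

lemma norm_Wop_le (q : W → Option W) (hq : PInj q) : ‖Wop q hq‖ ≤ 1 :=
  LinearMap.mkContinuous_norm_le _ zero_le_one _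

/-! ### basis vectors -/

open Classical in
/-- the basis vector at `w` -/
def bv (w : W) : Hs W := lp.single 2 w (1 : ℂ)

open Classical in
lemma bv_apply (w v : W) : bv w v = if v = w then 1 else 0 := by
  unfold bv
  rw [lp.single_apply]
  by_cases h : v = w
  · subst h; simp
  · simp [h]

lemma inner_bv_left (w : W) (ξ : Hs W) : inner ℂ (bv w) ξ = ξ w := by
  classical
  unfold bv
  rw [lp.inner_single_left]
  simp

lemma inner_bv_right (w : W) (ξ : Hs W) : inner ℂ ξ (bv w) = (starRingEnd ℂ) (ξ w) := by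
  rw [← inner_conj_symm, inner_bv_left]

lemma ext_bv {T T' : Hs W →L[ℂ] Hs W} (h : ∀ w, T (bv w) = T' (bv w)) : T = T' := by
  refine ContinuousLinearMap.ext fun ξ => ?_
  refine ext_inner_left ℂ fun η => ?_
  rw [← ContinuousLinearMap.adjoint_inner_left, ← ContinuousLinearMap.adjoint_inner_left]
  congr 1
  ext w
  rw [← inner_bv_left, ← inner_bv_left, ContinuousLinearMap.adjoint_inner_right,
    ContinuousLinearMap.adjoint_inner_right, h w]

lemma span_bv_dense : (Submodule.span ℂ (Set.range (bv : W → Hs W))).topologicalClosure = ⊤ := by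
  rw [Submodule.topologicalClosure_eq_top_iff, Submodule.eq_bot_iff]
  intro ξ hξ
  rw [Submodule.mem_orthogonal] at hξ
  ext w
  have h1 := hξ (bv w) (Submodule.subset_span ⟨w, rfl⟩)
  rw [inner_bv_left] at h1
  exact h1

/-! ### pullback along an injective map -/

/-- `pull f ξ = ξ ∘ f` -/
def pull (f : W → W) (hf : Function.Injective f) : Hs W →L[ℂ] Hs W :=
  Wop (fun w => some (f w)) (fun _ _ _ h1 h2 => hf (Option.some.inj (h1.trans h2.symm)))

lemma pull_apply (f : W → W) (hf : Function.Injective f) (ξ : Hs W) (w : W) :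
    pull f hf ξ w = ξ (f w) := rfl

lemma star_pull_bv (f : W → W) (hf : Function.Injective f) (w : W) :
    star (pull f hf) (bv w) = bv (f w) := by
  refine ext_inner_right ℂ fun ξ => ?_
  rw [ContinuousLinearMap.star_eq_adjoint, ContinuousLinearMap.adjoint_inner_left,
    inner_bv_left, inner_bv_left, pull_apply]

lemma pull_bv (f : W → W) (hf : Function.Injective f) (w : W) :
    pull f hf (bv (f w)) = bv w := by
  classical
  ext v
  rw [pull_apply, bv_apply, bv_apply]
  by_cases h : v = w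
  · rw [if_pos h, if_pos (by rw [h])]
  · rw [if_neg h, if_neg (fun h1 => h (hf h1))]

lemma pull_bv_zero (f : W → W) (hf : Function.Injective f) (w : W) (h : ∀ v, f v ≠ w) :
    pull f hf (bv w) = 0 := by
  classical
  ext v
  rw [pull_apply, bv_apply, if_neg (h v)]
  rfl

/-! ### the antiunitary given by an involution -/

def Jfun (r : W → W) (hr : Function.Involutive r) (ξ : Hs W) : Hs W :=
  star (pull r hr.injective ξ)

lemma Jfun_apply (r : W → W) (hr : Function.Involutive r) (ξ : Hs W) (w : W) :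
    Jfun r hr ξ w = (starRingEnd ℂ) (ξ (r w)) := rfl

lemma Jfun_invol (r : W → W) (hr : Function.Involutive r) : Function.Involutive (Jfun r hr) := by
  intro ξ
  ext w
  rw [Jfun_apply, Jfun_apply, hr w, Complex.conj_conj]

lemma norm_Jfun_le (r : W → W) (hr : Function.Involutive r) (ξ : Hs W) : ‖Jfun r hr ξ‖ ≤ ‖ξ‖ := by
  unfold Jfun
  rw [norm_star]
  have h := (pull r hr.injective).le_of_opNorm_le (norm_Wop_le _ _) ξ
  rwa [one_mul] at h

/-- `(Jop r ξ) w = conj (ξ (r w))` -/
def Jop (r : W → W) (hr : Function.Involutive r) : Hs W ≃ₗᵢ⋆[ℂ] Hs W where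
  toLinearEquiv := LinearEquiv.ofInvolutive
    { toFun := Jfun r hr
      map_add' := fun ξ η => by
        ext w
        change (starRingEnd ℂ) (ξ (r w) + η (r w)) = _
        rw [map_add]
        rfl
      map_smul' := fun c ξ => by
        ext w
        change (starRingEnd ℂ) (c * ξ (r w)) = _
        rw [map_mul]
        rfl } (Jfun_invol r hr)
  norm_map' := fun ξ => by
    refine le_antisymm (norm_Jfun_le r hr ξ) ?_
    have h := norm_Jfun_le r hr (Jfun r hr ξ)
    rwa [Jfun_invol r hr ξ] at h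

lemma Jop_apply (r : W → W) (hr : Function.Involutive r) (ξ : Hs W) (w : W) :
    Jop r hr ξ w = (starRingEnd ℂ) (ξ (r w)) := rfl

lemma Jop_Jop (r : W → W) (hr : Function.Involutive r) (ξ : Hs W) : Jop r hr (Jop r hr ξ) = ξ :=
  Jfun_invol r hr ξ

lemma Jop_bv (r : W → W) (hr : Function.Involutive r) (w : W) :
    Jop r hr (bv w) = bv (r w) := by
  classical
  ext v
  rw [Jop_apply, bv_apply, bv_apply]
  by_cases h : v = r w
  · rw [if_pos h, if_pos (by rw [h, hr w]), map_one]
  · rw [if_neg h, if_neg (fun h1 => h (by rw [← h1, hr v])), map_zero]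

lemma Jop_inner (r : W → W) (hr : Function.Involutive r) (ξ η : Hs W) :
    inner ℂ (Jop r hr ξ) (Jop r hr η) = inner ℂ η ξ := by
  rw [lp.inner_eq_tsum, lp.inner_eq_tsum]
  rw [← (Equiv.ofBijective r hr.bijective).tsum_eq]
  refine tsum_congr fun w => ?_
  rw [Equiv.ofBijective_apply, Jop_apply, Jop_apply, hr w]
  change (starRingEnd ℂ) (η w) * (starRingEnd ℂ) ((starRingEnd ℂ) (ξ w)) = ξ w * (starRingEnd ℂ) (η w)
  rw [Complex.conj_conj, mul_comm]

/-- conjugation of a bounded operator by the antiunitary -/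
def conjJ (J : Hs W ≃ₗᵢ⋆[ℂ] Hs W) (T : Hs W →L[ℂ] Hs W) : Hs W →L[ℂ] Hs W :=
  (J.toContinuousLinearEquiv : Hs W →SL[starRingEnd ℂ] Hs W).comp
    (T.comp (J.toContinuousLinearEquiv : Hs W →SL[starRingEnd ℂ] Hs W))

lemma conjJ_apply (J : Hs W ≃ₗᵢ⋆[ℂ] Hs W) (T : Hs W →L[ℂ] Hs W) (ξ : Hs W) :
    conjJ J T ξ = J (T (J ξ)) := rfl

end

end P087.Fk
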