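import Vale.Agent.P087.Basic
import Vale.Agent.P087.Words

open MeasureTheory Filter
open scoped ENNReal InnerProductSpace
noncomputable section
namespace P087
variable {H : Type} [NormedAddCommGroup H] [InnerProductSpace ℂ H] [CompleteSpace H]
  {T : TracialVN H} {I : Type} [DecidableEq I] {α : ℝ} {l : I → (H →L[ℂ] H)} {e : H →L[ℂ] H}

section aux

lemma T03_inner_star (a : H →L[ℂ] H) (x y : H) : ⟪x, (star a) y⟫_ℂ = ⟪a x, y⟫_ℂ :=
  ContinuousLinearMap.adjoint_inner_right a x y

lemma T03_inner_star' (a : H →L[ℂ] H) (x y : H) : ⟪x, a y⟫_ℂ = ⟪(star a) x, y⟫_ℂ := by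
  rw [← T03_inner_star, star_star]

lemma Rel.T03_ll (h : Rel T α l e) (i j : I) (v : H) :
    (star (l i)) (l j v) = if i = j then v else 0 := by
  have h1 := DFunLike.congr_fun (h.ll i j) v
  rw [mul_apply_eq_comp] at h1
  rw [h1]
  split_ifs <;> simp

lemma Rel.T03_lel (h : Rel T α l e) (i j : I) (v : H) :
    (star (l i)) (e (l j v)) = if i = j then (α : ℂ) • v else 0 := by
  have h1 := DFunLike.congr_fun (h.lel i j) v
  rw [mul_apply_eq_comp, mul_apply_eq_comp] at h1
  rw [h1]
  split_ifs <;> simp

lemma Rel.T03_ee (h : Rel T α l e) (v : H) : e (e v) = e v := by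
  have h1 := DFunLike.congr_fun h.e_idem v
  rwa [mul_apply_eq_comp] at h1

/-- the vector of a word -/
def T03x (T : TracialVN H) (l : I → (H →L[ℂ] H)) (e : H →L[ℂ] H) (w : List (Option I)) : H :=
  (((w.map (gen l e)).prod : H →L[ℂ] H) T.Ω)

/-- the moment of a word -/
def T03t (T : TracialVN H) (l : I → (H →L[ℂ] H)) (e : H →L[ℂ] H) (w : List (Option I)) : ℂ :=
  T.τ ((w.map (gen l e)).prod)

omit [DecidableEq I] in
lemma T03t_eq (w : List (Option I)) : T03t T l e w = ⟪T.Ω, T03x T l e w⟫_ℂ := rfl

omit [DecidableEq I] in
lemma T03x_nil : T03x T l e [] = T.Ω := by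
  unfold T03x
  simp

omit [DecidableEq I] in
lemma T03x_none (w : List (Option I)) : T03x T l e (none :: w) = e (T03x T l e w) := by
  unfold T03x
  rw [List.map_cons, List.prod_cons, mul_apply_eq_comp]
  rfl

omit [DecidableEq I] in
lemma T03x_some (i : I) (w : List (Option I)) :
    T03x T l e (some i :: w) = l i (T03x T l e w) + (star (l i)) (T03x T l e w) := by
  unfold T03x
  rw [List.map_cons, List.prod_cons, mul_apply_eq_comp]
  rfl

omit [DecidableEq I] in
lemma T03t_nil : T03t T l e [] = 1 := by
  rw [T03t_eq, T03x_nil, inner_self_eq_norm_sq_to_K, T.norm_Ω]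
  simp

lemma Rel.T03t_one (h : Rel T α l e) : T03t T l e [none] = α := by
  rw [T03t_eq, T03x_none, T03x_nil, h.eΩ]

lemma Rel.T03t_none (h : Rel T α l e) (w : List (Option I)) :
    T03t T l e (none :: none :: w) = T03t T l e (none :: w) := by
  rw [T03t_eq, T03t_eq, T03x_none, T03x_none, h.T03_ee]

omit [CompleteSpace H] in
lemma T03_dbl {J : Type} [DecidableEq J] (F G : List J → ℂ) (x : List J → H) (i j : J)
    (w : List J) :
    ssum i w (fun u v => F u • ssum j v (fun a b => G a • x b)) =
      ssum j w (fun c b => ssum i c (fun u a => F u * G a) • x b) := by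
  have h1 : ∀ u v, F u • ssum j v (fun a b => G a • x b) =
      ssum j v (fun a b => (F u * G a) • x b) := by
    intro u v
    rw [smul_ssum]
    exact ssum_congr (fun a b _ => smul_smul _ _ _)
  simp only [h1]
  rw [ssum_ssum i j w (fun u a b => (F u * G a) • x b)]
  exact ssum_congr (fun c b _ => (ssum_smul_left _ _ _ _).symm)

/-- the two identities at the word `w` -/
def T03D (T : TracialVN H) (l : I → (H →L[ℂ] H)) (e : H →L[ℂ] H) (w : List (Option I)) : Prop :=
  ∀ i : I,
    (star (l i)) (T03x T l e w) = ssum (some i) w (fun u v => T03t T l e u • T03x T l e v) ∧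
    (star (l i)) (e (T03x T l e w)) =
      ssum (some i) w (fun u v => T03t T l e (none :: u) • T03x T l e v)

lemma Rel.T03_sd (h : Rel T α l e) (k : I) (w : List (Option I)) (hD : T03D T l e w) :
    T03t T l e (some k :: w) = ssum (some k) w (fun u v => T03t T l e u * T03t T l e v) := by
  rw [T03t_eq, T03x_some, inner_add_right, T03_inner_star' (l k), h.lΩ, inner_zero_left, zero_add,
    (hD k).1, ← innerSL_apply_apply ℂ, map_ssum (innerSL ℂ T.Ω)]
  refine ssum_congr (fun u v _ => ?_)
  rw [innerSL_apply_apply, inner_smul_right, T03t_eq v]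

lemma Rel.T03_sde (h : Rel T α l e) (k : I) (w : List (Option I)) (hD : T03D T l e w) :
    T03t T l e (none :: some k :: w) =
      ssum (some k) w (fun u v => T03t T l e u * T03t T l e (none :: v)) := by
  rw [T03t_eq, T03x_none, T03x_some, T03_inner_star', h.e_sa, inner_add_right,
    T03_inner_star' (l k), h.leΩ, inner_zero_left, zero_add,
    (hD k).1, ← innerSL_apply_apply ℂ, map_ssum (innerSL ℂ (e T.Ω))]
  refine ssum_congr (fun u v _ => ?_)
  rw [innerSL_apply_apply, inner_smul_right, T03t_eq (none :: v), T03x_none,
    T03_inner_star' e T.Ω, h.e_sa]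

lemma Rel.T03_main (h : Rel T α l e) (w : List (Option I)) : T03D T l e w := by
  induction hn : w.length using Nat.strong_induction_on generalizing w with
  | _ n ih =>
    cases w with
    | nil =>
      intro i
      refine ⟨?_, ?_⟩
      · rw [T03x_nil, h.lΩ, ssum_nil]
      · rw [T03x_nil, h.leΩ, ssum_nil]
    | cons k w =>
      have hw : T03D T l e w := ih w.length (by rw [← hn]; simp) w rfl
      have hlt : ∀ u v (k : Option I), w = u ++ k :: v → u.length < n ∧ v.length < n := by
        intro u v k huv
        have : w.length = u.length + (v.length + 1) := by rw [huv]; simp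
        rw [List.length_cons] at hn
        omega
      cases k with
      | none =>
        intro i
        refine ⟨?_, ?_⟩
        · rw [T03x_none, (hw i).2, ssum_cons, if_neg (by simp), zero_add]
        · rw [T03x_none, h.T03_ee, (hw i).2, ssum_cons, if_neg (by simp), zero_add]
          exact ssum_congr (fun u v _ => by rw [h.T03t_none])
      | some k =>
        intro i
        have key : ∀ (φ : H →L[ℂ] H) (G : List (Option I) → ℂ),
            (∀ u v, w = u ++ some k :: v → φ (T03x T l e v) =
              ssum (some i) v (fun a b => G a • T03x T l e b)) →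
            φ (ssum (some k) w (fun u v => T03t T l e u • T03x T l e v)) =
              ssum (some i) w (fun c b => ssum (some k) c (fun u a => T03t T l e u * G a) •
                T03x T l e b) := by
          intro φ G hz
          rw [map_ssum φ, ← T03_dbl]
          refine ssum_congr (fun u v huv => ?_)
          rw [map_smul, hz u v huv]
        have hiff : ∀ y : H, (if i = k then y else 0) = if some k = some i then y else 0 := by
          intro y
          by_cases hik : i = k
          · rw [if_pos hik, if_pos (by rw [hik])]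
          · rw [if_neg hik, if_neg (fun h2 => hik (Option.some.inj h2).symm)]
        refine ⟨?_, ?_⟩
        · have e1 := key (star (l i)) (T03t T l e) (fun u v huv =>
            (ih v.length (hlt u v _ huv).2 v rfl i).1)
          rw [T03x_some, map_add, h.T03_ll, (hw k).1, e1, ssum_cons, hiff, T03t_nil, one_smul]
          congr 1
          refine ssum_congr (fun c b hcb => ?_)
          rw [h.T03_sd k c (ih c.length (hlt c b _ hcb).1 c rfl)]
        · have e1 := key ((star (l i)) * e) (fun a => T03t T l e (none :: a)) (fun u v huv => by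
            rw [mul_apply_eq_comp]
            exact (ih v.length (hlt u v _ huv).2 v rfl i).2)
          rw [mul_apply_eq_comp] at e1
          rw [T03x_some, map_add, map_add, h.T03_lel, (hw k).1, e1, ssum_cons, hiff, h.T03t_one]
          congr 1
          refine ssum_congr (fun c b hcb => ?_)
          rw [h.T03_sde k c (ih c.length (hlt c b _ hcb).1 c rfl)]

lemma Rel.T03_gen_sa (h : Rel T α l e) (a : Option I) : star (gen l e a) = gen l e a := by
  cases a with
  | none => exact h.e_sa
  | some i =>
    change star (l i + star (l i)) = l i + star (l i)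
    rw [star_add, star_star, add_comm]

lemma Rel.T03_gen_mem (h : Rel T α l e) (a : Option I) : gen l e a ∈ T.M := by
  cases a with
  | none => exact h.mem_e
  | some i => exact h.mem_l i

lemma Rel.T03_word_mem (h : Rel T α l e) (w : List (Option I)) :
    (w.map (gen l e)).prod ∈ T.M := by
  induction w with
  | nil => rw [List.map_nil, List.prod_nil]; exact one_mem _
  | cons a w ih => rw [List.map_cons, List.prod_cons]; exact mul_mem (h.T03_gen_mem a) ih

lemma Rel.T03_star_word (h : Rel T α l e) (w : List (Option I)) :
    star ((w.map (gen l e)).prod) = ((w.reverse.map (gen l e)).prod) := by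
  induction w with
  | nil => simp
  | cons a w ih =>
    rw [List.map_cons, List.prod_cons, star_mul, ih, h.T03_gen_sa, List.reverse_cons,
      List.map_append, List.prod_append, List.map_cons, List.map_nil, List.prod_cons,
      List.prod_nil, mul_one]

end aux

/-- T3, step 1: `l_i⋆ a_1 ⋯ a_m Ω = ∑_{k : a_k = s_i} τ(a_1 ⋯ a_{k-1}) a_{k+1} ⋯ a_m Ω`. -/
theorem Rel.annih (h : Rel T α l e) (i : I) (w : List (Option I)) :
    (star (l i)) (((w.map (gen l e)).prod : H →L[ℂ] H) T.Ω) =
      ssum (some i) w (fun u v => T.τ ((u.map (gen l e)).prod) •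
        (((v.map (gen l e)).prod : H →L[ℂ] H) T.Ω)) :=
  (h.T03_main w i).1

/-- T3: the joint law of the generators satisfies `LawProps`. -/
theorem Rel.law (h : Rel T α l e) : LawProps α (fun w => T.τ ((w.map (gen l e)).prod)) where
  nil := T03t_nil (T := T) (l := l) (e := e)
  proj := by
    intro m
    change T03t T l e (List.replicate (m + 1) none) = α
    induction m with
    | zero => exact h.T03t_one
    | succ m ih =>
      rw [← ih]
      exact h.T03t_none (List.replicate m none)
  cyc := by
    intro u v
    simp only [List.map_append, List.prod_append]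
    exact T.tracial _ (h.T03_word_mem u) _ (h.T03_word_mem v)
  rev := by
    intro u
    rw [← h.T03_star_word]
    unfold TracialVN.τ
    rw [T03_inner_star, inner_conj_symm]
  sd := by
    intro i w
    rw [← ssum_eq_fin (some i) w (fun u v => T.τ ((u.map (gen l e)).prod) *
      T.τ ((v.map (gen l e)).prod))]
    exact h.T03_sd i w (h.T03_main w)

end P087
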