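import Vale.Agent.P087.T02a
import Vale.Agent.P087.T03

open MeasureTheory Filter
open scoped ENNReal InnerProductSpace
noncomputable section
namespace P087
variable {H : Type} [NormedAddCommGroup H] [InnerProductSpace ℂ H] [CompleteSpace H]
  {T : TracialVN H} {I : Type} [DecidableEq I] {α : ℝ} {l : I → (H →L[ℂ] H)} {e : H →L[ℂ] H}

/-- polynomials in `S = L + L⋆` act on `ker L⋆` as polynomials in `L` -/
private lemma T02_poly (L : H →L[ℂ] H) (hL : star L * L = 1) (q : Polynomial ℂ) :
    ∃ p : Polynomial ℂ, ∀ v : H, (star L) v = 0 →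
      (Polynomial.aeval (L + star L) q) v = (Polynomial.aeval L p) v := by
  have hpow : ∀ m : ℕ, ∃ p : Polynomial ℂ, ∀ v : H, (star L) v = 0 →
      ((L + star L) ^ m) v = (Polynomial.aeval L p) v := by
    intro m
    induction m with
    | zero => exact ⟨1, fun v _ => by simp⟩
    | succ m ih =>
      obtain ⟨p, hp⟩ := ih
      refine ⟨Polynomial.X * p + p.divX, fun v hv => ?_⟩
      rw [pow_succ', mul_apply_eq_comp, hp v hv]
      have h1 : Polynomial.aeval L p = L * Polynomial.aeval L p.divX +
          algebraMap ℂ (H →L[ℂ] H) (p.coeff 0) := by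
        have := congrArg (Polynomial.aeval L) (Polynomial.X_mul_divX_add p).symm
        rwa [map_add, map_mul, Polynomial.aeval_X, Polynomial.aeval_C] at this
      have h2 : (star L) ((Polynomial.aeval L p) v) = (Polynomial.aeval L p.divX) v := by
        rw [h1]
        have h3 : (star L) ((L * Polynomial.aeval L p.divX) v) = (Polynomial.aeval L p.divX) v := by
          have := congrArg (fun A : H →L[ℂ] H => A ((Polynomial.aeval L p.divX) v)) hL
          simpa using this
        have h4 : (algebraMap ℂ (H →L[ℂ] H) (p.coeff 0)) v = p.coeff 0 • v := by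
          rw [Algebra.algebraMap_eq_smul_one]; rfl
        rw [ContinuousLinearMap.add_apply, map_add, h3, h4, map_smul, hv, smul_zero, add_zero]
      rw [ContinuousLinearMap.add_apply, h2, map_add, map_mul, Polynomial.aeval_X]
      rfl
  induction q using Polynomial.induction_on' with
  | add q₁ q₂ h₁ h₂ =>
    obtain ⟨p₁, hp₁⟩ := h₁
    obtain ⟨p₂, hp₂⟩ := h₂
    refine ⟨p₁ + p₂, fun v hv => ?_⟩
    rw [map_add, map_add, ContinuousLinearMap.add_apply, ContinuousLinearMap.add_apply,
      hp₁ v hv, hp₂ v hv]
  | monomial m a =>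
    obtain ⟨p, hp⟩ := hpow m
    refine ⟨a • p, fun v hv => ?_⟩
    rw [map_smul, Polynomial.aeval_monomial, ← Algebra.smul_def, ContinuousLinearMap.smul_apply,
      ContinuousLinearMap.smul_apply, hp v hv]

private lemma T02_one (h : Rel T α l e) (i : I) (b : H →L[ℂ] H)
    (hb : b ∈ Algebra.adjoin ℂ ({l i + star (l i)} : Set (H →L[ℂ] H))) (hb0 : T.τ b = 0) (v : H)
    (hv : (star (l i)) v = 0) : ∃ v', b v = (l i) v' := by
  have hL : star (l i) * l i = 1 := by have := h.ll i i; simpa using this
  rw [Algebra.adjoin_singleton_eq_range_aeval] at hb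
  obtain ⟨q, rfl⟩ := hb
  obtain ⟨p, hp⟩ := T02_poly (l i) hL q
  have h1 : Polynomial.aeval (l i) p = l i * Polynomial.aeval (l i) p.divX +
      algebraMap ℂ (H →L[ℂ] H) (p.coeff 0) := by
    have := congrArg (Polynomial.aeval (l i)) (Polynomial.X_mul_divX_add p).symm
    rwa [map_add, map_mul, Polynomial.aeval_X, Polynomial.aeval_C] at this
  have h2 : ∀ v, (Polynomial.aeval (l i) p) v = (l i) ((Polynomial.aeval (l i) p.divX) v) +
      p.coeff 0 • v := by
    intro v
    rw [h1, Algebra.algebraMap_eq_smul_one]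
    rfl
  have h3 : p.coeff 0 = 0 := by
    have h4 := hp T.Ω (h.lΩ i)
    rw [h2] at h4
    have h5 : T.τ ((Polynomial.aeval (l i + star (l i))) q) = p.coeff 0 := by
      show ⟪T.Ω, _⟫_ℂ = _
      rw [h4, inner_add_right, inner_smul_right, inner_self_eq_norm_sq_to_K, T.norm_Ω,
        ← ContinuousLinearMap.adjoint_inner_left, ← ContinuousLinearMap.star_eq_adjoint, h.lΩ,
        inner_zero_left]
      simp
    rw [← h5]
    exact hb0
  refine ⟨(Polynomial.aeval (l i) p.divX) v, ?_⟩
  have h4 := hp v hv
  rw [h2, h3, zero_smul, add_zero] at h4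
  exact h4

omit [DecidableEq I] in
private lemma T02_star_mem (K : Set I) {b : H →L[ℂ] H} (he : star e = e)
    (hb : b ∈ Algebra.adjoin ℂ
      ({e} ∪ {x | ∃ i, i ∉ K ∧ x = l i + star (l i)} : Set (H →L[ℂ] H))) :
    star b ∈ Algebra.adjoin ℂ
      ({e} ∪ {x | ∃ i, i ∉ K ∧ x = l i + star (l i)} : Set (H →L[ℂ] H)) := by
  induction hb using Algebra.adjoin_induction with
  | mem x hx =>
    rcases hx with hx | ⟨i, hi, hx⟩
    · have hx' : x = e := hx
      rw [hx', he]
      exact Algebra.subset_adjoin (Or.inl rfl)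
    · rw [hx, star_add, star_star, add_comm]
      exact Algebra.subset_adjoin (Or.inr ⟨i, hi, rfl⟩)
  | algebraMap r =>
    rw [← algebraMap_star_comm]
    exact Subalgebra.algebraMap_mem _ _
  | add x y _ _ hx hy => rw [star_add]; exact add_mem hx hy
  | mul x y _ _ hx hy => rw [star_mul]; exact mul_mem hy hx

private lemma T02_moment (h : Rel T α l e) (i : I) (n : ℕ) :
    T.τ ((l i + star (l i)) ^ (n + 1)) =
      ∑ p ∈ Finset.range n, T.τ ((l i + star (l i)) ^ p) * T.τ ((l i + star (l i)) ^ (n - 1 - p)) := by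
  have h1 := h.law.sd i (List.replicate n (some i))
  have hrep : ∀ m : ℕ, T.τ (((List.replicate m (some i)).map (gen l e)).prod) =
      T.τ ((l i + star (l i)) ^ m) := by
    intro m
    rw [List.map_replicate, List.prod_replicate]
    rfl
  have h2 : some i :: List.replicate n (some i) = List.replicate (n + 1) (some i) :=
    List.replicate_succ.symm
  simp only [h2, hrep] at h1
  rw [h1]
  have h3 : ∀ p : Fin (List.replicate n (some i)).length,
      (if (List.replicate n (some i)).get p = some i then
        T.τ ((((List.replicate n (some i)).take p).map (gen l e)).prod) *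
          T.τ ((((List.replicate n (some i)).drop (p + 1)).map (gen l e)).prod) else 0) =
      T.τ ((l i + star (l i)) ^ (p : ℕ)) * T.τ ((l i + star (l i)) ^ (n - 1 - (p : ℕ))) := by
    intro p
    have hp : (p : ℕ) < n := by
      have := p.2
      simpa using this
    rw [if_pos (by simp), List.take_replicate, List.drop_replicate, hrep, hrep]
    congr 3
    · exact min_eq_left hp.le
    · omega
  rw [Finset.sum_congr rfl fun p _ => h3 p]
  have h4 : (List.replicate n (some i)).length = n := List.length_replicate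
  rw [Fin.sum_univ_eq_sum_range (fun p => T.τ ((l i + star (l i)) ^ p) *
    T.τ ((l i + star (l i)) ^ (n - 1 - p))), h4]

private lemma T02_zero (T : TracialVN H) (a : H →L[ℂ] H) : T.τ (a ^ 0) = 1 := by
  show ⟪T.Ω, (a ^ 0) T.Ω⟫_ℂ = 1
  rw [pow_zero, one_apply_eq_self, inner_self_eq_norm_sq_to_K, T.norm_Ω]
  simp

private lemma T02_split (f : ℕ → ℂ) (k : ℕ) : ∑ p ∈ Finset.range (2 * k + 1), f p =
    ∑ q ∈ Finset.range (k + 1), f (2 * q) + ∑ q ∈ Finset.range k, f (2 * q + 1) := by
  induction k with
  | zero => simp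
  | succ k ihk =>
    rw [show 2 * (k + 1) + 1 = (2 * k + 1) + 1 + 1 by ring, Finset.sum_range_succ,
      Finset.sum_range_succ, ihk, Finset.sum_range_succ (fun q => f (2 * q)) (k + 1),
      Finset.sum_range_succ (fun q => f (2 * q + 1)) k,
      show 2 * (k + 1) = 2 * k + 1 + 1 by ring]
    ring

private lemma T02_even_odd (h : Rel T α l e) (i : I) (m : ℕ) :
    (∀ k, 2 * k = m → T.τ ((l i + star (l i)) ^ m) = catalan k) ∧
      (∀ k, 2 * k + 1 = m → T.τ ((l i + star (l i)) ^ m) = 0) := by
  induction m using Nat.strong_induction_on with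
  | _ m ih =>
    constructor
    · rintro k rfl
      rcases k with _ | k
      · simp only [Nat.mul_zero, catalan_zero, Nat.cast_one]
        exact T02_zero T _
      · rw [show 2 * (k + 1) = (2 * k + 1) + 1 by ring, T02_moment h i, catalan_succ]
        rw [T02_split]
        have hodd : ∑ q ∈ Finset.range k, T.τ ((l i + star (l i)) ^ (2 * q + 1)) *
            T.τ ((l i + star (l i)) ^ (2 * k + 1 - 1 - (2 * q + 1))) = 0 := by
          refine Finset.sum_eq_zero fun q hq => ?_
          rw [Finset.mem_range] at hq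
          rw [(ih (2 * q + 1) (by omega)).2 q rfl, zero_mul]
        rw [hodd, add_zero]
        push_cast
        rw [← Fin.sum_univ_eq_sum_range (fun q => T.τ ((l i + star (l i)) ^ (2 * q)) *
          T.τ ((l i + star (l i)) ^ (2 * k - 2 * q)))]
        refine Finset.sum_congr rfl fun q _ => ?_
        have hq := q.2
        rw [(ih (2 * (q : ℕ)) (by omega)).1 q rfl,
          show 2 * k - 2 * (q : ℕ) = 2 * (k - q) by omega,
          (ih (2 * (k - (q : ℕ))) (by omega)).1 (k - q) rfl]
    · rintro k rfl
      rw [T02_moment h i]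
      refine Finset.sum_eq_zero fun p hp => ?_
      rw [Finset.mem_range] at hp
      rcases Nat.even_or_odd p with ⟨q, hq⟩ | ⟨q, hq⟩
      · rw [(ih (2 * k - 1 - p) (by omega)).2 (k - 1 - q) (by omega), mul_zero]
      · rw [(ih p (by omega)).2 q hq.symm, zero_mul]

/-- T2. Freeness and semicircularity. -/
theorem Rel.isFreeSemicircular (h : Rel T α l e) {n : ℕ} (c : Fin n → I)
    (hc : Function.Injective c) (X : Fin n → (H →L[ℂ] H))
    (hX : ∀ j, X j ∈ Algebra.adjoin ℂ
      ({e} ∪ {x | ∃ i, i ∉ Set.range c ∧ x = l i + star (l i)} : Set (H →L[ℂ] H))) :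
    T.IsFreeSemicircular X (fun j => l (c j) + star (l (c j))) := by
  have hXalg : ∀ b ∈ Algebra.adjoin ℂ (Set.range X), b ∈ Algebra.adjoin ℂ
      ({e} ∪ {x | ∃ i, i ∉ Set.range c ∧ x = l i + star (l i)} : Set (H →L[ℂ] H)) := by
    intro b hb
    refine Algebra.adjoin_le ?_ hb
    rintro _ ⟨j, rfl⟩
    exact hX j
  refine ⟨fun j => h.mem_l _, fun j => ?_, fun j m => ?_, fun j m => ?_, ?_⟩
  · unfold IsSelfAdjoint
    rw [star_add, star_star, add_comm]
  · exact (T02_even_odd h (c j) (2 * m)).1 m rfl
  · exact (T02_even_odd h (c j) (2 * m + 1)).2 m rfl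
  · intro L hL hchain hcent
    have key : ∀ L : List (Option (Fin n) × (H →L[ℂ] H)), ∀ q : Option (Fin n) × (H →L[ℂ] H),
        (q :: L).IsChain (fun p q => p.1 ≠ q.1) →
        (∀ p ∈ q :: L, p.2 ∈ (p.1.elim (Algebra.adjoin ℂ (Set.range X))
          (fun j => Algebra.adjoin ℂ {l (c j) + star (l (c j))}) :
          Subalgebra ℂ (H →L[ℂ] H)) ∧ T.τ p.2 = 0) →
        (q.1 = none → (∀ j, (star (l (c j))) (((q :: L).map Prod.snd).prod T.Ω) = 0) ∧
          ⟪T.Ω, ((q :: L).map Prod.snd).prod T.Ω⟫_ℂ = 0) ∧
        (∀ j, q.1 = some j → ∃ v', ((q :: L).map Prod.snd).prod T.Ω = (l (c j)) v') := by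
      intro L
      induction L with
      | nil =>
        intro q _ hq
        have hq' := hq q (List.mem_singleton.2 rfl)
        simp only [List.map_cons, List.map_nil, List.prod_cons, List.prod_nil, mul_one]
        refine ⟨fun hn => ?_, fun j hj => ?_⟩
        · have hb := hXalg _ (by simpa [hn] using hq'.1)
          exact ⟨fun j => (h.cond _ _ hb).2 (c j) ⟨j, rfl⟩, hq'.2⟩
        · exact T02_one h (c j) q.2 (by simpa [hj] using hq'.1) hq'.2 _ (h.lΩ _)
      | cons q' L ih =>
        intro q hch hq
        have hq' := hq q (List.mem_cons_self)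
        have hch' := (List.isChain_cons_cons.1 hch)
        have ih' := ih q' hch'.2 (fun p hp => hq p (List.mem_cons_of_mem _ hp))
        have hprod : ((q :: q' :: L).map Prod.snd).prod T.Ω =
            q.2 (((q' :: L).map Prod.snd).prod T.Ω) := by
          rw [List.map_cons, List.prod_cons]; rfl
        rw [hprod]
        refine ⟨fun hn => ?_, fun j hj => ?_⟩
        · have hb := hXalg _ (by simpa [hn] using hq'.1)
          obtain ⟨j, hj⟩ : ∃ j, q'.1 = some j := by
            rcases hq'1 : q'.1 with _ | j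
            · exact absurd (hn.trans hq'1.symm) hch'.1
            · exact ⟨j, rfl⟩
          obtain ⟨v', hv'⟩ := ih'.2 j hj
          rw [hv']
          constructor
          · intro j'
            have h1 := (h.cond _ _ hb).1 (c j') ⟨j', rfl⟩ (c j) ⟨j, rfl⟩
            rw [hq'.2, zero_smul, ite_self] at h1
            have h2 := congrArg (fun A : H →L[ℂ] H => A v') h1
            simpa using h2
          · have hb' := T02_star_mem (Set.range c) h.e_sa hb
            have h1 := (h.cond _ _ hb').2 (c j) ⟨j, rfl⟩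
            rw [← ContinuousLinearMap.adjoint_inner_left, ← ContinuousLinearMap.star_eq_adjoint,
              ← ContinuousLinearMap.adjoint_inner_left, ← ContinuousLinearMap.star_eq_adjoint, h1,
              inner_zero_left]
        · refine T02_one h (c j) q.2 (by simpa [hj] using hq'.1) hq'.2 _ ?_
          rcases hq'1 : q'.1 with _ | j'
          · exact (ih'.1 hq'1).1 j
          · obtain ⟨v', hv'⟩ := ih'.2 j' hq'1
            rw [hv']
            have hjj' : c j ≠ c j' := by
              intro hcc
              apply hch'.1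
              rw [hj, hq'1, hc hcc]
            have h1 := h.ll (c j) (c j')
            rw [if_neg hjj'] at h1
            have h2 := congrArg (fun A : H →L[ℂ] H => A v') h1
            simpa using h2
    rcases L with _ | ⟨q, L⟩
    · exact absurd rfl hL
    · have h1 := key L q hchain hcent
      show ⟪T.Ω, ((q :: L).map Prod.snd).prod T.Ω⟫_ℂ = 0
      rcases hq1 : q.1 with _ | j
      · exact (h1.1 hq1).2
      · obtain ⟨v', hv'⟩ := h1.2 j hq1
        rw [hv', ← ContinuousLinearMap.adjoint_inner_left, ← ContinuousLinearMap.star_eq_adjoint,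
          h.lΩ, inner_zero_left]

end P087
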