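import Vale.Agent.P087.Basic

open MeasureTheory Filter
open scoped ENNReal InnerProductSpace
noncomputable section
namespace P087
variable {H : Type} [NormedAddCommGroup H] [InnerProductSpace ℂ H] [CompleteSpace H]
  {T : TracialVN H} {I : Type} [DecidableEq I] {α : ℝ} {l : I → (H →L[ℂ] H)} {e : H →L[ℂ] H}

/-- annihilation words -/
inductive T02aR (K : Set I) (l : I → (H →L[ℂ] H)) (e : H →L[ℂ] H) : (H →L[ℂ] H) → Prop
  | one : T02aR K l e 1
  | e : T02aR K l e e
  | lstar (k : I) (hk : k ∉ K) (y : H →L[ℂ] H) (hy : T02aR K l e y) :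
      T02aR K l e (star (l k) * y)
  | elstar (k : I) (hk : k ∉ K) (y : H →L[ℂ] H) (hy : T02aR K l e y) :
      T02aR K l e (e * (star (l k) * y))

/-- normally ordered words -/
inductive T02aN (K : Set I) (l : I → (H →L[ℂ] H)) (e : H →L[ℂ] H) : (H →L[ℂ] H) → Prop
  | base (y : H →L[ℂ] H) (hy : T02aR K l e y) : T02aN K l e y
  | l (k : I) (hk : k ∉ K) (y : H →L[ℂ] H) (hy : T02aN K l e y) : T02aN K l e (l k * y)
  | el (k : I) (hk : k ∉ K) (y : H →L[ℂ] H) (hy : T02aN K l e y) :
      T02aN K l e (e * (l k * y))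

lemma T02a_R_mul (h : Rel T α l e) (K : Set I) {y : H →L[ℂ] H} (hy : T02aR K l e y) :
    ∀ k, k ∉ K → ∀ j, j ∈ K → star (l k) * y * l j = 0 := by
  induction hy with
  | one =>
    intro k hk j hj
    rw [mul_one, h.ll, if_neg (fun hkj : k = j => hk (by rw [hkj]; exact hj))]
  | e =>
    intro k hk j hj
    rw [h.lel, if_neg (fun hkj : k = j => hk (by rw [hkj]; exact hj))]
  | lstar k' hk' y hy ih =>
    intro k hk j hj
    have := ih k' hk' j hj
    rw [mul_assoc, this, mul_zero]
  | elstar k' hk' y hy ih =>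
    intro k hk j hj
    have := ih k' hk' j hj
    rw [mul_assoc, mul_assoc e, this, mul_zero, mul_zero]

lemma T02a_R_vac (h : Rel T α l e) (K : Set I) {y : H →L[ℂ] H} (hy : T02aR K l e y) :
    ∀ k, k ∉ K → (star (l k)) (y T.Ω) = 0 := by
  induction hy with
  | one => intro k hk; exact h.lΩ k
  | e => intro k hk; exact h.leΩ k
  | lstar k' hk' y hy ih =>
    intro k hk
    have h1 : (star (l k') * y) T.Ω = (star (l k')) (y T.Ω) := rfl
    rw [h1, ih k' hk', map_zero]
  | elstar k' hk' y hy ih =>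
    intro k hk
    have h1 : (e * (star (l k') * y)) T.Ω = e ((star (l k')) (y T.Ω)) := rfl
    rw [h1, ih k' hk', map_zero, map_zero]

/-- the property to be proved -/
def T02aP (T : TracialVN H) (K : Set I) (l : I → (H →L[ℂ] H)) (b : H →L[ℂ] H) : Prop :=
  (∀ j ∈ K, ∀ j' ∈ K, star (l j) * b * l j' = if j = j' then (T.τ b) • 1 else 0) ∧
      ∀ j ∈ K, (star (l j)) (b T.Ω) = 0

lemma T02a_tau_one : T.τ 1 = 1 := by
  have : T.τ 1 = ⟪T.Ω, T.Ω⟫_ℂ := rfl
  rw [this, inner_self_eq_norm_sq_to_K, T.norm_Ω]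
  simp

lemma T02a_R_P (h : Rel T α l e) (K : Set I) {y : H →L[ℂ] H} (hy : T02aR K l e y) :
    T02aP T K l y := by
  cases hy with
  | one =>
    refine ⟨fun j hj j' hj' => ?_, fun j hj => h.lΩ j⟩
    rw [mul_one, h.ll, T02a_tau_one, one_smul]
  | e =>
    refine ⟨fun j hj j' hj' => ?_, fun j hj => h.leΩ j⟩
    have : T.τ e = (α : ℂ) := h.eΩ
    rw [h.lel, this]
  | lstar k' hk' y hy =>
    have hv : (star (l k') * y) T.Ω = 0 := T02a_R_vac h K hy k' hk'
    refine ⟨fun j hj j' hj' => ?_, fun j hj => ?_⟩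
    · have h1 := T02a_R_mul h K hy k' hk' j' hj'
      have h2 : T.τ (star (l k') * y) = 0 := by
        unfold TracialVN.τ
        rw [hv, inner_zero_right]
      rw [mul_assoc, h1, mul_zero, h2, zero_smul, ite_self]
    · rw [hv, map_zero]
  | elstar k' hk' y hy =>
    have hv : (e * (star (l k') * y)) T.Ω = 0 := by
      have h1 : (e * (star (l k') * y)) T.Ω = e ((star (l k')) (y T.Ω)) := rfl
      rw [h1, T02a_R_vac h K hy k' hk', map_zero]
    refine ⟨fun j hj j' hj' => ?_, fun j hj => ?_⟩
    · have h1 := T02a_R_mul h K hy k' hk' j' hj'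
      have h2 : T.τ (e * (star (l k') * y)) = 0 := by
        unfold TracialVN.τ
        rw [hv, inner_zero_right]
      rw [mul_assoc, mul_assoc e, h1, mul_zero, mul_zero, h2, zero_smul, ite_self]
    · rw [hv, map_zero]

lemma T02a_N_P (h : Rel T α l e) (K : Set I) {y : H →L[ℂ] H} (hy : T02aN K l e y) :
    T02aP T K l y := by
  cases hy with
  | base y hy => exact T02a_R_P h K hy
  | l k hk y hy =>
    have hne : ∀ j ∈ K, j ≠ k := fun j hj hjk => hk (hjk ▸ hj)
    refine ⟨fun j hj j' hj' => ?_, fun j hj => ?_⟩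
    · have h1 : star (l j) * (l k * y) = 0 := by
        rw [← mul_assoc, h.ll, if_neg (hne j hj), zero_mul]
      have h2 : T.τ (l k * y) = 0 := by
        unfold TracialVN.τ
        have h3 : (l k * y) T.Ω = l k (y T.Ω) := rfl
        rw [h3, ← ContinuousLinearMap.adjoint_inner_left, ← ContinuousLinearMap.star_eq_adjoint,
          h.lΩ, inner_zero_left]
      rw [h1, zero_mul, h2, zero_smul, ite_self]
    · have h3 : (star (l j)) ((l k * y) T.Ω) = (star (l j) * (l k * y)) T.Ω := rfl
      have h1 : star (l j) * (l k * y) = 0 := by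
        rw [← mul_assoc, h.ll, if_neg (hne j hj), zero_mul]
      rw [h3, h1]
      rfl
  | el k hk y hy =>
    have hne : ∀ j ∈ K, j ≠ k := fun j hj hjk => hk (hjk ▸ hj)
    have h1 : ∀ j ∈ K, star (l j) * (e * (l k * y)) = 0 := by
      intro j hj
      rw [← mul_assoc, ← mul_assoc, h.lel, if_neg (hne j hj), zero_mul]
    refine ⟨fun j hj j' hj' => ?_, fun j hj => ?_⟩
    · have h2 : T.τ (e * (l k * y)) = 0 := by
        unfold TracialVN.τ
        have h3 : (e * (l k * y)) T.Ω = e (l k (y T.Ω)) := rfl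
        have h4 : ⟪T.Ω, e (l k (y T.Ω))⟫_ℂ = ⟪(star e) T.Ω, l k (y T.Ω)⟫_ℂ := by
          rw [ContinuousLinearMap.star_eq_adjoint, ContinuousLinearMap.adjoint_inner_left]
        rw [h3, h4, h.e_sa, ← ContinuousLinearMap.adjoint_inner_left,
          ← ContinuousLinearMap.star_eq_adjoint, h.leΩ, inner_zero_left]
      rw [h1 j hj, zero_mul, h2, zero_smul, ite_self]
    · have h3 : (star (l j)) ((e * (l k * y)) T.Ω) = (star (l j) * (e * (l k * y))) T.Ω := rfl
      rw [h3, h1 j hj]
      rfl

lemma T02a_N_e (h : Rel T α l e) (K : Set I) {y : H →L[ℂ] H} (hy : T02aN K l e y) :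
    T02aN K l e (e * y) := by
  cases hy with
  | base y hy =>
    refine T02aN.base _ ?_
    cases hy with
    | one => rw [mul_one]; exact T02aR.e
    | e => rw [h.e_idem]; exact T02aR.e
    | lstar k hk y hy => exact T02aR.elstar k hk y hy
    | elstar k hk y hy =>
      rw [← mul_assoc, h.e_idem]
      exact T02aR.elstar k hk y hy
  | l k hk y hy => exact T02aN.el k hk y hy
  | el k hk y hy =>
    rw [← mul_assoc, h.e_idem]
    exact T02aN.el k hk y hy

lemma T02a_N_lstar (h : Rel T α l e) (K : Set I) {y : H →L[ℂ] H} (hy : T02aN K l e y)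
    (i : I) (hi : i ∉ K) :
    star (l i) * y ∈ Submodule.span ℂ {y | T02aN K l e y} := by
  cases hy with
  | base y hy => exact Submodule.subset_span (T02aN.base _ (T02aR.lstar i hi y hy))
  | l k hk y hy =>
    rw [← mul_assoc, h.ll]
    split_ifs
    · rw [one_mul]; exact Submodule.subset_span hy
    · rw [zero_mul]; exact Submodule.zero_mem _
  | el k hk y hy =>
    rw [← mul_assoc, ← mul_assoc, h.lel]
    split_ifs
    · rw [smul_mul_assoc, one_mul]
      exact Submodule.smul_mem _ _ (Submodule.subset_span hy)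
    · rw [zero_mul]; exact Submodule.zero_mem _

lemma T02a_adjoin (h : Rel T α l e) (K : Set I) (b : H →L[ℂ] H)
    (hb : b ∈ Algebra.adjoin ℂ
      ({e} ∪ {x | ∃ i, i ∉ K ∧ x = l i + star (l i)} : Set (H →L[ℂ] H))) :
    ∀ y ∈ Submodule.span ℂ {y | T02aN K l e y}, b * y ∈ Submodule.span ℂ {y | T02aN K l e y} := by
  induction hb using Algebra.adjoin_induction with
  | mem x hx =>
    intro y hy
    induction hy using Submodule.span_induction with
    | mem y hy =>
      rcases hx with hx | ⟨i, hi, hx⟩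
      · rw [Set.mem_singleton_iff.mp hx]
        exact Submodule.subset_span (T02a_N_e h K hy)
      · rw [hx, add_mul]
        exact Submodule.add_mem _ (Submodule.subset_span (T02aN.l i hi y hy))
          (T02a_N_lstar h K hy i hi)
    | zero => rw [mul_zero]; exact Submodule.zero_mem _
    | add u v _ _ hu hv => rw [mul_add]; exact Submodule.add_mem _ hu hv
    | smul c u _ hu => rw [mul_smul_comm]; exact Submodule.smul_mem _ _ hu
  | algebraMap r =>
    intro y hy
    rw [Algebra.algebraMap_eq_smul_one, smul_mul_assoc, one_mul]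
    exact Submodule.smul_mem _ _ hy
  | add a b _ _ ha hb =>
    intro y hy
    rw [add_mul]
    exact Submodule.add_mem _ (ha y hy) (hb y hy)
  | mul a b _ _ ha hb =>
    intro y hy
    rw [mul_assoc]
    exact ha _ (hb y hy)

/-- T2a. `l_j⋆ b l_{j'} = δ_{jj'} τ(b)` and `l_j⋆ b Ω = 0` if `b` is a polynomial in `e` and the
`s_i`, `i ∉ K`, and `j, j' ∈ K`. -/
theorem Rel.cond (h : Rel T α l e) (K : Set I) (b : H →L[ℂ] H)
    (hb : b ∈ Algebra.adjoin ℂ
      ({e} ∪ {x | ∃ i, i ∉ K ∧ x = l i + star (l i)} : Set (H →L[ℂ] H))) :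
    (∀ j ∈ K, ∀ j' ∈ K, star (l j) * b * l j' = if j = j' then (T.τ b) • 1 else 0) ∧
      ∀ j ∈ K, (star (l j)) (b T.Ω) = 0 := by
  have h1 : b ∈ Submodule.span ℂ {y | T02aN K l e y} := by
    have := T02a_adjoin h K b hb 1 (Submodule.subset_span (T02aN.base _ T02aR.one))
    rwa [mul_one] at this
  clear hb
  have key : T02aP T K l b := by
    induction h1 using Submodule.span_induction with
    | mem y hy => exact T02a_N_P h K hy
    | zero =>
      refine ⟨fun j hj j' hj' => ?_, fun j hj => ?_⟩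
      · have : T.τ 0 = 0 := by
          unfold TracialVN.τ
          rw [ContinuousLinearMap.zero_apply, inner_zero_right]
        rw [mul_zero, zero_mul, this, zero_smul, ite_self]
      · rw [ContinuousLinearMap.zero_apply, map_zero]
    | add u v _ _ hu hv =>
      refine ⟨fun j hj j' hj' => ?_, fun j hj => ?_⟩
      · have : T.τ (u + v) = T.τ u + T.τ v := by
          unfold TracialVN.τ
          rw [ContinuousLinearMap.add_apply, inner_add_right]
        rw [mul_add, add_mul, hu.1 j hj j' hj', hv.1 j hj j' hj', this]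
        split_ifs
        · rw [add_smul]
        · rw [add_zero]
      · rw [ContinuousLinearMap.add_apply, map_add, hu.2 j hj, hv.2 j hj, add_zero]
    | smul c u _ hu =>
      refine ⟨fun j hj j' hj' => ?_, fun j hj => ?_⟩
      · have : T.τ (c • u) = c * T.τ u := by
          unfold TracialVN.τ
          rw [ContinuousLinearMap.smul_apply, inner_smul_right]
        rw [mul_smul_comm, smul_mul_assoc, hu.1 j hj j' hj', this]
        split_ifs
        · rw [mul_smul]
        · rw [smul_zero]
      · rw [ContinuousLinearMap.smul_apply, map_smul, hu.2 j hj, smul_zero]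
  exact key

end P087
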