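import Vale.Agent.P087.XsDef

open MeasureTheory Filter
open scoped ENNReal InnerProductSpace
noncomputable section
namespace P087
variable {H : Type} [NormedAddCommGroup H] [InnerProductSpace ℂ H] [CompleteSpace H]
  {T : TracialVN H} {N : ℕ} {Q s : ℝ} {l : Fin 2 × Fin N → (H →L[ℂ] H)} {e : H →L[ℂ] H}

section aux

lemma T04_inner_star (a : H →L[ℂ] H) (x y : H) : ⟪x, (star a) y⟫_ℂ = ⟪a x, y⟫_ℂ :=
  ContinuousLinearMap.adjoint_inner_right a x y

lemma T04_inner_star' (a : H →L[ℂ] H) (x y : H) : ⟪x, a y⟫_ℂ = ⟪(star a) x, y⟫_ℂ := by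
  rw [← T04_inner_star, star_star]

lemma Rel.T04_ll (h : Rel T (1 / Q) l e) (i j : Fin 2 × Fin N) (v : H) :
    (star (l i)) (l j v) = if i = j then v else 0 := by
  have h1 := DFunLike.congr_fun (h.ll i j) v
  rw [mul_apply_eq_comp] at h1
  rw [h1]
  split_ifs <;> simp

lemma Rel.T04_lel (h : Rel T (1 / Q) l e) (i j : Fin 2 × Fin N) (v : H) :
    (star (l i)) (e (l j v)) = if i = j then (((1 / Q : ℝ) : ℂ)) • v else 0 := by
  have h1 := DFunLike.congr_fun (h.lel i j) v
  rw [mul_apply_eq_comp, mul_apply_eq_comp] at h1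
  rw [h1]
  split_ifs <;> simp

lemma Rel.T04_ee (h : Rel T (1 / Q) l e) (v : H) : e (e v) = e v := by
  have h1 := DFunLike.congr_fun h.e_idem v
  rwa [mul_apply_eq_comp] at h1

lemma Rel.T04_inner_e (h : Rel T (1 / Q) l e) (x y : H) : ⟪x, e y⟫_ℂ = ⟪e x, y⟫_ℂ := by
  rw [T04_inner_star', h.e_sa]

lemma T04_word_cons (Q s : ℝ) (l : Fin 2 × Fin N → (H →L[ℂ] H)) (e : H →L[ℂ] H) (i : Fin N)
    (w : List (Fin N)) (x : H) :
    (word (Xs Q s l e) (i :: w)) x = Xs Q s l e i (word (Xs Q s l e) w x) := by
  unfold word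
  rw [List.map_cons, List.prod_cons, mul_apply_eq_comp]

lemma T04_word_nil (Q s : ℝ) (l : Fin 2 × Fin N → (H →L[ℂ] H)) (e : H →L[ℂ] H) (x : H) :
    (word (Xs Q s l e) []) x = x := by
  unfold word
  simp

lemma T04_X_apply (Q s : ℝ) (l : Fin 2 × Fin N → (H →L[ℂ] H)) (e : H →L[ℂ] H) (i : Fin N)
    (x : H) : Xs Q s l e i x =
      (Q : ℂ) • (e (l (0, i) (e x)) + e ((star (l (0, i))) (e x))) +
        ((√s : ℝ) : ℂ) • (l (1, i) x + (star (l (1, i))) x) := by
  unfold Xs Yop
  simp only [add_apply, smul_apply,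
    mul_apply_eq_comp, map_add]

omit [CompleteSpace H] in
lemma T04_dbl (F G : List (Fin N) → ℂ) (x : List (Fin N) → H) (i j : Fin N) (w : List (Fin N)) :
    ssum i w (fun u v => F u • ssum j v (fun a b => G a • x b)) =
      ssum j w (fun c b => ssum i c (fun u a => F u * G a) • x b) := by
  have h1 : ∀ u v, F u • ssum j v (fun a b => G a • x b) =
      ssum j v (fun a b => (F u * G a) • x b) := by
    intro u v
    rw [smul_ssum]
    exact ssum_congr (fun a b _ => smul_smul _ _ _)
  simp only [h1]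
  rw [ssum_ssum i j w (fun u a b => (F u * G a) • x b)]
  exact ssum_congr (fun c b _ => (ssum_smul_left _ _ _ _).symm)

omit [CompleteSpace H] in
lemma T04_lin (F G : List (Fin N) → ℂ) (x : List (Fin N) → H) (j : Fin N) (w : List (Fin N))
    (p q : ℂ) :
    ssum j w (fun c b => (p * F c + q * G c) • x b) =
      p • ssum j w (fun c b => F c • x b) + q • ssum j w (fun c b => G c • x b) := by
  rw [smul_ssum, smul_ssum, ← ssum_add]
  refine ssum_congr (fun c b _ => ?_)
  rw [add_smul, mul_smul, mul_smul]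

lemma T04_lin' (F G : List (Fin N) → List (Fin N) → ℂ) (j : Fin N) (w : List (Fin N))
    (p q : ℂ) :
    ssum j w (fun c b => p * F c b + q * G c b) =
      p * ssum j w F + q * ssum j w G := by
  rw [mul_ssum, mul_ssum, ← ssum_add]

/-- the three identities at the word `w` -/
def T04D (T : TracialVN H) (Q s : ℝ) (l : Fin 2 × Fin N → (H →L[ℂ] H)) (e : H →L[ℂ] H)
    (w : List (Fin N)) : Prop :=
  ∀ j : Fin N,
    (star (l (1, j))) (word (Xs Q s l e) w T.Ω) =
      ((√s : ℝ) : ℂ) • ssum j w (fun u v => Amom T Q s l e u • word (Xs Q s l e) v T.Ω) ∧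
    (star (l (1, j))) (e (word (Xs Q s l e) w T.Ω)) =
      ((√s : ℝ) : ℂ) • ssum j w (fun u v => Bmom T Q s l e u • word (Xs Q s l e) v T.Ω) ∧
    (star (l (0, j))) (e (word (Xs Q s l e) w T.Ω)) =
      (Q : ℂ) • ssum j w (fun u v => Bmom T Q s l e u • e (word (Xs Q s l e) v T.Ω))

end aux

theorem Rel.A_nil (h : Rel T (1 / Q) l e) : Amom T Q s l e [] = 1 := by
  unfold Amom TracialVN.τ
  rw [T04_word_nil, inner_self_eq_norm_sq_to_K, T.norm_Ω]
  simp

theorem Rel.B_nil (h : Rel T (1 / Q) l e) : Bmom T Q s l e [] = ((1 / Q : ℝ) : ℂ) := by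
  unfold Bmom TracialVN.τ
  rw [mul_apply_eq_comp, T04_word_nil]
  exact h.eΩ

lemma T04_A_eq (T : TracialVN H) (Q s : ℝ) (l : Fin 2 × Fin N → (H →L[ℂ] H)) (e : H →L[ℂ] H)
    (w : List (Fin N)) : Amom T Q s l e w = ⟪T.Ω, word (Xs Q s l e) w T.Ω⟫_ℂ := rfl

lemma T04_B_eq (T : TracialVN H) (Q s : ℝ) (l : Fin 2 × Fin N → (H →L[ℂ] H)) (e : H →L[ℂ] H)
    (w : List (Fin N)) : Bmom T Q s l e w = ⟪T.Ω, e (word (Xs Q s l e) w T.Ω)⟫_ℂ := rfl

lemma Rel.T04_YX (h : Rel T (1 / Q) l e) (j : Fin N) (w : List (Fin N)) (hD : T04D T Q s l e w) :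
    ⟪T.Ω, (Q : ℂ) • (e (l (0, j) (e (word (Xs Q s l e) w T.Ω))) +
        e ((star (l (0, j))) (e (word (Xs Q s l e) w T.Ω))))⟫_ℂ =
      (Q : ℂ) ^ 2 * ssum j w (fun u v => Bmom T Q s l e u * Bmom T Q s l e v) := by
  rw [inner_smul_right, inner_add_right, h.T04_inner_e, T04_inner_star', h.leΩ, inner_zero_left,
    zero_add, (hD j).2.2, map_smul, inner_smul_right]
  have h1 : ⟪T.Ω, e (ssum j w (fun u v => Bmom T Q s l e u • e (word (Xs Q s l e) v T.Ω)))⟫_ℂ =
      ssum j w (fun u v => Bmom T Q s l e u * Bmom T Q s l e v) := by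
    rw [map_ssum e, ← innerSL_apply_apply ℂ, map_ssum (innerSL ℂ T.Ω)]
    refine ssum_congr (fun u v _ => ?_)
    rw [innerSL_apply_apply, map_smul, inner_smul_right, h.T04_ee, T04_B_eq T Q s l e v]
  rw [h1]
  ring

lemma T04_sqrt (hs : 0 < s) : ((√s : ℝ) : ℂ) * ((√s : ℝ) : ℂ) = (s : ℂ) := by
  rw [← Complex.ofReal_mul, Real.mul_self_sqrt hs.le]

lemma Rel.T04_A_cons (h : Rel T (1 / Q) l e) (hs : 0 < s) (j : Fin N)
    (w : List (Fin N)) (hD : T04D T Q s l e w) :
    Amom T Q s l e (j :: w) =
      ssum j w (fun u v => (Q : ℂ) ^ 2 * (Bmom T Q s l e u * Bmom T Q s l e v) +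
        (s : ℂ) * (Amom T Q s l e u * Amom T Q s l e v)) := by
  rw [T04_A_eq, T04_word_cons, T04_X_apply, inner_add_right, h.T04_YX j w hD, inner_smul_right,
    inner_add_right, T04_inner_star' (l (1, j)), h.lΩ, inner_zero_left, zero_add, (hD j).1,
    inner_smul_right, T04_lin']
  have h1 : ⟪T.Ω, ssum j w (fun u v => Amom T Q s l e u • word (Xs Q s l e) v T.Ω)⟫_ℂ =
      ssum j w (fun u v => Amom T Q s l e u * Amom T Q s l e v) := by
    rw [← innerSL_apply_apply ℂ, map_ssum (innerSL ℂ T.Ω)]
    refine ssum_congr (fun u v _ => ?_)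
    rw [innerSL_apply_apply, inner_smul_right, T04_A_eq T Q s l e v]
  rw [h1, ← mul_assoc, T04_sqrt hs]

lemma Rel.T04_B_cons (h : Rel T (1 / Q) l e) (hs : 0 < s) (j : Fin N)
    (w : List (Fin N)) (hD : T04D T Q s l e w) :
    Bmom T Q s l e (j :: w) =
      ssum j w (fun u v => (Q : ℂ) ^ 2 * (Bmom T Q s l e u * Bmom T Q s l e v) +
        (s : ℂ) * (Amom T Q s l e u * Bmom T Q s l e v)) := by
  rw [T04_B_eq, T04_word_cons, T04_X_apply, map_add, map_smul, map_smul, map_add, map_add,
    h.T04_ee, h.T04_ee, inner_add_right, h.T04_YX j w hD, inner_smul_right,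
    inner_add_right, h.T04_inner_e, T04_inner_star' (l (1, j)), h.leΩ, inner_zero_left, zero_add,
    (hD j).1, map_smul, inner_smul_right, T04_lin']
  have h1 : ⟪T.Ω, e (ssum j w (fun u v => Amom T Q s l e u • word (Xs Q s l e) v T.Ω))⟫_ℂ =
      ssum j w (fun u v => Amom T Q s l e u * Bmom T Q s l e v) := by
    rw [map_ssum e, ← innerSL_apply_apply ℂ, map_ssum (innerSL ℂ T.Ω)]
    refine ssum_congr (fun u v _ => ?_)
    rw [innerSL_apply_apply, map_smul, inner_smul_right, T04_B_eq T Q s l e v]
  rw [h1, ← mul_assoc, T04_sqrt hs]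

lemma Rel.T04_main (h : Rel T (1 / Q) l e) (hQ : 0 < Q) (hs : 0 < s) (w : List (Fin N)) :
    T04D T Q s l e w := by
  induction hn : w.length using Nat.strong_induction_on generalizing w with
  | _ n ih =>
    cases w with
    | nil =>
      intro j
      refine ⟨?_, ?_, ?_⟩
      · rw [T04_word_nil, h.lΩ, ssum_nil, smul_zero]
      · rw [T04_word_nil, h.leΩ, ssum_nil, smul_zero]
      · rw [T04_word_nil, h.leΩ, ssum_nil, smul_zero]
    | cons i w =>
      have hlt : ∀ u v (k : Fin N), w = u ++ k :: v → u.length < n ∧ v.length < n := by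
        intro u v k huv
        have : w.length = u.length + (v.length + 1) := by rw [huv]; simp
        rw [List.length_cons] at hn
        omega
      have hw : T04D T Q s l e w := ih w.length (by rw [← hn]; simp) w rfl
      have hv : ∀ u v (k : Fin N), w = u ++ k :: v → T04D T Q s l e v := fun u v k huv =>
        ih v.length (hlt u v k huv).2 v rfl
      have hu : ∀ u v (k : Fin N), w = u ++ k :: v → T04D T Q s l e u := fun u v k huv =>
        ih u.length (hlt u v k huv).1 u rfl
      have hQ' : (Q : ℂ) ≠ 0 := by exact_mod_cast hQ.ne'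
      have hr := T04_sqrt hs
      intro j
      -- notation
      set r : ℂ := ((√s : ℝ) : ℂ) with hrdef
      set x : List (Fin N) → H := fun v => word (Xs Q s l e) v T.Ω with hx
      set A : List (Fin N) → ℂ := fun v => Amom T Q s l e v with hA
      set B : List (Fin N) → ℂ := fun v => Bmom T Q s l e v with hB
      have hlh : (star (l (0, i))) (e (x w)) = (Q : ℂ) • ssum i w (fun u v => B u • e (x v)) :=
        (hw i).2.2
      have hL : (star (l (1, i))) (x w) = r • ssum i w (fun u v => A u • x v) := (hw i).1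
      have key : ∀ (φ : H →L[ℂ] H) (G : List (Fin N) → ℂ) (y : List (Fin N) → H) (t : ℂ)
          (F : List (Fin N) → ℂ) (z : List (Fin N) → H),
          (∀ u v, w = u ++ i :: v → φ (z v) = t • ssum j v (fun a b => G a • y b)) →
          φ (ssum i w (fun u v => F u • z v)) =
            t • ssum j w (fun c b => ssum i c (fun u a => F u * G a) • y b) := by
        intro φ G y t F z hz
        rw [map_ssum φ, ← T04_dbl, smul_ssum]
        refine ssum_congr (fun u v huv => ?_)
        rw [map_smul, hz u v huv, smul_comm]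
      have hAc : ∀ c b, w = c ++ j :: b → A (i :: c) =
          (Q : ℂ) ^ 2 * ssum i c (fun u a => B u * B a) +
            (s : ℂ) * ssum i c (fun u a => A u * A a) := by
        intro c b hcb
        rw [← T04_lin']
        exact h.T04_A_cons hs i c (hu c b j hcb)
      have hBc : ∀ c b, w = c ++ j :: b → B (i :: c) =
          (Q : ℂ) ^ 2 * ssum i c (fun u a => B u * B a) +
            (s : ℂ) * ssum i c (fun u a => A u * B a) := by
        intro c b hcb
        rw [← T04_lin']
        exact h.T04_B_cons hs i c (hu c b j hcb)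
      have hA0 : A [] = 1 := h.A_nil
      have hB0 : B [] = ((1 / Q : ℝ) : ℂ) := h.B_nil
      have h01 : ((1, j) : Fin 2 × Fin N) ≠ (0, i) := by
        intro h2
        simp at h2
      have h10 : ((0, j) : Fin 2 × Fin N) ≠ (1, i) := by
        intro h2
        simp at h2
      have hx1 : x (i :: w) = (Q : ℂ) • (e (l (0, i) (e (x w))) + e ((star (l (0, i))) (e (x w)))) +
        r • (l (1, i) (x w) + (star (l (1, i))) (x w)) := by
        rw [hx]
        simp only
        rw [T04_word_cons, T04_X_apply]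
      change (star (l (1, j))) (x (i :: w)) = r • ssum j (i :: w) (fun u v => A u • x v) ∧
        (star (l (1, j))) (e (x (i :: w))) = r • ssum j (i :: w) (fun u v => B u • x v) ∧
        (star (l (0, j))) (e (x (i :: w))) = (Q : ℂ) • ssum j (i :: w) (fun u v => B u • e (x v))
      have hiff1 : ∀ y : H, (if ((1, j) : Fin 2 × Fin N) = (1, i) then y else 0) =
          if i = j then y else 0 := by
        intro y
        by_cases hij : i = j
        · rw [if_pos hij, if_pos (by rw [hij])]
        · rw [if_neg hij, if_neg (fun h2 => hij (congrArg Prod.snd h2).symm)]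
      have hiff0 : ∀ y : H, (if ((0, j) : Fin 2 × Fin N) = (0, i) then y else 0) =
          if i = j then y else 0 := by
        intro y
        by_cases hij : i = j
        · rw [if_pos hij, if_pos (by rw [hij])]
        · rw [if_neg hij, if_neg (fun h2 => hij (congrArg Prod.snd h2).symm)]
      refine ⟨?_, ?_, ?_⟩
      · rw [hx1, hlh, hL]
        simp only [map_add, map_smul]
        rw [h.T04_lel, if_neg h01, h.T04_ll, hiff1]
        have e1 := key ((star (l (1, j))) * e) B x r B (fun v => e (x v)) (by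
          intro u v huv
          rw [mul_apply_eq_comp, h.T04_ee]
          exact (hv u v i huv j).2.1)
        rw [mul_apply_eq_comp] at e1
        have e2 := key (star (l (1, j))) A x r A x (fun u v huv => (hv u v i huv j).1)
        rw [e1, e2, ssum_cons]
        have e3 : ssum j w (fun u v => A (i :: u) • x v) = (Q : ℂ) ^ 2 •
            ssum j w (fun c b => ssum i c (fun u a => B u * B a) • x b) +
            (s : ℂ) • ssum j w (fun c b => ssum i c (fun u a => A u * A a) • x b) := by
          rw [← T04_lin (fun c => ssum i c (fun u a => B u * B a))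
            (fun c => ssum i c (fun u a => A u * A a))]
          exact ssum_congr (fun c b hcb => by rw [hAc c b hcb])
        rw [e3, hA0, ← hr]
        split_ifs
        · module
        · module
      · rw [hx1, hlh, hL]
        simp only [map_add, map_smul, h.T04_ee]
        rw [h.T04_lel, if_neg h01, h.T04_lel, hiff1]
        have e1 := key ((star (l (1, j))) * e) B x r B (fun v => e (x v)) (by
          intro u v huv
          rw [mul_apply_eq_comp, h.T04_ee]
          exact (hv u v i huv j).2.1)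
        rw [mul_apply_eq_comp] at e1
        have e2 := key ((star (l (1, j))) * e) B x r A x (by
          intro u v huv
          rw [mul_apply_eq_comp]
          exact (hv u v i huv j).2.1)
        rw [mul_apply_eq_comp] at e2
        rw [e1, e2, ssum_cons]
        have e3 : ssum j w (fun u v => B (i :: u) • x v) = (Q : ℂ) ^ 2 •
            ssum j w (fun c b => ssum i c (fun u a => B u * B a) • x b) +
            (s : ℂ) • ssum j w (fun c b => ssum i c (fun u a => A u * B a) • x b) := by
          rw [← T04_lin (fun c => ssum i c (fun u a => B u * B a))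
            (fun c => ssum i c (fun u a => A u * B a))]
          exact ssum_congr (fun c b hcb => by rw [hBc c b hcb])
        rw [e3, hB0, ← hr]
        split_ifs
        · module
        · module
      · rw [hx1, hlh, hL]
        simp only [map_add, map_smul, h.T04_ee]
        rw [h.T04_lel, h.T04_lel, if_neg h10, hiff0]
        have e1 := key ((star (l (0, j))) * e) B (fun b => e (x b)) (Q : ℂ) B (fun v => e (x v)) (by
          intro u v huv
          rw [mul_apply_eq_comp, h.T04_ee]
          exact (hv u v i huv j).2.2)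
        rw [mul_apply_eq_comp] at e1
        have e2 := key ((star (l (0, j))) * e) B (fun b => e (x b)) (Q : ℂ) A x (by
          intro u v huv
          rw [mul_apply_eq_comp]
          exact (hv u v i huv j).2.2)
        rw [mul_apply_eq_comp] at e2
        rw [e1, e2, ssum_cons]
        have e3 : ssum j w (fun u v => B (i :: u) • e (x v)) = (Q : ℂ) ^ 2 •
            ssum j w (fun c b => ssum i c (fun u a => B u * B a) • e (x b)) +
            (s : ℂ) • ssum j w (fun c b => ssum i c (fun u a => A u * B a) • e (x b)) := by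
          rw [← T04_lin (fun c => ssum i c (fun u a => B u * B a))
            (fun c => ssum i c (fun u a => A u * B a)) (fun b => e (x b))]
          exact ssum_congr (fun c b hcb => by rw [hBc c b hcb])
        rw [e3, hB0, ← hr]
        split_ifs
        · module
        · module

/-- T4 (d1) -/
theorem Rel.L_X (h : Rel T (1 / Q) l e) (hQ : 0 < Q) (hs : 0 < s) (j : Fin N) (w : List (Fin N)) :
    (star (l (1, j))) (word (Xs Q s l e) w T.Ω) =
      ((√s : ℝ) : ℂ) • ssum j w (fun u v => Amom T Q s l e u • word (Xs Q s l e) v T.Ω) :=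
  (h.T04_main hQ hs w j).1

/-- T4 (d2) -/
theorem Rel.L_eX (h : Rel T (1 / Q) l e) (hQ : 0 < Q) (hs : 0 < s) (j : Fin N)
    (w : List (Fin N)) :
    (star (l (1, j))) (e (word (Xs Q s l e) w T.Ω)) =
      ((√s : ℝ) : ℂ) • ssum j w (fun u v => Bmom T Q s l e u • word (Xs Q s l e) v T.Ω) :=
  (h.T04_main hQ hs w j).2.1

/-- T4 (d3) -/
theorem Rel.l_eX (h : Rel T (1 / Q) l e) (hQ : 0 < Q) (hs : 0 < s) (j : Fin N)
    (w : List (Fin N)) :
    (star (l (0, j))) (e (word (Xs Q s l e) w T.Ω)) =
      (Q : ℂ) • ssum j w (fun u v => Bmom T Q s l e u • e (word (Xs Q s l e) v T.Ω)) :=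
  (h.T04_main hQ hs w j).2.2

theorem Rel.A_cons (h : Rel T (1 / Q) l e) (hQ : 0 < Q) (hs : 0 < s) (j : Fin N)
    (w : List (Fin N)) :
    Amom T Q s l e (j :: w) =
      ssum j w (fun u v => (Q : ℂ) ^ 2 * (Bmom T Q s l e u * Bmom T Q s l e v) +
        (s : ℂ) * (Amom T Q s l e u * Amom T Q s l e v)) :=
  h.T04_A_cons hs j w (h.T04_main hQ hs w)

theorem Rel.B_cons (h : Rel T (1 / Q) l e) (hQ : 0 < Q) (hs : 0 < s) (j : Fin N)
    (w : List (Fin N)) :
    Bmom T Q s l e (j :: w) =
      ssum j w (fun u v => (Q : ℂ) ^ 2 * (Bmom T Q s l e u * Bmom T Q s l e v) +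
        (s : ℂ) * (Amom T Q s l e u * Bmom T Q s l e v)) :=
  h.T04_B_cons hs j w (h.T04_main hQ hs w)

/-- `τ(Y_j X_w) = Q² ∑ B(w') B(w'')` -/
theorem Rel.tau_YX (h : Rel T (1 / Q) l e) (hQ : 0 < Q) (hs : 0 < s) (j : Fin N)
    (w : List (Fin N)) :
    T.τ (Yop Q l e j * word (Xs Q s l e) w) =
      ssum j w (fun u v => (Q : ℂ) ^ 2 * (Bmom T Q s l e u * Bmom T Q s l e v)) := by
  rw [← mul_ssum, ← h.T04_YX j w (h.T04_main hQ hs w)]
  unfold TracialVN.τ Yop
  simp only [add_apply, smul_apply, mul_apply_eq_comp, map_add]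

lemma Rel.T04_inner_E (h : Rel T (1 / Q) l e) (u v : List (Fin N)) :
    ⟪Ewick T l u, Ewick T l v⟫_ℂ = if u = v then 1 else 0 := by
  induction u generalizing v with
  | nil =>
    cases v with
    | nil =>
      rw [if_pos rfl]
      unfold Ewick
      simp [inner_self_eq_norm_sq_to_K, T.norm_Ω]
    | cons j v =>
      rw [if_neg (by simp)]
      unfold Ewick
      rw [List.map_cons, List.prod_cons, mul_apply_eq_comp, T04_inner_star', List.map_nil,
        List.prod_nil, one_apply_eq_self, h.lΩ, inner_zero_left]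
  | cons i u ih =>
    cases v with
    | nil =>
      rw [if_neg (by simp)]
      unfold Ewick
      rw [List.map_cons, List.prod_cons, mul_apply_eq_comp, ← T04_inner_star, List.map_nil,
        List.prod_nil, one_apply_eq_self, h.lΩ, inner_zero_right]
    | cons j v =>
      have h1 := ih v
      unfold Ewick at h1 ⊢
      rw [List.map_cons, List.prod_cons, mul_apply_eq_comp, List.map_cons, List.prod_cons,
        mul_apply_eq_comp, ← T04_inner_star, h.T04_ll]
      by_cases hij : i = j
      · rw [if_pos (by rw [hij]), h1]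
        simp [hij]
      · rw [if_neg (fun h2 => hij (congrArg Prod.snd h2)), inner_zero_right, if_neg]
        intro h2
        exact hij (List.cons.inj h2).1

/-- the vectors `E_u` are orthonormal -/
theorem Rel.orthonormal_E (h : Rel T (1 / Q) l e) :
    Orthonormal ℂ (fun u : List (Fin N) => Ewick T l u) :=
  orthonormal_iff_ite.mpr (fun u v => h.T04_inner_E u v)

/-- `l̂_j⋆ e E_u = 0` -/
theorem Rel.l_e_E (h : Rel T (1 / Q) l e) (j : Fin N) (u : List (Fin N)) :
    (star (l (0, j))) (e (Ewick T l u)) = 0 := by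
  cases u with
  | nil =>
    unfold Ewick
    rw [List.map_nil, List.prod_nil, one_apply_eq_self, h.leΩ]
  | cons i u =>
    unfold Ewick
    rw [List.map_cons, List.prod_cons, mul_apply_eq_comp, h.T04_lel, if_neg]
    intro h2
    simp at h2

end P087
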