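import Vale.Agent.P087.Words

open Filter
noncomputable section
namespace P087

/-- `h = g - g·g` -/
def hser {N : ℕ} (g : List (Fin N) → ℝ) (v : List (Fin N)) : ℝ :=
  g v - csum v (fun a b => g a * g b)

/-- `y_j = (Q²/√s) g j g` -/
def yser {N : ℕ} (Q s : ℝ) (g : List (Fin N) → ℝ) (j : Fin N) (w : List (Fin N)) : ℝ :=
  Q ^ 2 / √s * ssum j w (fun a b => g a * g b)

namespace T05

variable {N : ℕ}

/-! ### existence of the recursion -/

/-- one step of the recursion -/
def Phi (Q s : ℝ) (g : List (Fin N) → ℝ) : List (Fin N) → ℝ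
  | [] => 1 / Q
  | j :: w => Q ^ 2 / s * ssum j w (fun x v => g x * hser g v)

lemma Phi_congr (Q s : ℝ) {g g' : List (Fin N) → ℝ} {n : ℕ}
    (h : ∀ w : List (Fin N), w.length < n → g w = g' w) :
    ∀ w : List (Fin N), w.length < n + 1 → Phi Q s g w = Phi Q s g' w
  | [], _ => rfl
  | j :: w, hw => by
    simp only [List.length_cons] at hw
    simp only [Phi]
    have e : ssum j w (fun x v => g x * hser g v) = ssum j w (fun x v => g' x * hser g' v) := by
      refine ssum_congr fun x v hxv => ?_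
      have hl : w.length = x.length + (v.length + 1) := by rw [hxv]; simp
      rw [h x (by omega), hser, hser, h v (by omega)]
      have e2 : csum v (fun a b => g a * g b) = csum v (fun a b => g' a * g' b) := by
        refine csum_congr fun a b hab => ?_
        have hl2 : v.length = a.length + b.length := by rw [hab]; simp
        rw [h a (by omega), h b (by omega)]
      rw [e2]
    rw [e]

/-- iterates -/
def G (Q s : ℝ) (n : ℕ) : List (Fin N) → ℝ := (Phi Q s)^[n] (fun _ => 0)

lemma G_succ (Q s : ℝ) (n : ℕ) : (G Q s (n + 1) : List (Fin N) → ℝ) = Phi Q s (G Q s n) :=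
  Function.iterate_succ_apply' _ _ _

lemma G_stable (Q s : ℝ) (n : ℕ) :
    ∀ w : List (Fin N), w.length < n → G Q s n w = G Q s (n + 1) w := by
  induction n with
  | zero => intro w hw; omega
  | succ n ih =>
    intro w hw
    rw [G_succ, G_succ Q s (n + 1)]
    exact Phi_congr Q s ih w hw

lemma G_stable' (Q s : ℝ) (n m : ℕ) (w : List (Fin N)) (hw : w.length < n) :
    G Q s n w = G Q s (n + m) w := by
  induction m with
  | zero => rfl
  | succ m ih => rw [ih, ← add_assoc]; exact G_stable Q s (n + m) w (by omega)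

/-- the solution -/
def gs (Q s : ℝ) (w : List (Fin N)) : ℝ := G Q s (w.length + 1) w

lemma gs_eq (Q s : ℝ) (n : ℕ) (w : List (Fin N)) (hw : w.length < n) : gs Q s w = G Q s n w := by
  obtain ⟨m, rfl⟩ := Nat.exists_eq_add_of_le hw
  exact G_stable' Q s (w.length + 1) m w (by omega)

lemma gs_rec (Q s : ℝ) (w : List (Fin N)) : gs Q s w = Phi Q s (gs Q s) w := by
  rw [gs_eq Q s (w.length + 1) w (by omega), G_succ]
  exact Phi_congr Q s (n := w.length) (fun v hv => (gs_eq Q s _ v hv).symm) w (by omega)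

/-! ### level norms -/

/-- words of length `d` -/
def lev (N d : ℕ) : Finset (List (Fin N)) :=
  (Finset.univ : Finset (Fin d → Fin N)).map ⟨List.ofFn, List.ofFn_injective⟩

lemma mem_lev {d : ℕ} {w : List (Fin N)} : w ∈ lev N d ↔ w.length = d := by
  constructor
  · intro h
    simp only [lev, Finset.mem_map, Finset.mem_univ, true_and, Function.Embedding.coeFn_mk] at h
    obtain ⟨f, rfl⟩ := h
    simp
  · rintro rfl
    simp only [lev, Finset.mem_map, Finset.mem_univ, true_and, Function.Embedding.coeFn_mk]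
    exact ⟨w.get, List.ofFn_get w⟩

/-- level norm -/
def nr (d : ℕ) (a : List (Fin N) → ℝ) : ℝ := √(∑ w ∈ lev N d, a w ^ 2)

lemma nr_nonneg (d : ℕ) (a : List (Fin N) → ℝ) : 0 ≤ nr d a := Real.sqrt_nonneg _

lemma nr_sq (d : ℕ) (a : List (Fin N) → ℝ) : nr d a ^ 2 = ∑ w ∈ lev N d, a w ^ 2 :=
  Real.sq_sqrt (Finset.sum_nonneg fun _ _ => sq_nonneg _)

lemma minkowski {ι κ : Type*} (I : Finset ι) (P : Finset κ) (A : κ → ι → ℝ) :
    √(∑ i ∈ I, (∑ p ∈ P, A p i) ^ 2) ≤ ∑ p ∈ P, √(∑ i ∈ I, A p i ^ 2) := by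
  have key := norm_sum_le P (fun p => (WithLp.toLp 2 (fun i : I => A p i) : EuclideanSpace ℝ I))
  simp only [EuclideanSpace.norm_eq, WithLp.ofLp_sum, Finset.sum_apply, Real.norm_eq_abs,
    sq_abs] at key
  have e1 : ∑ i ∈ I, (∑ p ∈ P, A p i) ^ 2 = ∑ i : I, (∑ p ∈ P, A p i) ^ 2 :=
    (Finset.sum_coe_sort I (fun i => (∑ p ∈ P, A p i) ^ 2)).symm
  have e2 : ∀ p, ∑ i ∈ I, A p i ^ 2 = ∑ i : I, A p i ^ 2 := fun p =>
    (Finset.sum_coe_sort I (fun i => A p i ^ 2)).symm
  rw [e1]
  simp only [e2]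
  exact key

lemma nr_add (d : ℕ) (a b : List (Fin N) → ℝ) : nr d (fun w => a w + b w) ≤ nr d a + nr d b := by
  have := minkowski (lev N d) (Finset.univ : Finset Bool)
    (fun p w => if p = true then a w else b w)
  simpa [nr, Fintype.sum_bool] using this

lemma nr_neg (d : ℕ) (a : List (Fin N) → ℝ) : nr d (fun w => - a w) = nr d a := by
  simp [nr]

lemma nr_smul (d : ℕ) {c : ℝ} (hc : 0 ≤ c) (a : List (Fin N) → ℝ) :
    nr d (fun w => c * a w) = c * nr d a := by
  unfold nr
  simp only [mul_pow]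
  rw [← Finset.mul_sum, Real.sqrt_mul (sq_nonneg c), Real.sqrt_sq hc]

lemma ssum_eq_range (j : Fin N) (w : List (Fin N)) (f : List (Fin N) → List (Fin N) → ℝ) :
    ssum j w f = ∑ p ∈ Finset.range w.length,
      if w[p]? = some j then f (w.take p) (w.drop (p + 1)) else 0 := by
  rw [ssum_eq_fin, Finset.sum_range]
  refine Finset.sum_congr rfl fun p _ => ?_
  have : (w[(p : ℕ)]? = some j) ↔ w.get p = j := by
    simp
  simp only [this]

lemma csum_eq_range (w : List (Fin N)) (f : List (Fin N) → List (Fin N) → ℝ) :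
    csum w f = ∑ p ∈ Finset.range (w.length + 1), f (w.take p) (w.drop p) := by
  induction w generalizing f with
  | nil => simp
  | cons i w ih =>
    rw [csum_cons, ih, List.length_cons, Finset.sum_range_succ' _ (w.length + 1), add_comm]
    simp

lemma sum_split (j : Fin N) (p q : ℕ) (F : List (Fin N) → List (Fin N) → ℝ) :
    ∑ w ∈ lev N (p + q + 1), (if w[p]? = some j then F (w.take p) (w.drop (p + 1)) else 0) =
      ∑ u ∈ lev N p, ∑ v ∈ lev N q, F u v := by
  rw [← Finset.sum_filter, ← Finset.sum_product']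
  symm
  refine Finset.sum_nbij' (fun x => x.1 ++ j :: x.2) (fun w => (w.take p, w.drop (p + 1)))
    ?_ ?_ ?_ ?_ ?_
  · rintro ⟨u, v⟩ h
    simp only [Finset.mem_product, mem_lev] at h
    simp only [Finset.mem_filter, mem_lev, List.length_append, List.length_cons, h.1, h.2]
    refine ⟨by omega, ?_⟩
    rw [List.getElem?_append_right (by omega)]
    simp [h.1]
  · intro w h
    simp only [Finset.mem_filter, mem_lev] at h
    simp only [Finset.mem_product, mem_lev, List.length_take, List.length_drop]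
    omega
  · rintro ⟨u, v⟩ h
    simp only [Finset.mem_product, mem_lev] at h
    obtain ⟨rfl, rfl⟩ := h
    simp
  · intro w h
    simp only [Finset.mem_filter, mem_lev] at h
    have hp : p < w.length := by omega
    have hj : w[p] = j := by
      have := h.2
      rw [List.getElem?_eq_getElem hp] at this
      exact Option.some_injective _ this
    simp only
    conv_rhs => rw [← List.take_append_drop p w, List.drop_eq_getElem_cons hp, hj]
  · rintro ⟨u, v⟩ h
    simp only [Finset.mem_product, mem_lev] at h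
    obtain ⟨rfl, rfl⟩ := h
    simp

lemma sum_split' (p q : ℕ) (F : List (Fin N) → List (Fin N) → ℝ) :
    ∑ w ∈ lev N (p + q), F (w.take p) (w.drop p) =
      ∑ u ∈ lev N p, ∑ v ∈ lev N q, F u v := by
  rw [← Finset.sum_product']
  symm
  refine Finset.sum_nbij' (fun x => x.1 ++ x.2) (fun w => (w.take p, w.drop p)) ?_ ?_ ?_ ?_ ?_
  · rintro ⟨u, v⟩ h
    simp only [Finset.mem_product, mem_lev] at h
    simp only [mem_lev, List.length_append, h.1, h.2]
  · intro w h
    simp only [mem_lev] at h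
    simp only [Finset.mem_product, mem_lev, List.length_take, List.length_drop]
    omega
  · rintro ⟨u, v⟩ h
    simp only [Finset.mem_product, mem_lev] at h
    obtain ⟨rfl, rfl⟩ := h
    simp
  · intro w h
    simp
  · rintro ⟨u, v⟩ h
    simp only [Finset.mem_product, mem_lev] at h
    obtain ⟨rfl, rfl⟩ := h
    simp

lemma nr_ssum (j : Fin N) (a b : List (Fin N) → ℝ) (d : ℕ) :
    nr d (fun w => ssum j w (fun u v => a u * b v)) ≤
      ∑ p ∈ Finset.range d, nr p a * nr (d - 1 - p) b := by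
  unfold nr
  have h1 : ∑ w ∈ lev N d, ssum j w (fun u v => a u * b v) ^ 2 =
      ∑ w ∈ lev N d, (∑ p ∈ Finset.range d,
        if w[p]? = some j then a (w.take p) * b (w.drop (p + 1)) else 0) ^ 2 := by
    refine Finset.sum_congr rfl fun w hw => ?_
    rw [ssum_eq_range, mem_lev.1 hw]
  rw [h1]
  refine (minkowski _ _ _).trans (le_of_eq (Finset.sum_congr rfl fun p hp => ?_))
  rw [← Real.sqrt_mul (Finset.sum_nonneg fun _ _ => sq_nonneg _)]
  congr 1
  rw [Finset.mem_range] at hp
  obtain ⟨q, rfl⟩ : ∃ q, d = p + q + 1 := ⟨d - 1 - p, by omega⟩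
  have hq : p + q + 1 - 1 - p = q := by omega
  rw [hq, Finset.sum_mul_sum, ← sum_split j p q (fun u v => a u ^ 2 * b v ^ 2)]
  refine Finset.sum_congr rfl fun w _ => ?_
  split_ifs <;> ring

lemma nr_csum (a b : List (Fin N) → ℝ) (d : ℕ) :
    nr d (fun w => csum w (fun u v => a u * b v)) ≤
      ∑ p ∈ Finset.range (d + 1), nr p a * nr (d - p) b := by
  unfold nr
  have h1 : ∑ w ∈ lev N d, csum w (fun u v => a u * b v) ^ 2 =
      ∑ w ∈ lev N d, (∑ p ∈ Finset.range (d + 1), a (w.take p) * b (w.drop p)) ^ 2 := by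
    refine Finset.sum_congr rfl fun w hw => ?_
    rw [csum_eq_range, mem_lev.1 hw]
  rw [h1]
  refine (minkowski _ _ _).trans (le_of_eq (Finset.sum_congr rfl fun p hp => ?_))
  rw [← Real.sqrt_mul (Finset.sum_nonneg fun _ _ => sq_nonneg _)]
  congr 1
  rw [Finset.mem_range] at hp
  obtain ⟨q, rfl⟩ : ∃ q, d = p + q := ⟨d - p, by omega⟩
  have hq : p + q - p = q := by omega
  rw [hq, Finset.sum_mul_sum, ← sum_split' p q (fun u v => a u ^ 2 * b v ^ 2)]
  refine Finset.sum_congr rfl fun w _ => ?_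
  ring

lemma conv_le (D : ℕ) (x y : ℕ → ℝ) (hx : ∀ n, 0 ≤ x n) (hy : ∀ n, 0 ≤ y n) :
    ∑ d ∈ Finset.range D, ∑ p ∈ Finset.range (d + 1), x p * y (d - p) ≤
      (∑ p ∈ Finset.range D, x p) * ∑ q ∈ Finset.range D, y q := by
  rw [Finset.sum_range_diag_flip D (fun p q => x p * y q), Finset.sum_mul_sum]
  refine Finset.sum_le_sum fun m _ => ?_
  refine Finset.sum_le_sum_of_subset_of_nonneg ?_ fun k _ _ => mul_nonneg (hx _) (hy _)
  exact Finset.range_subset_range.2 (Nat.sub_le _ _)

lemma conv_le' (D : ℕ) (x y : ℕ → ℝ) (hx : ∀ n, 0 ≤ x n) (hy : ∀ n, 0 ≤ y n) :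
    ∑ d ∈ Finset.range D, ∑ p ∈ Finset.range d, x p * y (d - 1 - p) ≤
      (∑ p ∈ Finset.range D, x p) * ∑ q ∈ Finset.range D, y q := by
  cases D with
  | zero => simp
  | succ D =>
    rw [Finset.sum_range_succ']
    simp only [Finset.range_zero, Finset.sum_empty, add_zero, Nat.add_sub_cancel]
    refine (conv_le D x y hx hy).trans ?_
    refine mul_le_mul ?_ ?_ (Finset.sum_nonneg fun _ _ => hy _) (Finset.sum_nonneg fun _ _ => hx _)
    · exact Finset.sum_le_sum_of_subset_of_nonneg (Finset.range_subset_range.2 (Nat.le_succ _))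
        fun k _ _ => hx _
    · exact Finset.sum_le_sum_of_subset_of_nonneg (Finset.range_subset_range.2 (Nat.le_succ _))
        fun k _ _ => hy _

lemma sum_lev_succ (d : ℕ) (F : List (Fin N) → ℝ) :
    ∑ w ∈ lev N (d + 1), F w = ∑ j : Fin N, ∑ w ∈ lev N d, F (j :: w) := by
  rw [← Finset.sum_product' Finset.univ (lev N d) (fun j w => F (j :: w))]
  symm
  refine Finset.sum_bij (fun x _ => x.1 :: x.2) ?_ ?_ ?_ ?_
  · rintro ⟨j, w⟩ h
    simp only [Finset.mem_product, mem_lev, Finset.mem_univ, true_and] at h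
    simp [mem_lev, h]
  · rintro ⟨j, w⟩ _ ⟨j', w'⟩ _ h
    simp only [List.cons.injEq] at h
    simp [h]
  · intro w h
    rw [mem_lev] at h
    cases w with
    | nil => simp at h
    | cons j w => exact ⟨(j, w), by simpa [mem_lev] using h, rfl⟩
  · rintro ⟨j, w⟩ _
    rfl

lemma sum_lev_zero (F : List (Fin N) → ℝ) : ∑ w ∈ lev N 0, F w = F [] := by
  have : lev N 0 = {[]} := by
    ext w
    rw [mem_lev, Finset.mem_singleton, List.length_eq_zero_iff]
  rw [this, Finset.sum_singleton]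

lemma sum_sq_le {D : ℕ} (z : ℕ → ℝ) (hz : ∀ n, 0 ≤ z n) :
    ∑ d ∈ Finset.range D, z d ^ 2 ≤ (∑ d ∈ Finset.range D, z d) ^ 2 := by
  rw [sq (∑ d ∈ Finset.range D, z d), Finset.sum_mul]
  refine Finset.sum_le_sum fun d hd => ?_
  rw [sq]
  exact mul_le_mul_of_nonneg_left (Finset.single_le_sum (fun i _ => hz i) hd) (hz d)

end T05

open T05 in
/-- T5 -/
theorem exists_gser (N : ℕ) (Q s : ℝ) (hQ : 2 ≤ Q) (hN : 1 ≤ N) (hs : 8 * Q * √N ≤ s) :
    ∃ g : List (Fin N) → ℝ, g [] = 1 / Q ∧
      (∀ j w, g (j :: w) = Q ^ 2 / s * ssum j w (fun x v => g x * hser g v)) ∧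
      ∀ j, Summable (fun u => yser Q s g j u ^ 2) ∧ ∑' u, yser Q s g j u ^ 2 ≤ 16 / s := by
  have hQ0 : 0 < Q := by linarith
  have hN0 : (0 : ℝ) < √N := Real.sqrt_pos.2 (by exact_mod_cast hN)
  have hs0 : 0 < s := lt_of_lt_of_le (by positivity) hs
  obtain ⟨g, hg0, hgc⟩ : ∃ g : List (Fin N) → ℝ, g [] = 1 / Q ∧
      (∀ j w, g (j :: w) = Q ^ 2 / s * ssum j w (fun x v => g x * hser g v)) :=
    ⟨gs Q s, by rw [gs_rec]; rfl, fun j w => by rw [gs_rec]; rfl⟩
  refine ⟨g, hg0, hgc, ?_⟩
  -- level norms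
  set x : ℕ → ℝ := fun d => nr d g with hx
  have hxn : ∀ d, 0 ≤ x d := fun d => nr_nonneg d g
  have hx0 : x 0 = 1 / Q := by
    simp only [hx, nr]
    rw [sum_lev_zero, hg0, Real.sqrt_sq (by positivity)]
  set η : ℕ → ℝ := fun q => nr q (hser g) with hη
  have hηn : ∀ d, 0 ≤ η d := fun d => nr_nonneg d _
  have hh : ∀ q, η q ≤ x q + ∑ p ∈ Finset.range (q + 1), x p * x (q - p) := by
    intro q
    have e : (hser g) = fun w => g w + (fun w => - csum w (fun a b => g a * g b)) w := by
      funext w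
      simp [hser, sub_eq_add_neg]
    simp only [hη]
    rw [e]
    refine (nr_add q g _).trans ?_
    rw [nr_neg]
    exact add_le_add le_rfl (nr_csum g g q)
  have hC0 : 0 ≤ Q ^ 2 / s := by positivity
  have hxs : ∀ d, x (d + 1) ≤ √N * (Q ^ 2 / s * ∑ p ∈ Finset.range d, x p * η (d - 1 - p)) := by
    intro d
    have e1 : ∀ j : Fin N, ∑ w ∈ lev N d, g (j :: w) ^ 2 ≤
        (Q ^ 2 / s * ∑ p ∈ Finset.range d, x p * η (d - 1 - p)) ^ 2 := by
      intro j
      have e2 : ∑ w ∈ lev N d, g (j :: w) ^ 2 =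
          nr d (fun w => Q ^ 2 / s * ssum j w (fun x v => g x * hser g v)) ^ 2 := by
        rw [nr_sq]
        exact Finset.sum_congr rfl fun w _ => by rw [hgc]
      rw [e2, nr_smul d hC0]
      exact pow_le_pow_left₀ (mul_nonneg hC0 (nr_nonneg _ _))
        (mul_le_mul_of_nonneg_left (nr_ssum j g (hser g) d) hC0) 2
    have hB : 0 ≤ Q ^ 2 / s * ∑ p ∈ Finset.range d, x p * η (d - 1 - p) :=
      mul_nonneg hC0 (Finset.sum_nonneg fun p _ => mul_nonneg (hxn _) (hηn _))
    simp only [hx, nr]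
    rw [sum_lev_succ]
    refine (Real.sqrt_le_sqrt (Finset.sum_le_sum fun j _ => e1 j)).trans (le_of_eq ?_)
    rw [Finset.sum_const, Finset.card_univ, Fintype.card_fin, nsmul_eq_mul,
      Real.sqrt_mul (Nat.cast_nonneg N), Real.sqrt_sq hB]
    rfl
  have hC : √N * (Q ^ 2 / s) ≤ Q / 8 := by
    rw [← mul_div_assoc, div_le_iff₀ hs0]
    nlinarith [mul_le_mul_of_nonneg_left hs hQ0.le]
  have hQi : 1 / Q ≤ 1 / 2 := one_div_le_one_div_of_le (by norm_num) hQ
  have hS : ∀ D, ∑ d ∈ Finset.range D, x d ≤ 2 * (1 / Q) := by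
    intro D
    induction D with
    | zero => simp; positivity
    | succ D ih =>
      set S := ∑ d ∈ Finset.range D, x d with hSdef
      have hS0 : 0 ≤ S := Finset.sum_nonneg fun d _ => hxn d
      have hE : ∑ q ∈ Finset.range D, η q ≤ S + S * S := by
        refine (Finset.sum_le_sum fun q _ => hh q).trans ?_
        rw [Finset.sum_add_distrib]
        exact add_le_add le_rfl (conv_le D x x hxn hxn)
      have h1 : ∑ d ∈ Finset.range D, x (d + 1) ≤ √N * (Q ^ 2 / s) * (S * (S + S * S)) := by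
        refine (Finset.sum_le_sum fun d _ => hxs d).trans ?_
        rw [← Finset.mul_sum, ← Finset.mul_sum, ← mul_assoc]
        refine mul_le_mul_of_nonneg_left ?_ (mul_nonneg hN0.le hC0)
        exact (conv_le' D x η hxn hηn).trans (mul_le_mul_of_nonneg_left hE hS0)
      rw [Finset.sum_range_succ', hx0]
      have h2 : √N * (Q ^ 2 / s) * (S * (S + S * S)) ≤
          Q / 8 * (2 * (1 / Q) * (2 * (1 / Q) + 2 * (1 / Q) * (2 * (1 / Q)))) := by
        gcongr
      have h3 : Q / 8 * (2 * (1 / Q) * (2 * (1 / Q) + 2 * (1 / Q) * (2 * (1 / Q)))) =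
          1 / 2 * (1 / Q) + 1 / Q * (1 / Q) := by
        field_simp
        ring
      have h4 : 1 / Q * (1 / Q) ≤ 1 / 2 * (1 / Q) :=
        mul_le_mul_of_nonneg_right hQi (by positivity)
      linarith
  intro j
  set y : List (Fin N) → ℝ := yser Q s g j with hy
  have hsq : 0 < √s := Real.sqrt_pos.2 hs0
  have hny : ∀ D, ∑ d ∈ Finset.range D, nr d y ≤ 4 / √s := by
    intro D
    have e : ∀ d, nr d y ≤ Q ^ 2 / √s * ∑ p ∈ Finset.range d, x p * x (d - 1 - p) := by
      intro d
      have e1 : y = fun w => Q ^ 2 / √s * ssum j w (fun a b => g a * g b) := rfl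
      rw [e1, nr_smul d (by positivity)]
      exact mul_le_mul_of_nonneg_left (nr_ssum j g g d) (by positivity)
    refine (Finset.sum_le_sum fun d _ => e d).trans ?_
    rw [← Finset.mul_sum]
    have h1 := (conv_le' D x x hxn hxn).trans (mul_le_mul (hS D) (hS D)
      (Finset.sum_nonneg fun d _ => hxn d) (by positivity))
    refine (mul_le_mul_of_nonneg_left h1 (by positivity)).trans (le_of_eq ?_)
    field_simp
    ring
  have hpart : ∀ F : Finset (List (Fin N)), ∑ u ∈ F, y u ^ 2 ≤ 16 / s := by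
    intro F
    have hsub : F ⊆ (Finset.range (F.sup List.length + 1)).biUnion (lev N) := by
      intro w hw
      rw [Finset.mem_biUnion]
      exact ⟨w.length, Finset.mem_range.2 (Nat.lt_succ_of_le (Finset.le_sup (f := List.length) hw)),
        mem_lev.2 rfl⟩
    calc ∑ u ∈ F, y u ^ 2 ≤ ∑ u ∈ (Finset.range (F.sup List.length + 1)).biUnion (lev N), y u ^ 2 :=
          Finset.sum_le_sum_of_subset_of_nonneg hsub fun _ _ _ => sq_nonneg _
      _ = ∑ d ∈ Finset.range (F.sup List.length + 1), ∑ w ∈ lev N d, y w ^ 2 := by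
          refine Finset.sum_biUnion ?_
          intro d _ d' _ hdd
          rw [Function.onFun, Finset.disjoint_left]
          intro w h1 h2
          exact hdd ((mem_lev.1 h1).symm.trans (mem_lev.1 h2))
      _ = ∑ d ∈ Finset.range (F.sup List.length + 1), nr d y ^ 2 :=
          Finset.sum_congr rfl fun d _ => (nr_sq d y).symm
      _ ≤ (∑ d ∈ Finset.range (F.sup List.length + 1), nr d y) ^ 2 :=
          sum_sq_le _ fun d => nr_nonneg d y
      _ ≤ (4 / √s) ^ 2 := pow_le_pow_left₀ (Finset.sum_nonneg fun d _ => nr_nonneg d y) (hny _) 2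
      _ = 16 / s := by rw [div_pow, Real.sq_sqrt hs0.le]; norm_num
  have hsum : Summable (fun u => y u ^ 2) :=
    summable_of_sum_le (fun _ => sq_nonneg _) hpart
  exact ⟨hsum, hsum.tsum_le_of_sum_le hpart⟩

end P087
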