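import Vale.Agent.P087.Words

noncomputable section
namespace P087

section lam

variable {ι : Type*} [Fintype ι] [DecidableEq ι]

/-- `∑_{|u| ≤ n} G u` -/
def lamT : ℕ → (List ι → ℂ) → ℂ
  | 0, G => G []
  | n + 1, G => G [] + ∑ i, lamT n (fun u => G (i :: u))

omit [DecidableEq ι] in
lemma lamT_succ (n : ℕ) (G : List ι → ℂ) :
    lamT (n + 1) G = G [] + ∑ i, lamT n (fun u => G (i :: u)) := rfl

omit [DecidableEq ι] in
lemma lamT_add (n : ℕ) (F G : List ι → ℂ) :
    lamT n (fun u => F u + G u) = lamT n F + lamT n G := by
  induction n generalizing F G with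
  | zero => rfl
  | succ n ih =>
    rw [lamT_succ, lamT_succ, lamT_succ]
    simp only [ih, Finset.sum_add_distrib]
    ring

omit [DecidableEq ι] in
lemma lamT_mul (n : ℕ) (c : ℂ) (F : List ι → ℂ) :
    lamT n (fun u => c * F u) = c * lamT n F := by
  induction n generalizing F with
  | zero => rfl
  | succ n ih =>
    rw [lamT_succ, lamT_succ]
    simp only [ih]
    rw [mul_add, Finset.mul_sum]

omit [DecidableEq ι] in
lemma lamT_zero (n : ℕ) (F : List ι → ℂ) (hF : ∀ u, F u = 0) : lamT n F = 0 := by
  have h := lamT_mul n 0 F
  rw [zero_mul] at h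
  rw [← h]
  congr 1
  ext u
  rw [hF, mul_zero]

/-- `lamT n` as an additive map -/
def lamTHom (n : ℕ) : (List ι → ℂ) →+ ℂ where
  toFun := lamT n
  map_zero' := lamT_zero n _ (fun _ => rfl)
  map_add' := lamT_add n

omit [DecidableEq ι] in
lemma lamTHom_apply (n : ℕ) (F : List ι → ℂ) : lamTHom n F = lamT n F := rfl

omit [DecidableEq ι] in
lemma lamT_ssum {κ : Type*} [DecidableEq κ] (n : ℕ) (j : κ) (w : List κ)
    (F : List κ → List κ → List ι → ℂ) :
    lamT n (fun u => ssum j w (fun a b => F a b u)) = ssum j w (fun a b => lamT n (F a b)) := by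
  have h1 : (fun u => ssum j w (fun a b => F a b u)) = ssum j w F := by
    ext u
    exact (map_ssum (Pi.evalAddMonoidHom (fun _ : List ι => ℂ) u) j w F).symm
  rw [h1, ← lamTHom_apply, map_ssum (lamTHom n)]
  rfl

omit [DecidableEq ι] in
lemma lamT_stable (m n : ℕ) (hmn : m ≤ n) (G : List ι → ℂ) (hG : ∀ u, m < u.length → G u = 0) :
    lamT n G = lamT m G := by
  induction m generalizing n G with
  | zero =>
    cases n with
    | zero => rfl
    | succ n =>
      rw [lamT_succ]
      have : ∀ i, lamT n (fun u => G (i :: u)) = 0 := fun i =>
        lamT_zero n _ (fun u => hG _ (by simp))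
      simp only [this, Finset.sum_const_zero, add_zero]
      rfl
  | succ m ih =>
    obtain ⟨n, rfl⟩ : ∃ k, n = k + 1 := ⟨n - 1, by omega⟩
    rw [lamT_succ, lamT_succ]
    congr 1
    refine Finset.sum_congr rfl fun i _ => ?_
    exact ih n (by omega) _ (fun u hu => hG _ (by simpa using hu))

/-- the kernel: `K([], w) = A w`, `K(i u, w) = r ∑_{w = a i b} C a K(u, b)` where `K(u, b)` is computed
with `A`. -/
def lamK (A : List ι → ℂ) (r : ℂ) : List ι → List ι → ℂ
  | [], w => A w
  | i :: u, w => r * ssum i w (fun a b => A a * lamK A r u b)

/-- `KB([], w) = B w`, `KB(i u, w) = r ∑_{w = a i b} B a K(u, b)`. -/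
def lamKB (A B : List ι → ℂ) (r : ℂ) : List ι → List ι → ℂ
  | [], w => B w
  | i :: u, w => r * ssum i w (fun a b => B a * lamK A r u b)

omit [Fintype ι] in
lemma lamK_eq_zero (A : List ι → ℂ) (r : ℂ) (u w : List ι) (h : w.length < u.length) :
    lamK A r u w = 0 := by
  induction u generalizing w with
  | nil => simp at h
  | cons i u ih =>
    rw [lamK]
    have : ssum i w (fun a b => A a * lamK A r u b) = ssum i w (fun _ _ => (0 : ℂ)) := by
      refine ssum_congr (fun a b hab => ?_)
      rw [ih b, mul_zero]
      have h1 : w.length = a.length + (b.length + 1) := by rw [hab]; simp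
      rw [List.length_cons] at h
      omega
    rw [this, ssum_zero, mul_zero]

omit [Fintype ι] in
lemma lamKB_eq_zero (A B : List ι → ℂ) (r : ℂ) (u w : List ι) (h : w.length < u.length) :
    lamKB A B r u w = 0 := by
  cases u with
  | nil => simp at h
  | cons i u =>
    rw [lamKB]
    have : ssum i w (fun a b => B a * lamK A r u b) = ssum i w (fun _ _ => (0 : ℂ)) := by
      refine ssum_congr (fun a b hab => ?_)
      rw [lamK_eq_zero, mul_zero]
      have h1 : w.length = a.length + (b.length + 1) := by rw [hab]; simp
      rw [List.length_cons] at h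
      omega
    rw [this, ssum_zero, mul_zero]

/-- `F` shifted by the letter `j` -/
def lamD (j : ι) (F : List ι → ℂ) : List ι → ℂ
  | [] => 0
  | i :: u => if i = j then F u else 0

/-- `Λ_a(w) = ∑_u a(u) K(u, w)` -/
def lam (A : List ι → ℂ) (r : ℂ) (a : List ι → ℂ) (w : List ι) : ℂ :=
  lamT w.length (fun u => a u * lamK A r u w)

lemma lam_eq (A : List ι → ℂ) (r : ℂ) (a : List ι → ℂ) (w : List ι) (n : ℕ) (hn : w.length ≤ n) :
    lamT n (fun u => a u * lamK A r u w) = lam A r a w :=
  lamT_stable _ _ hn _ (fun u hu => by rw [lamK_eq_zero A r u w hu, mul_zero])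

lemma lam_add (A : List ι → ℂ) (r : ℂ) (a b : List ι → ℂ) (w : List ι) :
    lam A r (fun u => a u + b u) w = lam A r a w + lam A r b w := by
  unfold lam
  rw [← lamT_add]
  congr 1
  ext u
  ring

lemma lam_mul (A : List ι → ℂ) (r : ℂ) (c : ℂ) (a : List ι → ℂ) (w : List ι) :
    lam A r (fun u => c * a u) w = c * lam A r a w := by
  unfold lam
  rw [← lamT_mul]
  congr 1
  ext u
  ring

lemma lam_sub (A : List ι → ℂ) (r : ℂ) (a b : List ι → ℂ) (w : List ι) :
    lam A r (fun u => a u - b u) w = lam A r a w - lam A r b w := by
  have h := lam_add A r a (fun u => (-1) * b u) w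
  rw [lam_mul] at h
  have e : (fun u => a u - b u) = (fun u => a u + (-1) * b u) := by
    ext u
    ring
  rw [e, h]
  ring

lemma lam_sum {κ : Type*} (s : Finset κ) (A : List ι → ℂ) (r : ℂ) (a : κ → List ι → ℂ)
    (w : List ι) :
    lam A r (fun u => ∑ k ∈ s, a k u) w = ∑ k ∈ s, lam A r (a k) w := by
  classical
  induction s using Finset.induction_on with
  | empty =>
    simp only [Finset.sum_empty]
    exact lamT_zero _ _ (fun u => zero_mul _)
  | insert k s hk ih =>
    simp only [Finset.sum_insert hk]
    rw [lam_add, ih]

/-- recursion for `Λ` -/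
lemma lam_rec (A : List ι → ℂ) (r : ℂ) (a : List ι → ℂ) (w : List ι) :
    lam A r a w = a [] * A w +
      r * ∑ i, ssum i w (fun x y => A x * lam A r (fun u => a (i :: u)) y) := by
  have h1 : lam A r a w = lamT (w.length + 1) (fun u => a u * lamK A r u w) :=
    (lam_eq A r a w _ (Nat.le_succ _)).symm
  rw [h1, lamT_succ]
  congr 1
  rw [Finset.mul_sum]
  refine Finset.sum_congr rfl fun i _ => ?_
  have h2 : (fun u => a (i :: u) * lamK A r (i :: u) w) =
      (fun u => r * ssum i w (fun x y => A x * (a (i :: u) * lamK A r u y))) := by
    ext u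
    rw [lamK, mul_left_comm, mul_ssum (a (i :: u))]
    congr 1
    exact ssum_congr (fun x y _ => by ring)
  rw [h2, lamT_mul, lamT_ssum]
  congr 1
  refine ssum_congr (fun x y hxy => ?_)
  rw [lamT_mul, lam_eq A r (fun u => a (i :: u)) y w.length]
  rw [hxy]
  simp
  omega

/-- the same for the kernel `KB` -/
lemma lamB_rec (A B : List ι → ℂ) (r : ℂ) (a : List ι → ℂ) (w : List ι) (n : ℕ)
    (hn : w.length ≤ n) :
    lamT (n + 1) (fun u => a u * lamKB A B r u w) = a [] * B w +
      r * ∑ i, ssum i w (fun x y => B x * lam A r (fun u => a (i :: u)) y) := by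
  rw [lamT_succ]
  congr 1
  rw [Finset.mul_sum]
  refine Finset.sum_congr rfl fun i _ => ?_
  have h2 : (fun u => a (i :: u) * lamKB A B r (i :: u) w) =
      (fun u => r * ssum i w (fun x y => B x * (a (i :: u) * lamK A r u y))) := by
    ext u
    rw [lamKB, mul_left_comm, mul_ssum (a (i :: u))]
    congr 1
    exact ssum_congr (fun x y _ => by ring)
  rw [h2, lamT_mul, lamT_ssum]
  congr 1
  refine ssum_congr (fun x y hxy => ?_)
  rw [lamT_mul, lam_eq A r (fun u => a (i :: u)) y n]
  rw [hxy] at hn
  simp at hn
  omega

/-- `Λ_{p j q}(w) = r ∑_{w = x j y} Λ_p(x) Λ_q(y)` -/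
lemma lam_prod (A : List ι → ℂ) (r : ℂ) (p q : List ι → ℂ) (j : ι) (w : List ι) :
    lam A r (fun u => ssum j u (fun x y => p x * q y)) w =
      r * ssum j w (fun x y => lam A r p x * lam A r q y) := by
  induction hn : w.length using Nat.strong_induction_on generalizing w p with
  | _ n ih =>
    rw [lam_rec]
    simp only [ssum_nil, zero_mul, zero_add, ssum_cons]
    congr 1
    have h1 : ∀ i, ssum i w (fun x y => A x *
        lam A r (fun u => (if i = j then p [] * q u else 0) +
          ssum j u (fun a b => p (i :: a) * q b)) y) =
        (if i = j then ssum i w (fun x y => (p [] * A x) * lam A r q y) else 0) +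
          ssum j w (fun c b => (r * ssum i c (fun x a => A x * lam A r (fun u => p (i :: u)) a)) *
            lam A r q b) := by
      intro i
      have h2 : ∀ x y, w = x ++ i :: y →
          A x * lam A r (fun u => (if i = j then p [] * q u else 0) +
            ssum j u (fun a b => p (i :: a) * q b)) y =
          (if i = j then (p [] * A x) * lam A r q y else 0) +
            ssum j y (fun a b => A x * (r * (lam A r (fun u => p (i :: u)) a * lam A r q b))) := by
        intro x y hxy
        have hlt : y.length < n := by
          rw [← hn, hxy]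
          simp
          omega
        rw [lam_add, ih y.length hlt (fun u => p (i :: u)) y rfl, mul_add, ← mul_ssum,
          ← mul_ssum]
        congr 1
        by_cases hij : i = j
        · simp only [if_pos hij]
          rw [lam_mul]
          ring
        · simp only [if_neg hij]
          rw [show lam A r (fun _ => (0 : ℂ)) y = 0 from lamT_zero _ _ (fun u => zero_mul _),
            mul_zero]
      rw [ssum_congr h2, ssum_add]
      congr 1
      · by_cases hij : i = j
        · simp only [if_pos hij]
        · simp only [if_neg hij, ssum_zero]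
      · rw [ssum_ssum i j w (fun x a b =>
          A x * (r * (lam A r (fun u => p (i :: u)) a * lam A r q b)))]
        refine ssum_congr (fun c b _ => ?_)
        rw [mul_ssum, ssum_mul]
        exact ssum_congr (fun x a _ => by ring)
    simp only [h1]
    rw [Finset.sum_add_distrib, Finset.sum_ite_eq' Finset.univ j, if_pos (Finset.mem_univ _),
      ssum_sum Finset.univ, ← ssum_add]
    refine ssum_congr (fun x y _ => ?_)
    rw [lam_rec A r p x, ← Finset.sum_mul, Finset.mul_sum]
    ring

omit [Fintype ι] in
/-- `(g g)(u) = g(u) g([]) + ∑_i ∑_{u = a i b} g(a) g(i b)` -/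
lemma csum_eq_ssum [Fintype ι] (u : List ι) (G : List ι → List ι → ℂ) :
    csum u G = G u [] + ∑ i, ssum i u (fun a b => G a (i :: b)) := by
  induction u generalizing G with
  | nil => simp
  | cons k u ih =>
    rw [csum_cons, ih (fun a b => G (k :: a) b)]
    simp only [ssum_cons]
    rw [Finset.sum_add_distrib, Finset.sum_ite_eq Finset.univ k, if_pos (Finset.mem_univ _)]
    ring

/-- the main induction: `Λ_g = B`. -/
theorem lam_main (A B : List ι → ℂ) (r α Q2 : ℂ) (g : List ι → ℂ) (hr : r ≠ 0)
    (hA0 : A [] = 1) (hB0 : B [] = α) (hg0 : g [] = α)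
    (hB : ∀ j w, B (j :: w) = ssum j w (fun u v => Q2 * (B u * B v) + r * r * (A u * B v)))
    (hg : ∀ j w, g (j :: w) = Q2 / (r * r) *
      ssum j w (fun x v => g x * (g v - csum v (fun a b => g a * g b))))
    (hK : ∀ u j w, lamK A r u (j :: w) =
      r * lamD j (fun u' => lamK A r u' w) u +
      r * lamK A r (j :: u) w + Q2 * ssum j w (fun a b => B a * lamKB A B r u b))
    (w : List ι) : lam A r g w = B w := by
  induction hn : w.length using Nat.strong_induction_on generalizing w with
  | _ n ih =>
    cases w with
    | nil =>
      change g [] * A [] = B []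
      rw [hA0, hB0, hg0, mul_one]
    | cons j w =>
      have hlt : ∀ x y (k : ι), w = x ++ k :: y → x.length < n ∧ y.length < n := by
        intro x y k hxy
        have : w.length = x.length + (y.length + 1) := by rw [hxy]; simp
        rw [List.length_cons] at hn
        omega
      have hw : w.length < n := by rw [← hn]; simp
      -- (P2)
      have hP2 : ∀ y : List ι, y.length < n → y.length ≤ w.length →
          lamT (w.length + 1) (fun u => g u * lamKB A B r u y) =
            lam A r (fun u => csum u (fun a b => g a * g b)) y := by
        intro y hy hyw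
        rw [lamB_rec A B r g y w.length hyw]
        have e1 : (fun u => csum u (fun a b => g a * g b)) =
            (fun u => g [] * g u + ∑ i, ssum i u (fun a b => g a * g (i :: b))) := by
          ext u
          rw [csum_eq_ssum]
          ring
        rw [e1, lam_add, lam_mul, lam_sum, ih y.length hy y rfl]
        congr 1
        rw [Finset.mul_sum]
        refine Finset.sum_congr rfl fun i _ => ?_
        rw [lam_prod A r g (fun u => g (i :: u)) i y]
        congr 1
        refine ssum_congr (fun a b hab => ?_)
        have : a.length < n := by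
          have h1 : y.length = a.length + (b.length + 1) := by rw [hab]; simp
          omega
        rw [ih a.length this a rfl]
      -- expansion
      have h0 : lam A r g (j :: w) = lamT (w.length + 1) (fun u => g u * lamK A r u (j :: w)) := by
        rfl
      have h1 : (fun u => g u * lamK A r u (j :: w)) = (fun u =>
          (r * (g u * lamD j (fun u' => lamK A r u' w) u) +
            r * (r * ssum j w (fun a b => A a * (g u * lamK A r u b)))) +
            Q2 * ssum j w (fun a b => B a * (g u * lamKB A B r u b))) := by
        ext u
        rw [hK]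
        have e1 : ssum j w (fun a b => A a * (g u * lamK A r u b)) =
            g u * ssum j w (fun a b => A a * lamK A r u b) := by
          rw [mul_ssum]
          exact ssum_congr (fun a b _ => by ring)
        have e2 : ssum j w (fun a b => B a * (g u * lamKB A B r u b)) =
            g u * ssum j w (fun a b => B a * lamKB A B r u b) := by
          rw [mul_ssum]
          exact ssum_congr (fun a b _ => by ring)
        rw [e1, e2, lamK]
        ring
      rw [h0, h1, lamT_add, lamT_add, lamT_mul, lamT_mul, lamT_mul, lamT_mul]
      -- term 1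
      have t1 : lamT (w.length + 1) (fun u => g u * lamD j (fun u' => lamK A r u' w) u) =
          lam A r (fun u => g (j :: u)) w := by
        rw [lamT_succ]
        simp only [lamD, mul_zero, zero_add, mul_ite]
        have : ∀ i, lamT w.length (fun u => if i = j then g (i :: u) * lamK A r u w else 0) =
            if i = j then lam A r (fun u => g (j :: u)) w else 0 := by
          intro i
          by_cases hij : i = j
          · simp only [if_pos hij]
            rw [hij]
            rfl
          · simp only [if_neg hij]
            exact lamT_zero _ _ (fun _ => rfl)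
        simp only [this]
        rw [Finset.sum_ite_eq' Finset.univ j, if_pos (Finset.mem_univ _)]
      have t2 : lamT (w.length + 1) (fun u => ssum j w (fun a b => A a * (g u * lamK A r u b))) =
          ssum j w (fun a b => A a * B b) := by
        rw [lamT_ssum]
        refine ssum_congr (fun a b hab => ?_)
        rw [lamT_mul, lam_eq A r g b, ih b.length (hlt a b j hab).2 b rfl]
        have := (hlt a b j hab).2
        rw [List.length_cons] at hn
        omega
      have t3 : lamT (w.length + 1) (fun u => ssum j w (fun a b => B a * (g u * lamKB A B r u b))) =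
          ssum j w (fun a b => B a * lam A r (fun u => csum u (fun a b => g a * g b)) b) := by
        rw [lamT_ssum]
        refine ssum_congr (fun a b hab => ?_)
        rw [lamT_mul, hP2 b (hlt a b j hab).2]
        rw [hab]
        simp
        omega
      have t4 : lam A r (fun u => g (j :: u)) w = Q2 / (r * r) * (r *
          ssum j w (fun a b => B a * (B b -
            lam A r (fun u => csum u (fun a b => g a * g b)) b))) := by
        simp only [hg]
        rw [lam_mul, lam_prod]
        congr 2
        refine ssum_congr (fun a b hab => ?_)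
        rw [lam_sub, ih a.length (hlt a b j hab).1 a rfl, ih b.length (hlt a b j hab).2 b rfl]
      rw [t1, t2, t3, t4, hB]
      have e5 : ssum j w (fun u v => Q2 * (B u * B v) + r * r * (A u * B v)) =
          Q2 * ssum j w (fun u v => B u * B v) + r * r * ssum j w (fun u v => A u * B v) := by
        rw [ssum_add, mul_ssum, mul_ssum]
      have e6 : ssum j w (fun a b => B a * (B b -
            lam A r (fun u => csum u (fun a b => g a * g b)) b)) =
          ssum j w (fun a b => B a * B b) - ssum j w (fun a b => B a *
            lam A r (fun u => csum u (fun a b => g a * g b)) b) := by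
        rw [eq_sub_iff_add_eq, ← ssum_add]
        exact ssum_congr (fun a b _ => by ring)
      rw [e5, e6]
      field_simp
      ring

end lam

end P087
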