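import Vale.Agent.P087.T04
import Vale.Agent.P087.T05
import Vale.Agent.P087.T06_lam

open MeasureTheory Filter
open scoped ENNReal InnerProductSpace
noncomputable section
namespace P087
variable {H : Type} [NormedAddCommGroup H] [InnerProductSpace ℂ H] [CompleteSpace H]
  {T : TracialVN H} {N : ℕ} {Q s : ℝ} {l : Fin 2 × Fin N → (H →L[ℂ] H)} {e : H →L[ℂ] H}

lemma T06_hasSum {ι : Type*} [Fintype ι] [DecidableEq ι] (n : ℕ) (G : List ι → ℂ)
    (hG : ∀ u, n < u.length → G u = 0) : HasSum G (lamT n G) := by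
  induction n generalizing G with
  | zero =>
    refine hasSum_single [] (fun u hu => hG u ?_)
    exact List.length_pos_iff.mpr hu
  | succ n ih =>
    rw [lamT_succ]
    have h1 : ∀ i : ι, HasSum (fun u : List ι => match u with
        | [] => (0 : ℂ)
        | k :: v => if k = i then G (k :: v) else 0) (lamT n (fun v => G (i :: v))) := by
      intro i
      have hinj : Function.Injective (List.cons i) := fun a b hab => (List.cons.inj hab).2
      rw [← hinj.hasSum_iff]
      · have h2 : ((fun u : List ι => match u with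
            | [] => (0 : ℂ)
            | k :: v => if k = i then G (k :: v) else 0) ∘ List.cons i) =
            (fun v => G (i :: v)) := by
          ext v
          simp
        rw [h2]
        exact ih _ (fun u hu => hG _ (by simpa using hu))
      · intro u hu
        cases u with
        | nil => rfl
        | cons k v =>
          simp only
          rw [if_neg]
          intro hki
          exact hu ⟨v, by rw [hki]⟩
    have h3 : HasSum (fun u : List ι => if u = [] then G [] else 0) (G []) :=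
      hasSum_ite_eq [] (G [])
    have h4 := h3.add (hasSum_sum (s := Finset.univ) (fun i _ => h1 i))
    have h5 : G = (fun u : List ι => (if u = [] then G [] else 0) + ∑ i ∈ (Finset.univ : Finset ι),
        (match u with
        | [] => (0 : ℂ)
        | k :: v => if k = i then G (k :: v) else 0)) := by
      ext u
      cases u with
      | nil => simp
      | cons k v => simp
    rw [← h5] at h4
    exact h4

omit [CompleteSpace H] in
lemma T06_inner_ssum (x : H) (j : Fin N) (w : List (Fin N)) (F : List (Fin N) → ℂ)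
    (y : List (Fin N) → H) :
    ⟪x, ssum j w (fun a b => F a • y b)⟫_ℂ = ssum j w (fun a b => F a * ⟪x, y b⟫_ℂ) := by
  rw [← innerSL_apply_apply ℂ, map_ssum (innerSL ℂ x)]
  refine ssum_congr (fun u v _ => ?_)
  rw [innerSL_apply_apply, inner_smul_right]

lemma T06_E_cons (T : TracialVN H) (l : Fin 2 × Fin N → (H →L[ℂ] H)) (i : Fin N)
    (u : List (Fin N)) : Ewick T l (i :: u) = l (1, i) (Ewick T l u) := by
  unfold Ewick
  rw [List.map_cons, List.prod_cons, mul_apply_eq_comp]

lemma T06_E_nil (T : TracialVN H) (l : Fin 2 × Fin N → (H →L[ℂ] H)) :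
    Ewick T l [] = T.Ω := by
  unfold Ewick
  simp

lemma Rel.T06_K (h : Rel T (1 / Q) l e) (hQ : 0 < Q) (hs : 0 < s) (u w : List (Fin N)) :
    ⟪Ewick T l u, word (Xs Q s l e) w T.Ω⟫_ℂ =
      lamK (Amom T Q s l e) ((√s : ℝ) : ℂ) u w := by
  induction u generalizing w with
  | nil => rw [T06_E_nil]; rfl
  | cons i u ih =>
    rw [T06_E_cons, ← T04_inner_star, h.L_X hQ hs, inner_smul_right, T06_inner_ssum, lamK]
    congr 1
    exact ssum_congr (fun a b _ => by rw [ih b])

lemma Rel.T06_KB (h : Rel T (1 / Q) l e) (hQ : 0 < Q) (hs : 0 < s) (u w : List (Fin N)) :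
    ⟪Ewick T l u, e (word (Xs Q s l e) w T.Ω)⟫_ℂ =
      lamKB (Amom T Q s l e) (Bmom T Q s l e) ((√s : ℝ) : ℂ) u w := by
  cases u with
  | nil => rw [T06_E_nil]; rfl
  | cons i u =>
    rw [T06_E_cons, ← T04_inner_star, h.L_eX hQ hs, inner_smul_right, T06_inner_ssum, lamKB]
    congr 1
    exact ssum_congr (fun a b _ => by rw [h.T06_K hQ hs u b])

lemma Rel.T06_hK (h : Rel T (1 / Q) l e) (hQ : 0 < Q) (hs : 0 < s) (u : List (Fin N)) (j : Fin N)
    (w : List (Fin N)) : lamK (Amom T Q s l e) ((√s : ℝ) : ℂ) u (j :: w) =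
      ((√s : ℝ) : ℂ) * lamD j (fun u' => lamK (Amom T Q s l e) ((√s : ℝ) : ℂ) u' w) u +
      ((√s : ℝ) : ℂ) * lamK (Amom T Q s l e) ((√s : ℝ) : ℂ) (j :: u) w +
        (Q : ℂ) ^ 2 * ssum j w (fun a b => Bmom T Q s l e a *
          lamKB (Amom T Q s l e) (Bmom T Q s l e) ((√s : ℝ) : ℂ) u b) := by
  rw [← h.T06_K hQ hs u, T04_word_cons, T04_X_apply, inner_add_right, inner_smul_right,
    inner_smul_right, inner_add_right, inner_add_right]
  have e1 : ⟪Ewick T l u, e (l (0, j) (e (word (Xs Q s l e) w T.Ω)))⟫_ℂ = 0 := by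
    rw [h.T04_inner_e, T04_inner_star', h.l_e_E, inner_zero_left]
  have e2 : ⟪Ewick T l u, e ((star (l (0, j))) (e (word (Xs Q s l e) w T.Ω)))⟫_ℂ =
      (Q : ℂ) * ssum j w (fun a b => Bmom T Q s l e a *
          lamKB (Amom T Q s l e) (Bmom T Q s l e) ((√s : ℝ) : ℂ) u b) := by
    rw [h.l_eX hQ hs, map_smul, inner_smul_right, map_ssum e]
    congr 1
    rw [← innerSL_apply_apply ℂ, map_ssum (innerSL ℂ (Ewick T l u))]
    refine ssum_congr (fun a b _ => ?_)
    rw [innerSL_apply_apply, map_smul, inner_smul_right, h.T04_ee, h.T06_KB hQ hs]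
  have e3 : ⟪Ewick T l u, l (1, j) (word (Xs Q s l e) w T.Ω)⟫_ℂ =
      lamD j (fun u' => lamK (Amom T Q s l e) ((√s : ℝ) : ℂ) u' w) u := by
    rw [T04_inner_star']
    cases u with
    | nil => rw [T06_E_nil, h.lΩ, inner_zero_left, lamD]
    | cons i u =>
      rw [T06_E_cons, h.T04_ll, lamD]
      by_cases hij : i = j
      · simp only [if_pos hij]
        rw [if_pos (by rw [hij]), h.T06_K hQ hs]
      · simp only [if_neg hij]
        rw [if_neg (fun h2 => hij (congrArg Prod.snd h2).symm), inner_zero_left]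
  have e4 : ⟪Ewick T l u, (star (l (1, j))) (word (Xs Q s l e) w T.Ω)⟫_ℂ =
      lamK (Amom T Q s l e) ((√s : ℝ) : ℂ) (j :: u) w := by
    rw [T04_inner_star, ← T06_E_cons, h.T06_K hQ hs]
  rw [e1, e2, e3, e4]
  ring

/-- T6. There is a vector `v`, `‖v‖² ≤ 16/s`, with the same inner products with all `X_w Ω` as
`Y_j Ω`. -/
theorem Rel.exists_small (h : Rel T (1 / Q) l e) (hQ : 2 ≤ Q) (hN : 1 ≤ N)
    (hs : 8 * Q * √N ≤ s) (j : Fin N) :
    ∃ v : H, ‖v‖ ^ 2 ≤ 16 / s ∧
      ∀ w, ⟪v, word (Xs Q s l e) w T.Ω⟫_ℂ = ⟪Yop Q l e j T.Ω, word (Xs Q s l e) w T.Ω⟫_ℂ := by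
  have hQ0 : 0 < Q := by linarith
  have hN' : (0 : ℝ) < √N := Real.sqrt_pos.mpr (by exact_mod_cast hN)
  have hs0 : 0 < s := lt_of_lt_of_le (by positivity) hs
  obtain ⟨g, hg0, hg, hy⟩ := exists_gser N Q s hQ hN hs
  obtain ⟨hsum, hle⟩ := hy j
  set r : ℂ := ((√s : ℝ) : ℂ) with hr
  have hrr : r * r = (s : ℂ) := T04_sqrt hs0
  have hr0 : r ≠ 0 := by
    rw [hr]
    exact_mod_cast (Real.sqrt_pos.mpr hs0).ne'
  set A : List (Fin N) → ℂ := Amom T Q s l e with hA
  set B : List (Fin N) → ℂ := Bmom T Q s l e with hB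
  set gc : List (Fin N) → ℂ := fun u => (g u : ℂ) with hgc
  have hmain : ∀ w, lam A r gc w = B w := by
    intro w
    refine lam_main A B r (((1 / Q : ℝ) : ℂ)) ((Q : ℂ) ^ 2) gc hr0 h.A_nil h.B_nil ?_ ?_ ?_ ?_ w
    · rw [hgc]
      simp only
      rw [hg0]
    · intro j w
      rw [hrr]
      exact h.B_cons hQ0 hs0 j w
    · intro j w
      rw [hrr]
      simp only [hgc]
      rw [hg]
      push_cast
      congr 1
      rw [← Complex.ofRealHom_eq_coe, map_ssum Complex.ofRealHom]
      refine ssum_congr (fun x v _ => ?_)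
      unfold hser
      rw [Complex.ofRealHom_eq_coe, Complex.ofReal_mul, Complex.ofReal_sub]
      congr 2
      rw [← Complex.ofRealHom_eq_coe, map_csum Complex.ofRealHom]
      exact csum_congr (fun a b _ => by simp)
    · intro u j w
      exact h.T06_hK hQ0 hs0 u j w
  -- the vector
  set yc : List (Fin N) → ℂ := fun u => (yser Q s g j u : ℂ) with hyc
  have hmem : Memℓp yc 2 := by
    rw [memℓp_gen_iff (by simp)]
    simpa [hyc] using hsum
  set V := h.orthonormal_E.orthogonalFamily.linearIsometry with hV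
  set f : lp (fun _ : List (Fin N) => ℂ) 2 := ⟨yc, hmem⟩ with hf
  refine ⟨V f, ?_, ?_⟩
  · rw [LinearIsometry.norm_map]
    have h1 := lp.norm_rpow_eq_tsum (p := 2) (by simp) f
    simp only [ENNReal.toReal_ofNat, Real.rpow_two] at h1
    rw [h1]
    have h2 : ∀ u, ‖f u‖ ^ 2 = yser Q s g j u ^ 2 := by
      intro u
      change ‖((yser Q s g j u : ℝ) : ℂ)‖ ^ 2 = _
      rw [Complex.norm_real, Real.norm_eq_abs, sq_abs]
    simp only [h2]
    exact hle
  · intro w
    have h1 : HasSum (fun u => yc u * lamK A r u w) ⟪V f, word (Xs Q s l e) w T.Ω⟫_ℂ := by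
      have h2 := h.orthonormal_E.orthogonalFamily.hasSum_linearIsometry f
      have h3 := (innerSL ℂ (word (Xs Q s l e) w T.Ω)).hasSum h2
      have h4 := (Complex.conjCLE : ℂ →L[ℝ] ℂ).hasSum h3
      have h5 : (Complex.conjCLE : ℂ →L[ℝ] ℂ) ((innerSL ℂ (word (Xs Q s l e) w T.Ω)) (V f)) =
          ⟪V f, word (Xs Q s l e) w T.Ω⟫_ℂ := by
        rw [innerSL_apply_apply]
        exact inner_conj_symm _ _
      rw [← hV, h5] at h4
      have h6 : (fun u => (Complex.conjCLE : ℂ →L[ℝ] ℂ) ((innerSL ℂ (word (Xs Q s l e) w T.Ω))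
          ((LinearIsometry.toSpanSingleton ℂ H (h.orthonormal_E.1 u)) (f u)))) =
          (fun u => yc u * lamK A r u w) := by
        ext u
        rw [innerSL_apply_apply, LinearIsometry.toSpanSingleton_apply, inner_smul_right]
        have h7 : (Complex.conjCLE : ℂ →L[ℝ] ℂ) (f u * ⟪word (Xs Q s l e) w T.Ω, Ewick T l u⟫_ℂ) =
            (starRingEnd ℂ) (f u * ⟪word (Xs Q s l e) w T.Ω, Ewick T l u⟫_ℂ) := rfl
        rw [h7, map_mul, inner_conj_symm, h.T06_K hQ0 hs0]
        congr 1
        exact Complex.conj_ofReal _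
      rw [← h6]
      exact h4
    have h6 : HasSum (fun u => yc u * lamK A r u w) (lam A r yc w) :=
      T06_hasSum _ _ (fun u hu => by rw [lamK_eq_zero A r u w hu, mul_zero])
    rw [h1.unique h6]
    have h7 : yc = (fun u => ((Q : ℂ) ^ 2 / r) * ssum j u (fun a b => gc a * gc b)) := by
      ext u
      simp only [hyc, hgc]
      unfold yser
      push_cast
      congr 1
      rw [← Complex.ofRealHom_eq_coe, map_ssum Complex.ofRealHom]
      exact ssum_congr (fun a b _ => by simp)
    rw [h7, lam_mul, lam_prod]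
    have h8 : ⟪Yop Q l e j T.Ω, word (Xs Q s l e) w T.Ω⟫_ℂ =
        T.τ (Yop Q l e j * word (Xs Q s l e) w) := by
      unfold TracialVN.τ
      have hstar : star (Yop Q l e j) = Yop Q l e j := by
        unfold Yop
        rw [star_smul, star_mul, star_mul, star_add, star_star, h.e_sa, mul_assoc,
          add_comm (star (l (0, j)))]
        congr 1
        exact Complex.conj_ofReal _
      rw [mul_apply_eq_comp, T04_inner_star' (Yop Q l e j) T.Ω, hstar]
    rw [h8, h.tau_YX hQ0 hs0, ← mul_ssum]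
    simp only [hmain]
    field_simp
    rfl

end P087
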