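import Vale.Agent.P087.T04

/-!
T07, first part: the conjugate variables of `X_i = Y_i + √s S_i`.
-/

open MeasureTheory Filter
open scoped ENNReal InnerProductSpace
noncomputable section
namespace P087

lemma T07_ssum_reverse {ι V : Type*} [DecidableEq ι] [AddCommMonoid V] (j : ι) (w : List ι)
    (f : List ι → List ι → V) :
    ssum j w.reverse f = ssum j w (fun u v => f v.reverse u.reverse) := by
  induction w generalizing f with
  | nil => rfl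
  | cons i w ih =>
    rw [List.reverse_cons, ssum_append, ih, ssum_cons, ssum_cons, ssum_nil, add_zero, add_comm,
      List.append_nil]
    simp only [List.reverse_cons, List.reverse_nil]

variable {H : Type} [NormedAddCommGroup H] [InnerProductSpace ℂ H] [CompleteSpace H]
  {T : TracialVN H} {N : ℕ} {Q s : ℝ} {l : Fin 2 × Fin N → (H →L[ℂ] H)} {e : H →L[ℂ] H}

lemma T07_star_Y (h : Rel T (1 / Q) l e) (i : Fin N) : star (Yop Q l e i) = Yop Q l e i := by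
  unfold Yop
  rw [star_smul, star_mul, star_mul, star_add, star_star, h.e_sa, add_comm (star (l (0, i))),
    mul_assoc]
  congr 1
  exact Complex.conj_ofReal _

lemma T07_star_X (h : Rel T (1 / Q) l e) (i : Fin N) : star (Xs Q s l e i) = Xs Q s l e i := by
  unfold Xs
  rw [star_add, T07_star_Y h, star_smul, star_add, star_star, add_comm (star (l (1, i)))]
  congr 2
  exact Complex.conj_ofReal _

lemma T07_word_append (X : Fin N → (H →L[ℂ] H)) (u v : List (Fin N)) :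
    word X (u ++ v) = word X u * word X v := by
  unfold word
  rw [List.map_append, List.prod_append]

lemma T07_star_word (h : Rel T (1 / Q) l e) (w : List (Fin N)) :
    star (word (Xs Q s l e) w) = word (Xs Q s l e) w.reverse := by
  induction w with
  | nil => exact star_one _
  | cons i w ih =>
    have h1 : word (Xs Q s l e) (i :: w) = Xs Q s l e i * word (Xs Q s l e) w := by
      unfold word
      rw [List.map_cons, List.prod_cons]
    have h2 : word (Xs Q s l e) [i] = Xs Q s l e i := by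
      unfold word
      rw [List.map_cons, List.map_nil, List.prod_cons, List.prod_nil, mul_one]
    rw [h1, star_mul, ih, T07_star_X h, List.reverse_cons, T07_word_append, h2]

lemma T07_tau_star (a : H →L[ℂ] H) : T.τ (star a) = (starRingEnd ℂ) (T.τ a) := by
  unfold TracialVN.τ
  rw [T04_inner_star, inner_conj_symm]

lemma T07_conj_A (h : Rel T (1 / Q) l e) (w : List (Fin N)) :
    (starRingEnd ℂ) (Amom T Q s l e w) = Amom T Q s l e w.reverse := by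
  unfold Amom
  rw [← T07_tau_star, T07_star_word h]

lemma T07_word_mem (X : Fin N → (H →L[ℂ] H)) (w : List (Fin N)) : word X w T.Ω ∈ T.L2 X :=
  Submodule.le_topologicalClosure _ (Submodule.subset_span ⟨w, rfl⟩)

lemma T07_tauPartial (X : Fin N → (H →L[ℂ] H)) (j : Fin N) (w : List (Fin N)) :
    T.tauPartial X j w = ssum j w (fun u v => T.τ (word X u) * T.τ (word X v)) := by
  rw [ssum_eq_fin]
  rfl

/-- inner product with `L_j Ω` -/
lemma T07_inner (h : Rel T (1 / Q) l e) (hQ : 0 < Q) (hs : 0 < s) (j : Fin N)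
    (w : List (Fin N)) :
    ⟪(star (word (Xs Q s l e) w)) T.Ω, l (1, j) T.Ω⟫_ℂ =
      ((√s : ℝ) : ℂ) * T.tauPartial (Xs Q s l e) j w := by
  rw [T07_star_word h, ← inner_conj_symm, ← T04_inner_star, h.L_X hQ hs, inner_smul_right,
    map_mul, Complex.conj_ofReal]
  congr 1
  have h1 : ⟪T.Ω, ssum j w.reverse (fun u v => Amom T Q s l e u •
      word (Xs Q s l e) v T.Ω)⟫_ℂ =
      ssum j w.reverse (fun u v => Amom T Q s l e u * Amom T Q s l e v) := by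
    rw [← innerSL_apply_apply ℂ, map_ssum (innerSL ℂ T.Ω)]
    refine ssum_congr (fun u v _ => ?_)
    rw [innerSL_apply_apply, inner_smul_right, T04_A_eq T Q s l e v]
  rw [h1, T07_ssum_reverse, T07_tauPartial, map_ssum (starRingEnd ℂ)]
  refine ssum_congr (fun u v _ => ?_)
  rw [map_mul, T07_conj_A h, T07_conj_A h, List.reverse_reverse, List.reverse_reverse, mul_comm]
  rfl

lemma T07_norm_L (h : Rel T (1 / Q) l e) (j : Fin N) : ‖l (1, j) T.Ω‖ = 1 := by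
  have h1 : ⟪l (1, j) T.Ω, l (1, j) T.Ω⟫_ℂ = 1 := by
    rw [← T04_inner_star, h.T04_ll, if_pos rfl, inner_self_eq_norm_sq_to_K, T.norm_Ω]
    simp
  have h2 : ‖l (1, j) T.Ω‖ ^ 2 = 1 := by
    have h3 := inner_self_eq_norm_sq_to_K (𝕜 := ℂ) (l (1, j) T.Ω)
    rw [h1] at h3
    have h4 : ((‖l (1, j) T.Ω‖ ^ 2 : ℝ) : ℂ) = ((1 : ℝ) : ℂ) := by
      rw [Complex.ofReal_pow, Complex.ofReal_one]
      exact h3.symm
    exact Complex.ofReal_injective h4
  nlinarith [norm_nonneg (l (1, j) T.Ω)]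

lemma T07_norm_Y (h : Rel T (1 / Q) l e) (hQ : 0 < Q) (j : Fin N) :
    ‖Yop Q l e j T.Ω‖ ^ 2 = 1 := by
  have hY : Yop Q l e j T.Ω = (Q : ℂ) • e (l (0, j) (e T.Ω)) := by
    unfold Yop
    simp only [smul_apply, mul_apply_eq_comp, add_apply, map_add]
    rw [h.leΩ, map_zero, add_zero]
  have h2 : ⟪e (l (0, j) (e T.Ω)), e (l (0, j) (e T.Ω))⟫_ℂ =
      ((1 / Q : ℝ) : ℂ) * ((1 / Q : ℝ) : ℂ) := by
    rw [← h.T04_inner_e, h.T04_ee, ← T04_inner_star, h.T04_lel, if_pos rfl, inner_smul_right,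
      ← h.T04_inner_e, h.T04_ee, h.eΩ]
  have h1 : ⟪Yop Q l e j T.Ω, Yop Q l e j T.Ω⟫_ℂ = 1 := by
    rw [hY, inner_smul_left, inner_smul_right, Complex.conj_ofReal, h2]
    rw [← Complex.ofReal_mul, ← Complex.ofReal_mul, ← Complex.ofReal_mul, ← Complex.ofReal_one]
    congr 1
    field_simp
  have h3 := inner_self_eq_norm_sq_to_K (𝕜 := ℂ) (Yop Q l e j T.Ω)
  rw [h1] at h3
  have h4 : ((‖Yop Q l e j T.Ω‖ ^ 2 : ℝ) : ℂ) = ((1 : ℝ) : ℂ) := by
    rw [Complex.ofReal_pow, Complex.ofReal_one]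
    exact h3.symm
  exact Complex.ofReal_injective h4

lemma T07_X_vac (h : Rel T (1 / Q) l e) (j : Fin N) :
    Xs Q s l e j T.Ω = Yop Q l e j T.Ω + ((√s : ℝ) : ℂ) • l (1, j) T.Ω := by
  unfold Xs
  simp only [add_apply, smul_apply]
  rw [h.lΩ, add_zero]

/-- the orthogonal projection onto `L²(W*(X))` -/
lemma T07_exists_proj (T : TracialVN H) (X : Fin N → (H →L[ℂ] H)) :
    ∃ Pr : H →L[ℂ] H, (∀ x, Pr x ∈ T.L2 X) ∧ (∀ x, ∀ y ∈ T.L2 X, ⟪y, Pr x⟫_ℂ = ⟪y, x⟫_ℂ) ∧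
      (∀ x ∈ T.L2 X, Pr x = x) ∧ (∀ x, ‖x‖ ^ 2 = ‖Pr x‖ ^ 2 + ‖x - Pr x‖ ^ 2) ∧
      ∀ x, ‖Pr x‖ ≤ ‖x‖ := by
  have : CompleteSpace (T.L2 X) := by
    unfold TracialVN.L2
    exact (Submodule.isClosed_topologicalClosure _).completeSpace_coe
  have hd : ∀ x, ‖x‖ ^ 2 = ‖(T.L2 X).starProjection x‖ ^ 2 +
      ‖x - (T.L2 X).starProjection x‖ ^ 2 := by
    intro x
    have h1 := (T.L2 X).norm_sq_eq_add_norm_sq_starProjection x
    rw [Submodule.starProjection_orthogonal_val] at h1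
    exact h1
  refine ⟨(T.L2 X).starProjection, Submodule.starProjection_apply_mem _, ?_, ?_, hd, ?_⟩
  · intro x y hy
    have h1 := Submodule.starProjection_inner_eq_zero (K := T.L2 X) x y hy
    have h2 : ⟪y, x - (T.L2 X).starProjection x⟫_ℂ = 0 := inner_eq_zero_symm.mp h1
    rw [inner_sub_right] at h2
    exact (sub_eq_zero.mp h2).symm
  · intro x hx
    exact Submodule.starProjection_eq_self_iff.mpr hx
  · intro x
    have h1 := hd x
    have h2 : ‖(T.L2 X).starProjection x‖ ^ 2 ≤ ‖x‖ ^ 2 := by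
      rw [h1]
      have := sq_nonneg ‖x - (T.L2 X).starProjection x‖
      linarith
    exact le_of_sq_le_sq h2 (norm_nonneg x)

/-- the conjugate variables -/
lemma T07_conj (h : Rel T (1 / Q) l e) (hQ : 0 < Q) (hs : 0 < s) (Pr : H →L[ℂ] H)
    (h1 : ∀ x, Pr x ∈ T.L2 (Xs Q s l e))
    (h2 : ∀ x, ∀ y ∈ T.L2 (Xs Q s l e), ⟪y, Pr x⟫_ℂ = ⟪y, x⟫_ℂ) :
    T.IsConjugate (Xs Q s l e) (fun j => ((√s : ℝ) : ℂ)⁻¹ • Pr (l (1, j) T.Ω)) := by
  intro j
  refine ⟨Submodule.smul_mem _ _ (h1 _), fun w => ?_⟩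
  have hs' : ((√s : ℝ) : ℂ) ≠ 0 := Complex.ofReal_ne_zero.mpr (Real.sqrt_ne_zero'.mpr hs)
  rw [inner_smul_right, h2 _ _ (by rw [T07_star_word h]; exact T07_word_mem _ _),
    T07_inner h hQ hs, inv_mul_cancel_left₀ hs']

lemma T07_fisher_le (h : Rel T (1 / Q) l e) (hQ : 0 < Q) (hs : 0 < s) (Pr : H →L[ℂ] H)
    (h1 : ∀ x, Pr x ∈ T.L2 (Xs Q s l e))
    (h2 : ∀ x, ∀ y ∈ T.L2 (Xs Q s l e), ⟪y, Pr x⟫_ℂ = ⟪y, x⟫_ℂ) {B : ℝ}
    (hB : ∀ j, ‖Pr (l (1, j) T.Ω)‖ ^ 2 ≤ B) :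
    T.fisher (Xs Q s l e) ≤ ENNReal.ofReal (N * (B / s)) := by
  have hle : T.fisher (Xs Q s l e) ≤
      ∑ j, ENNReal.ofReal (‖((√s : ℝ) : ℂ)⁻¹ • Pr (l (1, j) T.Ω)‖ ^ 2) := by
    unfold TracialVN.fisher
    exact iInf₂_le (fun j => ((√s : ℝ) : ℂ)⁻¹ • Pr (l (1, j) T.Ω)) (T07_conj h hQ hs Pr h1 h2)
  refine hle.trans ?_
  have hn : ∀ j, ‖((√s : ℝ) : ℂ)⁻¹ • Pr (l (1, j) T.Ω)‖ ^ 2 ≤ B / s := by
    intro j
    rw [norm_smul, mul_pow, norm_inv, Complex.norm_real, Real.norm_eq_abs,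
      abs_of_nonneg (Real.sqrt_nonneg s), inv_pow, Real.sq_sqrt hs.le, div_eq_inv_mul]
    exact mul_le_mul_of_nonneg_left (hB j) (inv_nonneg.mpr hs.le)
  calc ∑ j, ENNReal.ofReal (‖((√s : ℝ) : ℂ)⁻¹ • Pr (l (1, j) T.Ω)‖ ^ 2)
      ≤ ∑ _j : Fin N, ENNReal.ofReal (B / s) :=
        Finset.sum_le_sum fun j _ => ENNReal.ofReal_le_ofReal (hn j)
    _ = ENNReal.ofReal (N * (B / s)) := by
        rw [Finset.sum_const, Finset.card_univ, Fintype.card_fin, nsmul_eq_mul,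
          ENNReal.ofReal_mul (Nat.cast_nonneg N), ENNReal.ofReal_natCast]

/-- the bound for the projection of `L_j Ω` -/
lemma T07_norm_Pr (h : Rel T (1 / Q) l e) (hQ : 0 < Q) (hs : 0 < s) (Pr : H →L[ℂ] H)
    (h3 : ∀ x ∈ T.L2 (Xs Q s l e), Pr x = x)
    (h4 : ∀ x, ‖x‖ ^ 2 = ‖Pr x‖ ^ 2 + ‖x - Pr x‖ ^ 2) (j : Fin N) {B : ℝ}
    (hB : ‖Pr (Yop Q l e j T.Ω)‖ ^ 2 ≤ B) :
    ‖Pr (l (1, j) T.Ω)‖ ^ 2 ≤ 1 - (1 - B) / s := by
  have hX : Xs Q s l e j T.Ω ∈ T.L2 (Xs Q s l e) := by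
    have h5 := T07_word_mem (T := T) (Xs Q s l e) [j]
    have h6 : word (Xs Q s l e) [j] = Xs Q s l e j := by
      unfold word
      rw [List.map_cons, List.map_nil, List.prod_cons, List.prod_nil, mul_one]
    rwa [h6] at h5
  have h5 := h3 _ hX
  rw [T07_X_vac h, map_add, map_smul] at h5
  have h6 : ((√s : ℝ) : ℂ) • (l (1, j) T.Ω - Pr (l (1, j) T.Ω)) =
      -(Yop Q l e j T.Ω - Pr (Yop Q l e j T.Ω)) := by
    rw [smul_sub]
    have h7 := h5
    rw [add_comm, ← sub_eq_sub_iff_add_eq_add] at h7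
    rw [← neg_sub, h7]
  have h7 : s * ‖l (1, j) T.Ω - Pr (l (1, j) T.Ω)‖ ^ 2 =
      ‖Yop Q l e j T.Ω - Pr (Yop Q l e j T.Ω)‖ ^ 2 := by
    rw [← norm_neg (Yop Q l e j T.Ω - Pr (Yop Q l e j T.Ω)), ← h6, norm_smul, mul_pow,
      Complex.norm_real, Real.norm_eq_abs, abs_of_nonneg (Real.sqrt_nonneg s), Real.sq_sqrt hs.le]
  have h8 := h4 (l (1, j) T.Ω)
  rw [T07_norm_L h] at h8
  have h9 := h4 (Yop Q l e j T.Ω)
  rw [T07_norm_Y h hQ] at h9
  have h10 : ‖l (1, j) T.Ω - Pr (l (1, j) T.Ω)‖ ^ 2 =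
      ‖Yop Q l e j T.Ω - Pr (Yop Q l e j T.Ω)‖ ^ 2 / s := by
    rw [← h7]
    field_simp
  have h11 : (1 - B) / s ≤ ‖Yop Q l e j T.Ω - Pr (Yop Q l e j T.Ω)‖ ^ 2 / s := by
    apply div_le_div_of_nonneg_right _ hs.le
    linarith
  rw [h10] at h8
  linarith

end P087
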