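import Vale.Agent.P087.T06
import Vale.Agent.P087.T07_conj

open MeasureTheory Filter
open scoped ENNReal InnerProductSpace
noncomputable section
namespace P087
variable {H : Type} [NormedAddCommGroup H] [InnerProductSpace ℂ H] [CompleteSpace H]
  {T : TracialVN H} {N : ℕ} {Q s : ℝ}

/-- T7a -/
theorem Rel.fisher_le {l : Fin 2 × Fin N → (H →L[ℂ] H)} {e : H →L[ℂ] H}
    (h : Rel T (1 / Q) l e) (hQ : 2 ≤ Q) (hs : 0 < s) :
    T.fisher (Xs Q s l e) ≤ ENNReal.ofReal (N / s) := by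
  obtain ⟨Pr, h1, h2, -, -, h5⟩ := T07_exists_proj T (Xs Q s l e)
  have h6 := T07_fisher_le h (by linarith) hs Pr h1 h2 (B := 1) (fun j => by
    have h7 := h5 (l (1, j) T.Ω)
    rw [T07_norm_L h] at h7
    have h8 := norm_nonneg (Pr (l (1, j) T.Ω))
    nlinarith)
  rwa [mul_one_div] at h6

/-- T7b -/
theorem Rel.fisher_le' {l : Fin 2 × Fin N → (H →L[ℂ] H)} {e : H →L[ℂ] H}
    (h : Rel T (1 / Q) l e) (hQ : 2 ≤ Q) (hN : 1 ≤ N) (hs : 8 * Q * √N ≤ s) :
    T.fisher (Xs Q s l e) ≤ ENNReal.ofReal (N / s - N / s ^ 2 * (1 - 16 / s)) := by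
  have hN1 : (1 : ℝ) ≤ N := by exact_mod_cast hN
  have hsq : (1 : ℝ) ≤ √N := Real.one_le_sqrt.mpr hN1
  have hs0 : 0 < s := by
    have : 0 < 8 * Q * √N := by positivity
    linarith
  obtain ⟨Pr, h1, h2, h3, h4, h5⟩ := T07_exists_proj T (Xs Q s l e)
  have hB : ∀ j, ‖Pr (Yop Q l e j T.Ω)‖ ^ 2 ≤ 16 / s := by
    intro j
    obtain ⟨v, hv, hvw⟩ := h.exists_small hQ hN hs j
    have horth : v - Yop Q l e j T.Ω ∈ (T.L2 (Xs Q s l e))ᗮ := by
      unfold TracialVN.L2
      rw [Submodule.orthogonal_closure, Submodule.mem_orthogonal']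
      intro u hu
      induction hu using Submodule.span_induction with
      | mem x hx =>
        obtain ⟨w, rfl⟩ := hx
        rw [inner_sub_left, hvw w, sub_self]
      | zero => exact inner_zero_right _
      | add x y _ _ hx hy => rw [inner_add_right, hx, hy, add_zero]
      | smul c x _ hx => rw [inner_smul_right, hx, mul_zero]
    have h6 : Pr (v - Yop Q l e j T.Ω) = 0 := by
      have h7 : ⟪Pr (v - Yop Q l e j T.Ω), Pr (v - Yop Q l e j T.Ω)⟫_ℂ = 0 := by
        rw [h2 _ _ (h1 _)]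
        exact (Submodule.mem_orthogonal _ _).mp horth _ (h1 _)
      exact inner_self_eq_zero.mp h7
    rw [map_sub, sub_eq_zero] at h6
    rw [← h6]
    have h7 := h5 v
    have h8 : ‖Pr v‖ ^ 2 ≤ ‖v‖ ^ 2 := by
      have := norm_nonneg (Pr v)
      nlinarith
    linarith
  have h6 := T07_fisher_le h (by linarith) hs0 Pr h1 h2
    (fun j => T07_norm_Pr h (by linarith) hs0 Pr h3 h4 j (hB j))
  refine h6.trans (le_of_eq ?_)
  congr 1
  field_simp

/-- the rotated letters at time `t` -/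
def T07l (t : ℝ) (l : Letter N → (H →L[ℂ] H)) (p : Fin 2 × Fin N) : H →L[ℂ] H :=
  if p.1 = 0 then l (0, p.2) else
    (((√(1 + t))⁻¹ : ℝ) : ℂ) • (l (1, p.2) + ((√t : ℝ) : ℂ) • l (2, p.2))

omit [CompleteSpace H] in
lemma T07l_zero (t : ℝ) (l : Letter N → (H →L[ℂ] H)) (i : Fin N) :
    T07l t l (0, i) = l (0, i) := by
  unfold T07l
  rw [if_pos rfl]

omit [CompleteSpace H] in
lemma T07l_one (t : ℝ) (l : Letter N → (H →L[ℂ] H)) (i : Fin N) :
    T07l t l (1, i) = (((√(1 + t))⁻¹ : ℝ) : ℂ) • (l (1, i) + ((√t : ℝ) : ℂ) • l (2, i)) := by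
  unfold T07l
  rw [if_neg (by simp)]

lemma T07l_star_one (t : ℝ) (l : Letter N → (H →L[ℂ] H)) (i : Fin N) :
    star (T07l t l (1, i)) =
      (((√(1 + t))⁻¹ : ℝ) : ℂ) • (star (l (1, i)) + ((√t : ℝ) : ℂ) • star (l (2, i))) := by
  rw [T07l_one, star_smul, star_add, star_smul]
  have h1 : ∀ r : ℝ, star (r : ℂ) = (r : ℂ) := fun r => Complex.conj_ofReal r
  rw [h1, h1]

lemma T07_coef {t : ℝ} (ht : 0 ≤ t) :
    (((√(1 + t))⁻¹ : ℝ) : ℂ) * (((√(1 + t))⁻¹ : ℝ) : ℂ) * (1 + ((√t : ℝ) : ℂ) * ((√t : ℝ) : ℂ)) = 1 := by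
  have h1 : (√(1 + t))⁻¹ * (√(1 + t))⁻¹ * (1 + √t * √t) = 1 := by
    have h2 : √(1 + t) * √(1 + t) = 1 + t := Real.mul_self_sqrt (by linarith)
    have h3 : √t * √t = t := Real.mul_self_sqrt ht
    rw [← mul_inv, h2, h3]
    exact inv_mul_cancel₀ (by linarith)
  rw [← Complex.ofReal_mul, ← Complex.ofReal_mul, ← Complex.ofReal_one, ← Complex.ofReal_add,
    ← Complex.ofReal_mul, h1]

lemma T07l_rel {l : Letter N → (H →L[ℂ] H)} {e : H →L[ℂ] H} (h : Rel T (1 / Q) l e) {t : ℝ}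
    (ht : 0 ≤ t) : Rel T (1 / Q) (T07l t l) e := by
  have hc := T07_coef ht
  set c : ℂ := (((√(1 + t))⁻¹ : ℝ) : ℂ) with hcdef
  set d : ℂ := ((√t : ℝ) : ℂ) with hddef
  have fin2 : ∀ a : Fin 2, a = 0 ∨ a = 1 := by decide
  refine
    { ll := fun p q => ?_
      lel := fun p q => ?_
      lΩ := fun p => ?_
      leΩ := fun p => ?_
      e_idem := h.e_idem
      e_sa := h.e_sa
      eΩ := h.eΩ
      mem_l := fun p => ?_
      mem_e := h.mem_e }
  · obtain ⟨a, i⟩ := p
    obtain ⟨b, j⟩ := q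
    rcases fin2 a with rfl | rfl <;> rcases fin2 b with rfl | rfl
    · rw [T07l_zero, T07l_zero, h.ll]
      simp
    · rw [T07l_zero, T07l_one, mul_smul_comm, mul_add, mul_smul_comm, h.ll, h.ll]
      simp
    · rw [T07l_zero, T07l_star_one, smul_mul_assoc, add_mul, smul_mul_assoc, h.ll, h.ll]
      simp
    · rw [T07l_star_one, T07l_one, smul_mul_assoc, mul_smul_comm, add_mul, mul_add, mul_add,
        smul_mul_assoc, mul_smul_comm, smul_mul_assoc, mul_smul_comm, h.ll, h.ll, h.ll, h.ll]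
      by_cases hij : i = j
      · subst hij
        simp only [Prod.mk.injEq, and_true, if_true]
        rw [if_neg (by decide), if_neg (by decide), smul_zero, add_zero, zero_add,
          ← hcdef, ← hddef, smul_smul d d, smul_smul c c]
        have h1 : (1 : H →L[ℂ] H) + (d * d) • 1 = (1 + d * d) • (1 : H →L[ℂ] H) := by
          rw [add_smul, one_smul]
        rw [h1, smul_smul, hc, one_smul]
      · simp [hij]
  · obtain ⟨a, i⟩ := p
    obtain ⟨b, j⟩ := q
    rcases fin2 a with rfl | rfl <;> rcases fin2 b with rfl | rfl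
    · rw [T07l_zero, T07l_zero, h.lel]
      simp
    · rw [T07l_zero, T07l_one, mul_smul_comm, mul_add, mul_smul_comm, h.lel, h.lel]
      simp
    · rw [T07l_zero, T07l_star_one, smul_mul_assoc, smul_mul_assoc, add_mul, add_mul,
        smul_mul_assoc, smul_mul_assoc, h.lel, h.lel]
      simp
    · rw [T07l_star_one, T07l_one, smul_mul_assoc, smul_mul_assoc, mul_smul_comm, add_mul,
        add_mul, mul_add, mul_add, smul_mul_assoc, smul_mul_assoc, mul_smul_comm, smul_mul_assoc,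
        mul_smul_comm, h.lel, h.lel, h.lel, h.lel]
      by_cases hij : i = j
      · subst hij
        simp only [Prod.mk.injEq, and_true, if_true]
        rw [if_neg (by decide), if_neg (by decide), smul_zero, add_zero, zero_add,
          ← hcdef, ← hddef, smul_smul d d, smul_smul c c]
        have h1 : (((1 / Q : ℝ) : ℂ)) • (1 : H →L[ℂ] H) + (d * d) • (((1 / Q : ℝ) : ℂ)) • 1 =
            (1 + d * d) • ((((1 / Q : ℝ) : ℂ)) • (1 : H →L[ℂ] H)) := by
          rw [add_smul, one_smul]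
        rw [h1, smul_smul (c * c), hc, one_smul]
      · simp [hij]
  · obtain ⟨a, i⟩ := p
    rcases fin2 a with rfl | rfl
    · rw [T07l_zero]; exact h.lΩ _
    · rw [T07l_star_one, smul_apply, add_apply, smul_apply, h.lΩ, h.lΩ]
      simp
  · obtain ⟨a, i⟩ := p
    rcases fin2 a with rfl | rfl
    · rw [T07l_zero]; exact h.leΩ _
    · rw [T07l_star_one, smul_apply, add_apply, smul_apply, h.leΩ, h.leΩ]
      simp
  · obtain ⟨a, i⟩ := p
    rcases fin2 a with rfl | rfl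
    · rw [T07l_zero]; exact h.mem_l _
    · rw [T07l_star_one, T07l_one]
      have h1 : c • (l (1, i) + d • l (2, i)) + c • (star (l (1, i)) + d • star (l (2, i))) =
          c • ((l (1, i) + star (l (1, i))) + d • (l (2, i) + star (l (2, i)))) := by
        simp only [smul_add]
        abel
      rw [← hcdef, ← hddef, h1]
      have h2 : ∀ (z : ℂ) (x : H →L[ℂ] H), x ∈ T.M → z • x ∈ T.M := fun z x hx =>
        T.M.toStarSubalgebra.toSubalgebra.smul_mem hx z
      have h3 : ∀ (x y : H →L[ℂ] H), x ∈ T.M → y ∈ T.M → x + y ∈ T.M := fun x y hx hy =>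
        T.M.toStarSubalgebra.toSubalgebra.add_mem hx hy
      exact h2 _ _ (h3 _ _ (h.mem_l _) (h2 _ _ (h.mem_l _)))

lemma T07_X_eq (l : Letter N → (H →L[ℂ] H)) (e : H →L[ℂ] H) {t : ℝ} (ht : 0 ≤ t) :
    (fun j => Xof Q (gen l e) j + ((√t : ℝ) : ℂ) • (l (2, j) + star (l (2, j)))) =
      Xs Q (1 + t) (T07l t l) e := by
  funext j
  unfold Xof Xs Yop
  rw [T07l_zero, T07l_star_one, T07l_one]
  have h1 : ((√(1 + t) : ℝ) : ℂ) * (((√(1 + t))⁻¹ : ℝ) : ℂ) = 1 := by
    rw [← Complex.ofReal_mul, mul_inv_cancel₀ (Real.sqrt_ne_zero'.mpr (by linarith)),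
      Complex.ofReal_one]
  rw [← smul_add (((√(1 + t))⁻¹ : ℝ) : ℂ), smul_smul, h1, one_smul, add_assoc]
  change (Q : ℂ) • (e * (l (0, j) + star (l (0, j))) * e) + ((l (1, j) + star (l (1, j))) + _) = _
  congr 1
  rw [smul_add]
  abel

lemma T07_integral {N : ℕ} {a : ℝ} (ha : 0 < a) :
    ∫⁻ t in Set.Ioi (a - 1), ENNReal.ofReal (N / (2 * (1 + t) ^ 2)) =
      ENNReal.ofReal (N / (2 * a)) := by
  have hd : ∀ x ∈ Set.Ici (a - 1), HasDerivAt (fun t : ℝ => -((N : ℝ) / (2 * (1 + t))))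
      (N / (2 * (1 + x) ^ 2)) x := by
    intro x hx
    have hx1 : 0 < 1 + x := by
      have : a - 1 ≤ x := hx
      linarith
    have h1 : HasDerivAt (fun t : ℝ => 2 * (1 + t)) 2 x := by
      have h2 := ((hasDerivAt_id x).const_add 1).const_mul 2
      simpa using h2
    have h3 := ((h1.inv (by positivity)).const_mul (N : ℝ)).neg
    have h4 : -((N : ℝ) * (-2 / (2 * (1 + x)) ^ 2)) = N / (2 * (1 + x) ^ 2) := by
      field_simp
    rw [h4] at h3
    exact h3
  have hpos : ∀ x ∈ Set.Ioi (a - 1), 0 ≤ (N : ℝ) / (2 * (1 + x) ^ 2) := fun x _ => by positivity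
  have hlim : Tendsto (fun t : ℝ => -((N : ℝ) / (2 * (1 + t)))) atTop (nhds (-0)) := by
    refine Tendsto.neg ?_
    refine Tendsto.div_atTop tendsto_const_nhds ?_
    exact Tendsto.const_mul_atTop (by norm_num) (tendsto_atTop_add_const_left _ _ tendsto_id)
  have hint := integrableOn_Ioi_deriv_of_nonneg' hd hpos hlim
  have hval := integral_Ioi_of_hasDerivAt_of_nonneg' hd hpos hlim
  rw [← ofReal_integral_eq_lintegral_ofReal hint
    ((ae_restrict_iff' measurableSet_Ioi).mpr (Eventually.of_forall hpos)), hval]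
  congr 1
  rw [neg_zero, zero_sub, neg_neg]
  congr 2
  ring

/-- T7c -/
theorem Rel.chiStar_ge {l : Letter N → (H →L[ℂ] H)} {e : H →L[ℂ] H}
    (h : Rel T (1 / Q) l e) (hQ : 2 ≤ Q) (hN : 1 ≤ N) (h32 : 32 ≤ 8 * Q * √N) :
    (((N : ℝ) / 2 * Real.log (2 * Real.pi * Real.exp 1) + √N / (32 * Q) : ℝ) : EReal) ≤
      T.chiStar (Xof Q (gen l e)) (fun j => l (2, j) + star (l (2, j))) := by
  have hN1 : (1 : ℝ) ≤ N := by exact_mod_cast hN
  have hsq : (1 : ℝ) ≤ √N := Real.one_le_sqrt.mpr hN1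
  have hfun : ∀ t : ℝ, 0 < t →
      T.fisher (fun j => Xof Q (gen l e) j + ((√t : ℝ) : ℂ) • (l (2, j) + star (l (2, j)))) =
        T.fisher (Xs Q (1 + t) (T07l t l) e) := by
    intro t ht
    rw [T07_X_eq l e ht.le]
  have hneg : (∫⁻ t in Set.Ioi (0 : ℝ),
      (T.fisher (fun j => Xof Q (gen l e) j + ((√t : ℝ) : ℂ) • (l (2, j) + star (l (2, j)))) -
        ENNReal.ofReal (N / (1 + t)))) = 0 := by
    rw [setLIntegral_congr_fun (g := fun _ => 0) measurableSet_Ioi]
    · simp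
    · intro t ht
      have ht0 : 0 < t := ht
      change _ - _ = (0 : ℝ≥0∞)
      rw [hfun t ht0]
      exact tsub_eq_zero_of_le ((T07l_rel h ht0.le).fisher_le hQ (by linarith))
  have hpos : ENNReal.ofReal (N / (2 * (8 * Q * √N))) ≤ ∫⁻ t in Set.Ioi (0 : ℝ),
      (ENNReal.ofReal (N / (1 + t)) -
        T.fisher (fun j => Xof Q (gen l e) j + ((√t : ℝ) : ℂ) • (l (2, j) + star (l (2, j))))) := by
    rw [← T07_integral (N := N) (a := 8 * Q * √N) (by linarith)]
    refine le_trans ?_ (lintegral_mono_set (s := Set.Ioi (8 * Q * √N - 1)) (by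
      intro x hx
      have h1 : 8 * Q * √N - 1 < x := hx
      have : (0 : ℝ) < x := by linarith
      exact this))
    refine setLIntegral_mono' measurableSet_Ioi fun t ht => ?_
    have ht1 : 8 * Q * √N < 1 + t := by
      have h1 : 8 * Q * √N - 1 < t := ht
      linarith
    have ht0 : 0 < t := by linarith
    rw [hfun t ht0]
    have h1 := (T07l_rel h ht0.le).fisher_le' hQ hN ht1.le
    refine le_trans ?_ (tsub_le_tsub_left h1 _)
    have h2 : (0 : ℝ) ≤ N / (1 + t) - N / (1 + t) ^ 2 * (1 - 16 / (1 + t)) := by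
      have h3 : (1 : ℝ) ≤ 1 + t := by linarith
      have h4 : (N : ℝ) / (1 + t) ^ 2 * (1 - 16 / (1 + t)) ≤ N / (1 + t) ^ 2 * 1 := by
        apply mul_le_mul_of_nonneg_left _ (by positivity)
        have : 0 ≤ 16 / (1 + t) := by positivity
        linarith
      have h5 : (N : ℝ) / (1 + t) ^ 2 ≤ N / (1 + t) := by
        apply div_le_div_of_nonneg_left (by positivity) (by linarith)
        nlinarith
      linarith
    rw [← ENNReal.ofReal_sub _ h2]
    apply ENNReal.ofReal_le_ofReal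
    have h3 : 16 / (1 + t) ≤ 1 / 2 := by
      rw [div_le_div_iff₀ (by linarith) (by norm_num)]
      linarith
    have h4 : (N : ℝ) / (2 * (1 + t) ^ 2) = N / (1 + t) ^ 2 * (1 / 2) := by
      field_simp
    rw [h4, sub_sub_cancel]
    apply mul_le_mul_of_nonneg_left _ (by positivity)
    linarith
  unfold TracialVN.chiStar
  rw [hneg]
  have h1 : (((N : ℝ) / (2 * (8 * Q * √N)) : ℝ) : EReal) ≤
      ((∫⁻ t in Set.Ioi (0 : ℝ), (ENNReal.ofReal (N / (1 + t)) -
        T.fisher (fun j => Xof Q (gen l e) j + ((√t : ℝ) : ℂ) • (l (2, j) + star (l (2, j))))) :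
          ℝ≥0∞) : EReal) := by
    refine le_trans (le_of_eq ?_) (EReal.coe_ennreal_le_coe_ennreal_iff.mpr hpos)
    rw [EReal.coe_ennreal_ofReal, max_eq_left (by positivity)]
  rw [EReal.coe_ennreal_zero, sub_zero]
  have h2 : (√N / (32 * Q) : ℝ) = (1 / 2) * (N / (2 * (8 * Q * √N))) := by
    have h3 : (N : ℝ) = √N * √N := (Real.mul_self_sqrt (by linarith)).symm
    have h4 : (0 : ℝ) < √N := by linarith
    have h5 : (0 : ℝ) < Q := by linarith
    nth_rewrite 2 [h3]
    field_simp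
    ring
  rw [h2, add_comm, EReal.coe_add, EReal.coe_mul]
  refine add_le_add ?_ le_rfl
  exact mul_le_mul_of_nonneg_left h1 (EReal.coe_nonneg.mpr (by norm_num))

end P087
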