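import Vale.Agent.P087.T02a

open MeasureTheory Filter
open scoped ENNReal InnerProductSpace
noncomputable section
namespace P087

section t08
variable {H : Type} [NormedAddCommGroup H] [InnerProductSpace ℂ H] [CompleteSpace H]

lemma t08_sum_star {ι : Type} [DecidableEq ι] (J : Finset ι) (u v : ι → (H →L[ℂ] H))
    (g : H →L[ℂ] H) (h : ∀ i j, star (u i) * u j = if i = j then g else 0) :
    star (∑ i ∈ J, u i * v i) * (∑ i ∈ J, u i * v i) = ∑ i ∈ J, star (v i) * g * v i := by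
  rw [star_sum, Finset.sum_mul]
  refine Finset.sum_congr rfl fun i hi => ?_
  rw [Finset.mul_sum, Finset.sum_eq_single i]
  · rw [star_mul, mul_assoc, ← mul_assoc (star (u i)), h, if_pos rfl, mul_assoc]
  · intro j _ hj
    rw [star_mul, mul_assoc, ← mul_assoc (star (u i)), h, if_neg (Ne.symm hj), zero_mul, mul_zero]
  · intro h
    exact absurd hi h

lemma t08_norm_le (F g : H →L[ℂ] H) (c : ℝ) (hc : 0 ≤ c) (hg : ‖g‖ ≤ 1)
    (h : star F * F = (c : ℂ) • g) : ‖F‖ ≤ √c := by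
  apply Real.le_sqrt_of_sq_le
  rw [sq, ← CStarRing.norm_star_mul_self, h, norm_smul, Complex.norm_real, Real.norm_of_nonneg hc]
  exact mul_le_of_le_one_right hc hg

lemma t08_norm_le_one (B : H →L[ℂ] H) (h : star B * B = B) : ‖B‖ ≤ 1 := by
  have h1 : ‖B‖ * ‖B‖ = ‖B‖ := by
    conv_rhs => rw [← h]
    rw [CStarRing.norm_star_mul_self]
  by_contra hlt
  push Not at hlt
  nlinarith

lemma t08_one : ‖(1 : H →L[ℂ] H)‖ ≤ 1 := ContinuousLinearMap.norm_id_le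

lemma t08_nat (n : ℕ) : ‖(n : H →L[ℂ] H)‖ ≤ n := by
  refine (Nat.norm_cast_le n).trans ?_
  have := t08_one (H := H)
  have h2 : (0 : ℝ) ≤ n := Nat.cast_nonneg n
  nlinarith

/-- decomposition of `T` -/
lemma t08_decomp {N : ℕ} (J : Finset (Fin N)) (hJ : 1 ≤ J.card) (Q : ℝ) (hQ : 1 ≤ Q)
    (m c : Fin N → (H →L[ℂ] H)) (e : H →L[ℂ] H)
    (hmm : ∀ i j, star (m i) * m j = if i = j then e else 0)
    (hcc : ∀ i j, star (c i) * c j = if i = j then 1 else 0)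
    (hmc : ∀ i j, star (m i) * c j = 0) (hem : ∀ i, e * m i = m i) (hme : ∀ i, m i * e = m i)
    (hcec : ∀ i, star (c i) * e * c i = ((1 / Q : ℝ) : ℂ) • 1)
    (he : e * e = e) (hes : star e = e)
    (X : Fin N → (H →L[ℂ] H))
    (hX : ∀ i, X i = ((√Q : ℝ) : ℂ) • (m i + star (m i)) + (c i + star (c i))) :
    ∃ Z E : H →L[ℂ] H, Tpol Q J X = Z + E ∧ e * Z = Z ∧ Z * e = Z ∧ star Z = Z ∧ star E = E ∧
      ‖Z - e‖ ≤ 3 * (1 / √J.card) ∧ ‖E‖ ≤ 9 * (1 / √(J.card * Q)) := by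
  have hQ0 : 0 < Q := by linarith
  have hp0 : (0 : ℝ) < J.card := by exact_mod_cast hJ
  have hp1 : (1 : ℝ) ≤ J.card := by exact_mod_cast hJ
  have hen : ‖e‖ ≤ 1 := t08_norm_le_one e (by rw [hes, he])
  have hcm : ∀ i j, star (c i) * m j = 0 := fun i j => by
    have := congrArg star (hmc j i)
    rwa [star_mul, star_star, star_zero] at this
  have hmse : ∀ i, star (m i) * e = star (m i) := fun i => by
    have := congrArg star (hem i)
    rwa [star_mul, hes] at this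
  have hesm : ∀ i, e * star (m i) = star (m i) := fun i => by
    have := congrArg star (hme i)
    rwa [star_mul, hes] at this
  set M1 := ∑ i ∈ J, m i * m i with hM1
  set Bm := ∑ i ∈ J, m i * star (m i) with hBm
  set F1 := ∑ i ∈ J, m i * c i with hF1
  set F2 := ∑ i ∈ J, m i * star (c i) with hF2
  set F3 := ∑ i ∈ J, c i * m i with hF3
  set C1 := ∑ i ∈ J, c i * c i with hC1
  set Bc := ∑ i ∈ J, c i * star (c i) with hBc
  -- norm bounds
  have nM1 : ‖M1‖ ≤ √J.card := by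
    refine t08_norm_le M1 e _ hp0.le hen ?_
    rw [hM1, t08_sum_star J m m e hmm]
    have : ∀ i ∈ J, star (m i) * e * m i = e := fun i _ => by rw [hmse, hmm, if_pos rfl]
    rw [Finset.sum_congr rfl this, Finset.sum_const]
    simp [← Nat.cast_smul_eq_nsmul ℂ]
  have nF3 : ‖F3‖ ≤ √J.card := by
    refine t08_norm_le F3 e _ hp0.le hen ?_
    rw [hF3, t08_sum_star J c m 1 hcc]
    have : ∀ i ∈ J, star (m i) * 1 * m i = e := fun i _ => by rw [mul_one, hmm, if_pos rfl]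
    rw [Finset.sum_congr rfl this, Finset.sum_const]
    simp [← Nat.cast_smul_eq_nsmul ℂ]
  have nC1 : ‖C1‖ ≤ √J.card := by
    refine t08_norm_le C1 1 _ hp0.le t08_one ?_
    rw [hC1, t08_sum_star J c c 1 hcc]
    have : ∀ i ∈ J, star (c i) * 1 * c i = 1 := fun i _ => by rw [mul_one, hcc, if_pos rfl]
    rw [Finset.sum_congr rfl this, Finset.sum_const]
    simp [← Nat.cast_smul_eq_nsmul ℂ]
  have nF1 : ‖F1‖ ≤ √J.card := by
    have h1 : ‖F1‖ ≤ √(J.card * (1 / Q)) := by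
      refine t08_norm_le F1 1 _ (by positivity) t08_one ?_
      rw [hF1, t08_sum_star J m c e hmm, Finset.sum_congr rfl (fun i _ => hcec i), Finset.sum_const,
        ← Nat.cast_smul_eq_nsmul ℂ, smul_smul]
      simp
    refine h1.trans (Real.sqrt_le_sqrt ?_)
    refine mul_le_of_le_one_right hp0.le ?_
    rw [div_le_one hQ0]
    exact hQ
  have hBms : star Bm = Bm := by
    rw [hBm, star_sum]
    refine Finset.sum_congr rfl fun i _ => ?_
    rw [star_mul, star_star]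
  have hBcs : star Bc = Bc := by
    rw [hBc, star_sum]
    refine Finset.sum_congr rfl fun i _ => ?_
    rw [star_mul, star_star]
  have nBm : ‖Bm‖ ≤ 1 := by
    refine t08_norm_le_one Bm ?_
    rw [hBm, t08_sum_star J m (fun i => star (m i)) e hmm]
    refine Finset.sum_congr rfl fun i _ => ?_
    rw [star_star, hme]
  have nBc : ‖Bc‖ ≤ 1 := by
    refine t08_norm_le_one Bc ?_
    rw [hBc, t08_sum_star J c (fun i => star (c i)) 1 hcc]
    refine Finset.sum_congr rfl fun i _ => ?_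
    rw [star_star, mul_one]
  have nF2 : ‖F2‖ ≤ 1 := by
    have hG : ‖∑ i ∈ J, c i * (e * star (c i))‖ ≤ 1 := by
      refine t08_norm_le_one _ ?_
      rw [t08_sum_star J c (fun i => e * star (c i)) 1 hcc]
      refine Finset.sum_congr rfl fun i _ => ?_
      rw [star_mul, star_star, hes, mul_one, mul_assoc, ← mul_assoc e, he]
    have := t08_norm_le F2 (∑ i ∈ J, c i * (e * star (c i))) 1 zero_le_one hG (by
      rw [hF2, t08_sum_star J m (fun i => star (c i)) e hmm, Complex.ofReal_one, one_smul]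
      refine Finset.sum_congr rfl fun i _ => ?_
      rw [star_star, mul_assoc])
    rwa [Real.sqrt_one] at this
  set p : ℝ := (J.card : ℝ) with hp
  -- expansion of the squares
  have hsq : ∀ i, X i ^ 2 = (Q : ℂ) • (e + m i * m i + star (m i * m i) + m i * star (m i)) +
      ((√Q : ℝ) : ℂ) • (m i * c i + m i * star (c i) + star (c i * m i) + star (m i * c i) +
        star (m i * star (c i)) + c i * m i) +
      (1 + c i * c i + star (c i * c i) + c i * star (c i)) := by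
    intro i
    have hqq : ((√Q : ℝ) : ℂ) * ((√Q : ℝ) : ℂ) = (Q : ℂ) := by
      rw [← Complex.ofReal_mul, Real.mul_self_sqrt hQ0.le]
    have e1 := hmm i i
    have e2 := hcc i i
    rw [if_pos rfl] at e1 e2
    rw [hX, sq]
    simp only [star_mul, star_star, add_mul, mul_add, smul_add, smul_mul_assoc, mul_smul_comm,
      smul_smul, hqq, e1, e2, hmc, hcm]
    module
  have hsum : ∑ i ∈ J, X i ^ 2 - (J.card : ℂ) • (1 : H →L[ℂ] H) =
      (Q : ℂ) • ((p : ℂ) • e + (M1 + star M1 + Bm)) +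
      (((√Q : ℝ) : ℂ) • (F1 + F2 + star F3 + star F1 + star F2 + F3) + (C1 + star C1 + Bc)) := by
    simp only [hsq, Finset.sum_add_distrib, ← Finset.smul_sum, ← star_sum, Finset.sum_const,
      ← Nat.cast_smul_eq_nsmul ℂ]
    rw [← hM1, ← hBm, ← hF1, ← hF2, ← hF3, ← hC1, ← hBc, hp]
    simp only [Complex.ofReal_natCast]
    module
  have hQc : (Q : ℂ) ≠ 0 := by exact_mod_cast hQ0.ne'
  have hpc : (p : ℂ) ≠ 0 := by exact_mod_cast hp0.ne'
  refine ⟨e + (p : ℂ)⁻¹ • (M1 + star M1 + Bm),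
    ((p * Q : ℝ) : ℂ)⁻¹ • (((√Q : ℝ) : ℂ) • (F1 + F2 + star F3 + star F1 + star F2 + F3) +
      (C1 + star C1 + Bc)), ?_, ?_, ?_, ?_, ?_, ?_, ?_⟩
  · rw [Tpol, hsum, smul_add, ← hp]
    congr 1
    rw [smul_smul, smul_add, smul_smul]
    have h1 : ((p * Q : ℝ) : ℂ)⁻¹ * (Q : ℂ) = (p : ℂ)⁻¹ := by
      rw [Complex.ofReal_mul]
      field_simp
    rw [h1, inv_mul_cancel₀ hpc, one_smul]
  · have h1 : e * M1 = M1 := by
      rw [hM1, Finset.mul_sum]
      exact Finset.sum_congr rfl fun i _ => by rw [← mul_assoc, hem]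
    have h2 : e * star M1 = star M1 := by
      have h3 : M1 * e = M1 := by
        rw [hM1, Finset.sum_mul]
        exact Finset.sum_congr rfl fun i _ => by rw [mul_assoc, hme]
      have := congrArg star h3
      rwa [star_mul, hes] at this
    have h3 : e * Bm = Bm := by
      rw [hBm, Finset.mul_sum]
      exact Finset.sum_congr rfl fun i _ => by rw [← mul_assoc, hem]
    rw [mul_add, he, mul_smul_comm, mul_add, mul_add, h1, h2, h3]
  · have h1 : M1 * e = M1 := by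
      rw [hM1, Finset.sum_mul]
      exact Finset.sum_congr rfl fun i _ => by rw [mul_assoc, hme]
    have h2 : star M1 * e = star M1 := by
      have h3 : e * M1 = M1 := by
        rw [hM1, Finset.mul_sum]
        exact Finset.sum_congr rfl fun i _ => by rw [← mul_assoc, hem]
      have := congrArg star h3
      rwa [star_mul, hes] at this
    have h3 : Bm * e = Bm := by
      rw [hBm, Finset.sum_mul]
      exact Finset.sum_congr rfl fun i _ => by rw [mul_assoc, hmse]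
    rw [add_mul, he, smul_mul_assoc, add_mul, add_mul, h1, h2, h3]
  · have h0 : star ((p : ℂ)⁻¹) = (p : ℂ)⁻¹ := by
      rw [← Complex.ofReal_inv]; exact Complex.conj_ofReal _
    rw [star_add, hes, star_smul, h0, star_add, star_add, star_star, hBms, add_comm (star M1) M1]
  · have h0 : star (((p * Q : ℝ) : ℂ)⁻¹) = ((p * Q : ℝ) : ℂ)⁻¹ := by
      rw [← Complex.ofReal_inv]; exact Complex.conj_ofReal _
    have h1 : star (((√Q : ℝ) : ℂ)) = ((√Q : ℝ) : ℂ) := Complex.conj_ofReal _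
    rw [star_smul, h0, star_add, star_smul, h1]
    simp only [star_add, star_star, hBcs]
    congr 1
    congr 1
    · congr 1
      abel
    · abel
  · have h1 : e + (p : ℂ)⁻¹ • (M1 + star M1 + Bm) - e = (p : ℂ)⁻¹ • (M1 + star M1 + Bm) := by
      abel
    rw [h1, norm_smul, norm_inv, Complex.norm_real, Real.norm_of_nonneg hp0.le]
    have h2 : ‖M1 + star M1 + Bm‖ ≤ √p + √p + 1 := by
      refine norm_add_le_of_le (norm_add_le_of_le nM1 ?_) nBm
      rw [norm_star]; exact nM1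
    have h3 : (1 : ℝ) ≤ √p := Real.one_le_sqrt.mpr hp1
    have h4 : √p * √p = p := Real.mul_self_sqrt hp0.le
    have h5 : 0 < √p := Real.sqrt_pos.mpr hp0
    calc p⁻¹ * ‖M1 + star M1 + Bm‖ ≤ p⁻¹ * (3 * √p) := by
          refine mul_le_mul_of_nonneg_left (h2.trans (by linarith)) (by positivity)
      _ = 3 * (1 / √p) := by
          have h9 : p⁻¹ = (√p)⁻¹ * (√p)⁻¹ := by rw [← mul_inv, h4]
          rw [h9]
          field_simp
  · rw [norm_smul, norm_inv, Complex.norm_real, Real.norm_of_nonneg (by positivity : 0 ≤ p * Q)]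
    have h3 : (1 : ℝ) ≤ √p := Real.one_le_sqrt.mpr hp1
    have h3' : (1 : ℝ) ≤ √Q := Real.one_le_sqrt.mpr hQ
    have h4 : √p * √p = p := Real.mul_self_sqrt hp0.le
    have h4' : √Q * √Q = Q := Real.mul_self_sqrt hQ0.le
    have h2 : ‖F1 + F2 + star F3 + star F1 + star F2 + F3‖ ≤ √p + 1 + √p + √p + 1 + √p := by
      refine norm_add_le_of_le (norm_add_le_of_le (norm_add_le_of_le (norm_add_le_of_le
        (norm_add_le_of_le nF1 nF2) ?_) ?_) ?_) nF3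
      · rw [norm_star]; exact nF3
      · rw [norm_star]; exact nF1
      · rw [norm_star]; exact nF2
    have h5 : ‖C1 + star C1 + Bc‖ ≤ √p + √p + 1 := by
      refine norm_add_le_of_le (norm_add_le_of_le nC1 ?_) nBc
      rw [norm_star]; exact nC1
    have h6 : ‖((√Q : ℝ) : ℂ) • (F1 + F2 + star F3 + star F1 + star F2 + F3) +
        (C1 + star C1 + Bc)‖ ≤ √Q * (6 * √p) + 3 * √p := by
      refine norm_add_le_of_le ?_ (h5.trans (by linarith))
      rw [norm_smul, Complex.norm_real, Real.norm_of_nonneg (Real.sqrt_nonneg _)]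
      exact mul_le_mul_of_nonneg_left (h2.trans (by linarith)) (Real.sqrt_nonneg _)
    have h7 : √Q * (6 * √p) + 3 * √p ≤ 9 * (√p * √Q) := by nlinarith
    rw [Real.sqrt_mul hp0.le]
    have h8 : 0 < √p := Real.sqrt_pos.mpr hp0
    have h8' : 0 < √Q := Real.sqrt_pos.mpr hQ0
    calc (p * Q)⁻¹ * ‖((√Q : ℝ) : ℂ) • (F1 + F2 + star F3 + star F1 + star F2 + F3) +
        (C1 + star C1 + Bc)‖ ≤ (p * Q)⁻¹ * (9 * (√p * √Q)) :=
          mul_le_mul_of_nonneg_left (h6.trans h7) (by positivity)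
      _ = 9 * (1 / (√p * √Q)) := by
          have h9 : (p * Q)⁻¹ = (√p)⁻¹ * (√p)⁻¹ * ((√Q)⁻¹ * (√Q)⁻¹) := by
            rw [← mul_inv, h4, ← mul_inv, h4', ← mul_inv]
          rw [h9]
          field_simp

/-- bounds in terms of `‖Z - e‖` and `‖E‖` -/
lemma t08_abs (e Z E T : H →L[ℂ] H) (hT : T = Z + E) (heZ : e * Z = Z) (hZe : Z * e = Z)
    (hZs : star Z = Z) (hEs : star E = E) (he : e * e = e) (hes : star e = e) (z ε : ℝ)
    (hz : ‖Z - e‖ ≤ z) (hε : ‖E‖ ≤ ε) (hz3 : z ≤ 3) (hε9 : ε ≤ 9) :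
    star (psi T) = psi T ∧ ‖T * (6 - 8 * T + 3 * T ^ 2)‖ ≤ 8021 ∧ ‖psi T‖ ≤ 104273 ∧
      ‖(1 - psi T) * e‖ ≤ 40 * (z ^ 3 + 247 * ε) ∧
      ‖psi T ^ 2 - psi T‖ ≤
        617 * 40 * ((4 * (z + ε) + 14 * ε) * (4 * (z + ε) ^ 2 + 196 * ε)) := by
  have hz0 : 0 ≤ z := (norm_nonneg _).trans hz
  have hε0 : 0 ≤ ε := (norm_nonneg _).trans hε
  have hen : ‖e‖ ≤ 1 := t08_norm_le_one e (by rw [hes, he])
  have h1n : ‖(1 : H →L[ℂ] H)‖ ≤ 1 := t08_one
  have h3n : ‖(3 : H →L[ℂ] H)‖ ≤ 3 := t08_nat 3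
  have h6n : ‖(6 : H →L[ℂ] H)‖ ≤ 6 := t08_nat 6
  have h8n : ‖(8 : H →L[ℂ] H)‖ ≤ 8 := t08_nat 8
  have hZn : ‖Z‖ ≤ 4 := by
    have : Z = (Z - e) + e := by abel
    rw [this]
    refine (norm_add_le_of_le hz hen).trans (by linarith)
  have hTn : ‖T‖ ≤ 13 := by
    rw [hT]
    refine (norm_add_le_of_le hZn hε).trans (by linarith)
  have hTs : star T = T := by rw [hT, star_add, hZs, hEs]
  have h1T : ‖1 - T‖ ≤ 14 := (norm_sub_le_of_le h1n hTn).trans (by norm_num)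
  have h13T : ‖1 + 3 * T‖ ≤ 40 :=
    (norm_add_le_of_le h1n (norm_mul_le_of_le h3n hTn)).trans (by norm_num)
  have hT2 : ‖T ^ 2‖ ≤ 169 := by
    rw [sq]
    exact (norm_mul_le_of_le hTn hTn).trans (by norm_num)
  have hg : ‖6 - 8 * T + 3 * T ^ 2‖ ≤ 617 :=
    (norm_add_le_of_le (norm_sub_le_of_le h6n (norm_mul_le_of_le h8n hTn))
      (norm_mul_le_of_le h3n hT2)).trans (by norm_num)
  have hTg : ‖T * (6 - 8 * T + 3 * T ^ 2)‖ ≤ 8021 :=
    (norm_mul_le_of_le hTn hg).trans (by norm_num)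
  have hpsi : psi T = T * (T * (6 - 8 * T + 3 * T ^ 2)) := by
    rw [psi, sq T, mul_assoc]
  have hP : ‖psi T‖ ≤ 104273 := by
    rw [hpsi]
    exact (norm_mul_le_of_le hTn hTg).trans (by norm_num)
  have hn3 : star (3 : H →L[ℂ] H) = 3 := star_ofNat 3
  have hn6 : star (6 : H →L[ℂ] H) = 6 := star_ofNat 6
  have hn8 : star (8 : H →L[ℂ] H) = 8 := star_ofNat 8
  have hPs : star (psi T) = psi T := by
    rw [psi]
    simp only [star_mul, star_add, star_sub, star_pow, hTs, hn3, hn6, hn8]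
    noncomm_ring
  have hD : ‖e - Z‖ ≤ z := by rw [norm_sub_rev]; exact hz
  set D := e - Z with hDdef
  have heD : e * D = D := by rw [hDdef, mul_sub, he, heZ]
  have hDe : D * e = D := by rw [hDdef, sub_mul, he, hZe]
  have hEe : ‖E * e‖ ≤ ε := (norm_mul_le_of_le hε hen).trans (by linarith)
  have hTe : (1 - T) * e = D - E * e := by
    rw [sub_mul, one_mul, hT, add_mul, hZe, hDdef]
    abel
  have heT : e * (1 - T) = D - e * E := by
    rw [mul_sub, mul_one, hT, mul_add, heZ, hDdef]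
    abel
  have hTen : ‖(1 - T) * e‖ ≤ z + ε := by
    rw [hTe]
    exact norm_sub_le_of_le hD hEe
  have heTn : ‖e * (1 - T)‖ ≤ z + ε := by
    rw [heT]
    refine norm_sub_le_of_le hD ((norm_mul_le_of_le hen hε).trans (by linarith))
  have hTD : (1 - T) * D = D * D - E * D := by
    rw [← heD, ← mul_assoc, hTe, heD, sub_mul, mul_assoc, heD]
  have hcube : (1 - T) ^ 3 * e = D * D * D - E * D * D - (1 - T) * (E * D) -
      (1 - T) * ((1 - T) * (E * e)) := by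
    have e1 : (1 - T) ^ 3 * e = (1 - T) * ((1 - T) * ((1 - T) * e)) := by noncomm_ring
    rw [e1, hTe, mul_sub (1 - T) D, hTD, mul_sub, mul_sub (1 - T) (D * D), ← mul_assoc (1 - T) D D,
      hTD, sub_mul]
  have hDD : ‖D * D‖ ≤ z * z := norm_mul_le_of_le hD hD
  have hED : ‖E * D‖ ≤ ε * z := norm_mul_le_of_le hε hD
  have hcn : ‖(1 - T) ^ 3 * e‖ ≤ z ^ 3 + 247 * ε := by
    rw [hcube]
    have b1 : ‖D * D * D‖ ≤ z * z * z := norm_mul_le_of_le hDD hD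
    have b2 : ‖E * D * D‖ ≤ ε * z * z := norm_mul_le_of_le hED hD
    have b3 : ‖(1 - T) * (E * D)‖ ≤ 14 * (ε * z) := norm_mul_le_of_le h1T hED
    have b4 : ‖(1 - T) * ((1 - T) * (E * e))‖ ≤ 14 * (14 * ε) :=
      norm_mul_le_of_le h1T (norm_mul_le_of_le h1T hEe)
    refine (norm_sub_le_of_le (norm_sub_le_of_le (norm_sub_le_of_le b1 b2) b3) b4).trans ?_
    have c1 : ε * z ≤ 3 * ε := by nlinarith
    have c2 : ε * z * z ≤ 9 * ε := by nlinarith
    nlinarith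
  have h1P : (1 - psi T) = (1 + 3 * T) * (1 - T) ^ 3 := by
    rw [psi]
    noncomm_ring
  refine ⟨hPs, hTg, hP, ?_, ?_⟩
  · rw [h1P, mul_assoc]
    exact norm_mul_le_of_le h13T hcn
  · have e1 : psi T ^ 2 - psi T = -((6 - 8 * T + 3 * T ^ 2) * (1 + 3 * T) *
        ((T * (1 - T)) * ((1 - T) * T * (1 - T)))) := by
      rw [psi]
      noncomm_ring
    have b0 : ‖E * (1 - T)‖ ≤ ε * 14 := norm_mul_le_of_le hε h1T
    have b1 : ‖T * (1 - T)‖ ≤ 4 * (z + ε) + 14 * ε := by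
      have : T * (1 - T) = Z * (e * (1 - T)) + E * (1 - T) := by
        rw [← mul_assoc, hZe, ← add_mul, ← hT]
      rw [this]
      refine norm_add_le_of_le (norm_mul_le_of_le hZn heTn) (b0.trans (by linarith))
    have b2 : ‖(1 - T) * T * (1 - T)‖ ≤ 4 * (z + ε) ^ 2 + 196 * ε := by
      have : (1 - T) * T * (1 - T) = ((1 - T) * e) * (Z * (e * (1 - T))) + (1 - T) * (E * (1 - T)) := by
        rw [← mul_assoc Z, hZe, mul_assoc (1 - T) e, ← mul_assoc e, heZ, ← mul_add, ← add_mul, ← hT,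
          mul_assoc]
      rw [this]
      have b3 : ‖((1 - T) * e) * (Z * (e * (1 - T)))‖ ≤ (z + ε) * (4 * (z + ε)) :=
        norm_mul_le_of_le hTen (norm_mul_le_of_le hZn heTn)
      have b4 : ‖(1 - T) * (E * (1 - T))‖ ≤ 14 * (ε * 14) := norm_mul_le_of_le h1T b0
      refine (norm_add_le_of_le b3 b4).trans (le_of_eq (by ring))
    rw [e1, norm_neg]
    exact norm_mul_le_of_le (norm_mul_le_of_le hg h13T) (norm_mul_le_of_le b1 b2)

lemma t08_mul (a b : H →L[ℂ] H) (x : H) : (a * b) x = a (b x) := rfl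

lemma t08_ir (a : H →L[ℂ] H) (x y : H) : ⟪x, (star a) y⟫_ℂ = ⟪a x, y⟫_ℂ := by
  rw [ContinuousLinearMap.star_eq_adjoint, ContinuousLinearMap.adjoint_inner_right]

lemma t08_il (a : H →L[ℂ] H) (x y : H) : ⟪(star a) x, y⟫_ℂ = ⟪x, a y⟫_ℂ := by
  rw [ContinuousLinearMap.star_eq_adjoint, ContinuousLinearMap.adjoint_inner_left]

lemma t08_sa (a : H →L[ℂ] H) (ha : star a = a) (x y : H) : ⟪a x, y⟫_ℂ = ⟪x, a y⟫_ℂ := by
  conv_lhs => rw [← ha]
  exact t08_il a x y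

lemma t08_norm_sq (x : H) : ((‖x‖ ^ 2 : ℝ) : ℂ) = ⟪x, x⟫_ℂ := by
  rw [inner_self_eq_norm_sq_to_K]
  simp

lemma t08_trace (T : TracialVN H) (a : H →L[ℂ] H) (ha : a ∈ T.M) :
    ‖a T.Ω‖ = ‖(star a) T.Ω‖ := by
  have h1 : ((‖a T.Ω‖ ^ 2 : ℝ) : ℂ) = ((‖(star a) T.Ω‖ ^ 2 : ℝ) : ℂ) := by
    rw [t08_norm_sq, t08_norm_sq, ← t08_ir, t08_il]
    exact T.tracial (star a) (star_mem ha) a ha
  have h2 : ‖a T.Ω‖ ^ 2 = ‖(star a) T.Ω‖ ^ 2 := Complex.ofReal_injective h1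
  exact (sq_eq_sq₀ (norm_nonneg _) (norm_nonneg _)).mp h2

lemma t08_mem {T : TracialVN H} {I : Type} [DecidableEq I] {α : ℝ} {l : I → (H →L[ℂ] H)}
    {e : H →L[ℂ] H} (h : Rel T α l e) (K : Set I) (b : H →L[ℂ] H)
    (hb : b ∈ Algebra.adjoin ℂ
      ({e} ∪ {x | ∃ i, i ∉ K ∧ x = l i + star (l i)} : Set (H →L[ℂ] H))) : b ∈ T.M := by
  have h1 : Algebra.adjoin ℂ
      ({e} ∪ {x | ∃ i, i ∉ K ∧ x = l i + star (l i)} : Set (H →L[ℂ] H)) ≤
        T.M.toStarSubalgebra.toSubalgebra := by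
    refine Algebra.adjoin_le ?_
    rintro x (hx | ⟨i, _, hx⟩)
    · rw [Set.mem_singleton_iff.mp hx]
      exact h.mem_e
    · rw [hx]
      exact h.mem_l i
  exact h1 hb

/-- the vector estimates -/
lemma t08_vec {T : TracialVN H} {I : Type} [DecidableEq I] {α : ℝ} {l : I → (H →L[ℂ] H)}
    {e : H →L[ℂ] H} (h : Rel T α l e) (j : I) (P Y : H →L[ℂ] H)
    (hP : P ∈ Algebra.adjoin ℂ
      ({e} ∪ {x | ∃ i, i ∉ ({j} : Set I) ∧ x = l i + star (l i)} : Set (H →L[ℂ] H)))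
    (hY : Y ∈ Algebra.adjoin ℂ
      ({e} ∪ {x | ∃ i, i ∉ ({j} : Set I) ∧ x = l i + star (l i)} : Set (H →L[ℂ] H)))
    (hPs : star P = P) (hYs : star Y = Y) (heY : e * Y = Y) (hYn : ‖Y T.Ω‖ = 1) :
    ‖((Y + (l j + star (l j))) - P * (Y + (l j + star (l j))) * P) T.Ω‖ ^ 2 ≤
      1 + (‖P T.Ω‖ ^ 2) ^ 2 + ((1 + ‖P‖) * ‖(1 - P) * e‖) ^ 2 ∧
    ‖(Y + (l j + star (l j))) T.Ω‖ ^ 2 = 2 ∧
    ‖((P ^ 2 - P) * (Y + (l j + star (l j))) * P) T.Ω‖ ≤ ‖P ^ 2 - P‖ * (‖P‖ * √2) := by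
  set c := l j with hc
  have hcc : star c * c = 1 := by rw [hc, h.ll, if_pos rfl]
  have hcΩ : (star c) T.Ω = 0 := h.lΩ j
  have hcP : star c * P * c = (T.τ P) • 1 := by
    have := (h.cond {j} P hP).1 j rfl j rfl
    rwa [if_pos rfl] at this
  have hcPP : star c * (P * P) * c = (T.τ (P * P)) • 1 := by
    have := (h.cond {j} (P * P) (Subalgebra.mul_mem _ hP hP)).1 j rfl j rfl
    rwa [if_pos rfl] at this
  have hvan : ∀ b ∈ Algebra.adjoin ℂ
      ({e} ∪ {x | ∃ i, i ∉ ({j} : Set I) ∧ x = l i + star (l i)} : Set (H →L[ℂ] H)),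
      (star c) (b T.Ω) = 0 := fun b hb => (h.cond {j} b hb).2 j rfl
  have hPM := t08_mem h _ P hP
  have hYM := t08_mem h _ Y hY
  have hSM : c + star c ∈ T.M := h.mem_l j
  have hcn : ‖c T.Ω‖ ^ 2 = 1 := by
    apply Complex.ofReal_injective
    rw [t08_norm_sq, ← t08_ir]
    have h1 : (star c) (c T.Ω) = (star c * c) T.Ω := rfl
    rw [h1, hcc, ContinuousLinearMap.one_apply, inner_self_eq_norm_sq_to_K, T.norm_Ω]
    simp
  -- `V = c Ω - P c P Ω`, `U = (Y - P Y P) Ω`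
  have hτPP : T.τ (P * P) = ((‖P T.Ω‖ ^ 2 : ℝ) : ℂ) := by
    rw [t08_norm_sq, t08_sa P hPs]
    rfl
  have hPcP : ‖P (c (P T.Ω))‖ ^ 2 = (‖P T.Ω‖ ^ 2) ^ 2 := by
    apply Complex.ofReal_injective
    rw [t08_norm_sq, t08_sa P hPs, ← t08_ir]
    have h1 : (star c) (P (P (c (P T.Ω)))) = (star c * (P * P) * c) (P T.Ω) := rfl
    rw [h1, hcPP, ContinuousLinearMap.smul_apply, ContinuousLinearMap.one_apply, inner_smul_right,
      hτPP, ← t08_norm_sq]
    push_cast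
    ring
  have hcross : (⟪c T.Ω, P (c (P T.Ω))⟫_ℂ).re = ((T.τ P).re) ^ 2 := by
    rw [← t08_ir]
    have h1 : (star c) (P (c (P T.Ω))) = (star c * P * c) (P T.Ω) := rfl
    rw [h1, hcP, ContinuousLinearMap.smul_apply, ContinuousLinearMap.one_apply, inner_smul_right]
    have h2 : ⟪T.Ω, P T.Ω⟫_ℂ = T.τ P := rfl
    have h3 : (starRingEnd ℂ) (T.τ P) = T.τ P := by
      rw [← h2, inner_conj_symm]
      exact t08_sa P hPs _ _
    have h4 : (T.τ P).im = 0 := Complex.conj_eq_iff_im.mp h3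
    rw [h2, Complex.mul_re, h4]
    ring
  have hV : ‖c T.Ω - P (c (P T.Ω))‖ ^ 2 ≤ 1 + (‖P T.Ω‖ ^ 2) ^ 2 := by
    rw [@norm_sub_sq ℂ]
    have h1 : RCLike.re ⟪c T.Ω, P (c (P T.Ω))⟫_ℂ = ((T.τ P).re) ^ 2 := hcross
    rw [h1, hcn, hPcP]
    have := sq_nonneg (T.τ P).re
    linarith
  have horth : ∀ b ∈ Algebra.adjoin ℂ
      ({e} ∪ {x | ∃ i, i ∉ ({j} : Set I) ∧ x = l i + star (l i)} : Set (H →L[ℂ] H)),
      ∀ y, ⟪b T.Ω, c y⟫_ℂ = 0 := fun b hb y => by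
    rw [← t08_il, hvan b hb, inner_zero_left]
  have hYe : ‖(1 - P) (Y T.Ω)‖ ≤ ‖(1 - P) * e‖ := by
    have h1 : (1 - P) (Y T.Ω) = ((1 - P) * e) (Y T.Ω) := by
      have h2 : e (Y T.Ω) = Y T.Ω := by
        conv_rhs => rw [← heY]
        rfl
      conv_lhs => rw [← h2]
      rfl
    rw [h1]
    refine (ContinuousLinearMap.le_opNorm _ _).trans ?_
    rw [hYn, mul_one]
  have hYe' : ‖(Y * (1 - P)) T.Ω‖ ≤ ‖(1 - P) * e‖ := by
    rw [t08_trace T _ (mul_mem hYM (sub_mem (one_mem _) hPM)), star_mul, star_sub, star_one, hPs,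
      hYs]
    exact hYe
  have hU : ‖(Y - P * Y * P) T.Ω‖ ≤ (1 + ‖P‖) * ‖(1 - P) * e‖ := by
    have h1 : (Y - P * Y * P) T.Ω = (1 - P) (Y T.Ω) + P ((Y * (1 - P)) T.Ω) := by
      simp only [ContinuousLinearMap.sub_apply, t08_mul,
        ContinuousLinearMap.one_apply, map_sub]
      abel
    rw [h1, add_mul, one_mul]
    refine norm_add_le_of_le hYe ((ContinuousLinearMap.le_opNorm _ _).trans ?_)
    exact mul_le_mul_of_nonneg_left hYe' (norm_nonneg _)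
  have hXΩ : (Y + (c + star c)) T.Ω = Y T.Ω + c T.Ω := by
    simp only [ContinuousLinearMap.add_apply, hcΩ, add_zero]
  have hXn : ‖(Y + (c + star c)) T.Ω‖ ^ 2 = 2 := by
    rw [hXΩ, @norm_add_sq ℂ, hYn, hcn, horth Y hY]
    simp
    norm_num
  refine ⟨?_, hXn, ?_⟩
  · have h1 : ((Y + (c + star c)) - P * (Y + (c + star c)) * P) T.Ω =
        (Y - P * Y * P) T.Ω + (c T.Ω - P (c (P T.Ω))) := by
      have h2 : (star c) (P T.Ω) = 0 := hvan P hP
      simp only [ContinuousLinearMap.sub_apply, t08_mul,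
        ContinuousLinearMap.add_apply, map_add, hcΩ, h2, map_zero, add_zero]
      abel
    have h3 : ⟪(Y - P * Y * P) T.Ω, c T.Ω - P (c (P T.Ω))⟫_ℂ = 0 := by
      have hb : Y - P * Y * P ∈ Algebra.adjoin ℂ
        ({e} ∪ {x | ∃ i, i ∉ ({j} : Set I) ∧ x = l i + star (l i)} : Set (H →L[ℂ] H)) :=
        Subalgebra.sub_mem _ hY (Subalgebra.mul_mem _ (Subalgebra.mul_mem _ hP hY) hP)
      rw [inner_sub_right, horth _ hb, ← t08_sa P hPs]
      have h4 : P ((Y - P * Y * P) T.Ω) = (P * (Y - P * Y * P)) T.Ω := rfl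
      rw [h4, horth _ (Subalgebra.mul_mem _ hP hb), sub_zero]
    rw [h1, @norm_add_sq ℂ, h3]
    have h5 : ‖(Y - P * Y * P) T.Ω‖ ^ 2 ≤ ((1 + ‖P‖) * ‖(1 - P) * e‖) ^ 2 :=
      pow_le_pow_left₀ (norm_nonneg _) hU 2
    simp only [map_zero, mul_zero, add_zero]
    linarith
  · have h1 : ((P ^ 2 - P) * (Y + (c + star c)) * P) T.Ω =
        (P ^ 2 - P) (((Y + (c + star c)) * P) T.Ω) := rfl
    have hXM : Y + (c + star c) ∈ T.M := add_mem hYM hSM
    have hXs : star (Y + (c + star c)) = Y + (c + star c) := by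
      rw [star_add, star_add, star_star, hYs, add_comm (star c) c]
    rw [h1]
    refine (ContinuousLinearMap.le_opNorm _ _).trans (mul_le_mul_of_nonneg_left ?_ (norm_nonneg _))
    rw [t08_trace T _ (mul_mem hXM hPM), star_mul, hPs, hXs]
    refine (ContinuousLinearMap.le_opNorm P _).trans (mul_le_mul_of_nonneg_left ?_ (norm_nonneg _))
    exact Real.le_sqrt_of_sq_le hXn.le

/-- the data of the decomposition, from the relations -/
lemma t08_setup {T : TracialVN H} {N : ℕ} {Q : ℝ} {l : Letter N → (H →L[ℂ] H)} {e : H →L[ℂ] H}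
    (h : Rel T (1 / Q) l e) (hQ : 1 ≤ Q) (J : Finset (Fin N)) (hJ : 1 ≤ J.card)
    (X : Fin N → (H →L[ℂ] H)) (hX : X = Xof Q (gen l e)) :
    ∃ Z E : H →L[ℂ] H, Tpol Q J X = Z + E ∧ e * Z = Z ∧ Z * e = Z ∧ star Z = Z ∧ star E = E ∧
      ‖Z - e‖ ≤ 3 * (1 / √J.card) ∧ ‖E‖ ≤ 9 * (1 / √(J.card * Q)) := by
  have hQ0 : 0 < Q := by linarith
  have hqq : ((√Q : ℝ) : ℂ) * ((√Q : ℝ) : ℂ) = (Q : ℂ) := by
    rw [← Complex.ofReal_mul, Real.mul_self_sqrt hQ0.le]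
  have hqs : star (((√Q : ℝ) : ℂ)) = ((√Q : ℝ) : ℂ) := Complex.conj_ofReal _
  have hQi : (Q : ℂ) * ((1 / Q : ℝ) : ℂ) = 1 := by
    rw [← Complex.ofReal_mul, mul_one_div, div_self hQ0.ne', Complex.ofReal_one]
  -- the Y part
  have hXi : ∀ i, X i = (Q : ℂ) • (e * (l (0, i) + star (l (0, i))) * e) +
      (l (1, i) + star (l (1, i))) := fun i => by rw [hX]; rfl
  set m : Fin N → (H →L[ℂ] H) := fun i => ((√Q : ℝ) : ℂ) • (e * l (0, i) * e) with hm
  have hms : ∀ i, star (m i) = ((√Q : ℝ) : ℂ) • (e * star (l (0, i)) * e) := fun i => by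
    rw [hm]
    simp only
    rw [star_smul, hqs, star_mul, star_mul, h.e_sa, mul_assoc]
  have hmm : ∀ i j, star (m i) * m j = if i = j then e else 0 := fun i j => by
    rw [hms, hm]
    simp only
    rw [smul_mul_assoc, mul_smul_comm, smul_smul, hqq]
    have h1 : e * star (l (0, i)) * e * (e * l (0, j) * e) =
        e * (star (l (0, i)) * e * l (0, j)) * e := by
      have : e * star (l (0, i)) * e * (e * l (0, j) * e) =
        e * star (l (0, i)) * (e * e) * l (0, j) * e := by noncomm_ring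
      rw [this, h.e_idem]
      noncomm_ring
    rw [h1, h.lel]
    by_cases hij : i = j
    · rw [if_pos (by rw [hij]), if_pos hij, mul_smul_comm, smul_mul_assoc, mul_one, h.e_idem,
        smul_smul, hQi, one_smul]
    · rw [if_neg (fun hh => hij (congrArg Prod.snd hh)), if_neg hij, mul_zero, zero_mul, smul_zero]
  have hcc : ∀ i j : Fin N, star (l (1, i)) * l (1, j) = if i = j then 1 else 0 := fun i j => by
    rw [h.ll]
    by_cases hij : i = j
    · rw [if_pos (by rw [hij]), if_pos hij]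
    · rw [if_neg (fun hh => hij (congrArg Prod.snd hh)), if_neg hij]
  have hmc : ∀ i j : Fin N, star (m i) * l (1, j) = 0 := fun i j => by
    rw [hms, smul_mul_assoc, mul_assoc, mul_assoc, ← mul_assoc (star _), h.lel,
      if_neg (fun hh => absurd (congrArg Prod.fst hh : (0 : Fin 3) = 1) (by decide)), mul_zero,
      smul_zero]
  have hem : ∀ i, e * m i = m i := fun i => by
    rw [hm]
    simp only
    rw [mul_smul_comm, ← mul_assoc, ← mul_assoc, h.e_idem]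
  have hme : ∀ i, m i * e = m i := fun i => by
    rw [hm]
    simp only
    rw [smul_mul_assoc, mul_assoc, h.e_idem]
  have hcec : ∀ i : Fin N, star (l (1, i)) * e * l (1, i) = ((1 / Q : ℝ) : ℂ) • 1 := fun i => by
    rw [h.lel, if_pos rfl]
  have hXm : ∀ i, X i = ((√Q : ℝ) : ℂ) • (m i + star (m i)) + (l (1, i) + star (l (1, i))) :=
    fun i => by
      rw [hXi, hms, hm]
      simp only
      rw [mul_add, add_mul, smul_add, smul_add, smul_smul, smul_smul, hqq]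
  exact t08_decomp J hJ Q hQ m (fun i => l (1, i)) e hmm hcc hmc hem hme hcec h.e_idem h.e_sa X hXm

/-- norm of `e Ω` -/
lemma t08_eΩ {T : TracialVN H} {I : Type} [DecidableEq I] {Q : ℝ} {l : I → (H →L[ℂ] H)}
    {e : H →L[ℂ] H} (h : Rel T (1 / Q) l e) : ‖e T.Ω‖ ^ 2 = 1 / Q := by
  apply Complex.ofReal_injective
  rw [t08_norm_sq, t08_sa e h.e_sa]
  have h1 : e (e T.Ω) = (e * e) T.Ω := rfl
  rw [h1, h.e_idem]
  exact h.eΩ

/-- bound of `‖P Ω‖` -/
lemma t08_PΩ {T : TracialVN H} {I : Type} [DecidableEq I] {Q : ℝ} {l : I → (H →L[ℂ] H)}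
    {e : H →L[ℂ] H} (h : Rel T (1 / Q) l e) (hQ0 : 0 < Q) (Tt Z E : H →L[ℂ] H)
    (hT : Tt = Z + E) (hZe : Z * e = Z) (x y : ℝ) (hz : ‖Z - e‖ ≤ 3 * x) (hε : ‖E‖ ≤ 9 * y)
    (hx1 : x ≤ 1) (hyQ : y ≤ 1 / √Q) (hTg : ‖Tt * (6 - 8 * Tt + 3 * Tt ^ 2)‖ ≤ 8021) :
    ‖(psi Tt) T.Ω‖ ^ 2 ≤ 104273 ^ 2 / Q := by
  have hsQ : 0 < √Q := Real.sqrt_pos.mpr hQ0
  have heΩ' : ‖e T.Ω‖ ≤ 1 / √Q := by
    refine le_of_sq_le_sq ?_ (by positivity)
    rw [t08_eΩ h, div_pow, one_pow, Real.sq_sqrt hQ0.le]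
  have hZn : ‖Z‖ ≤ 4 := by
    have hen : ‖e‖ ≤ 1 := t08_norm_le_one e (by rw [h.e_sa, h.e_idem])
    have : Z = (Z - e) + e := by abel
    rw [this]
    refine (norm_add_le_of_le hz hen).trans (by linarith)
  have hTΩ : ‖Tt T.Ω‖ ≤ 13 * (1 / √Q) := by
    have h1 : Tt T.Ω = Z (e T.Ω) + E T.Ω := by
      rw [hT, ContinuousLinearMap.add_apply]
      congr 1
      conv_lhs => rw [← hZe]
      rfl
    have h2 : ‖Z (e T.Ω)‖ ≤ 4 * (1 / √Q) :=
      (ContinuousLinearMap.le_opNorm _ _).trans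
        (mul_le_mul hZn heΩ' (norm_nonneg _) (by norm_num))
    have h3 : ‖E T.Ω‖ ≤ 9 * y := by
      refine (ContinuousLinearMap.le_opNorm _ _).trans ?_
      rw [T.norm_Ω, mul_one]
      exact hε
    rw [h1]
    refine (norm_add_le_of_le h2 h3).trans ?_
    linarith
  have hPΩ : ‖(psi Tt) T.Ω‖ ≤ 104273 * (1 / √Q) := by
    have h1 : psi Tt = (Tt * (6 - 8 * Tt + 3 * Tt ^ 2)) * Tt := by
      rw [psi]
      noncomm_ring
    have h2 : (psi Tt) T.Ω = (Tt * (6 - 8 * Tt + 3 * Tt ^ 2) : H →L[ℂ] H) (Tt T.Ω) := by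
      rw [h1]
      rfl
    rw [h2]
    refine (ContinuousLinearMap.le_opNorm _ _).trans
      ((mul_le_mul hTg hTΩ (norm_nonneg _) (by norm_num)).trans ?_)
    linarith
  have h1 := pow_le_pow_left₀ (norm_nonneg _) hPΩ 2
  refine h1.trans (le_of_eq ?_)
  rw [mul_pow, div_pow, one_pow, Real.sq_sqrt hQ0.le]
  ring

/-- the `Y` part of `X_j` -/
lemma t08_Y {T : TracialVN H} {I : Type} [DecidableEq I] {Q : ℝ} {l : I → (H →L[ℂ] H)}
    {e : H →L[ℂ] H} (h : Rel T (1 / Q) l e) (hQ0 : 0 < Q) (i : I) (Y : H →L[ℂ] H)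
    (hY : Y = (Q : ℂ) • (e * (l i + star (l i)) * e)) :
    star Y = Y ∧ e * Y = Y ∧ ‖Y T.Ω‖ = 1 := by
  have hQi : (Q : ℂ) * ((1 / Q : ℝ) : ℂ) = 1 := by
    rw [← Complex.ofReal_mul, mul_one_div, div_self hQ0.ne', Complex.ofReal_one]
  refine ⟨?_, ?_, ?_⟩
  · have hQs : star (Q : ℂ) = (Q : ℂ) := Complex.conj_ofReal _
    rw [hY, star_smul, hQs, star_mul, star_mul, star_add, star_star, h.e_sa,
      add_comm (star (l i)), mul_assoc]
  · rw [hY, mul_smul_comm, ← mul_assoc, ← mul_assoc, h.e_idem]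
  · have hYΩ : Y T.Ω = (Q : ℂ) • (e (l i (e T.Ω))) := by
      rw [hY, mul_add, add_mul, smul_add, ContinuousLinearMap.add_apply,
        ContinuousLinearMap.smul_apply, ContinuousLinearMap.smul_apply]
      have h1 : (e * star (l i) * e) T.Ω = e ((star (l i)) (e T.Ω)) := rfl
      rw [h1, h.leΩ, map_zero, smul_zero, add_zero]
      rfl
    have h1 : ‖Y T.Ω‖ ^ 2 = 1 := by
      apply Complex.ofReal_injective
      rw [t08_norm_sq, hYΩ, inner_smul_left, inner_smul_right, t08_sa e h.e_sa, ← t08_ir]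
      have h2 : (star (l i)) (e (e (l i (e T.Ω)))) =
          (star (l i) * (e * e) * l i) (e T.Ω) := rfl
      rw [h2, h.e_idem, h.lel, if_pos rfl, ContinuousLinearMap.smul_apply,
        ContinuousLinearMap.one_apply, inner_smul_right, ← t08_norm_sq, t08_eΩ h,
        Complex.conj_ofReal]
      have h3 : (Q : ℂ) * ((Q : ℂ) * (((1 / Q : ℝ) : ℂ) * ((1 / Q : ℝ) : ℂ))) =
          ((Q : ℂ) * ((1 / Q : ℝ) : ℂ)) * ((Q : ℂ) * ((1 / Q : ℝ) : ℂ)) := by ring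
      rw [h3, hQi, mul_one, Complex.ofReal_one]
    exact (pow_eq_one_iff_of_nonneg (norm_nonneg _) two_ne_zero).mp h1

/-- real arithmetic for the third estimate -/
lemma t08_arith (x y : ℝ) (hx : 0 ≤ x) (hy : 0 ≤ y) (hx1 : x ≤ 1) (hy1 : y ≤ 1) :
    (4 * (3 * x + 9 * y) + 14 * (9 * y)) * (4 * (3 * x + 9 * y) ^ 2 + 196 * (9 * y)) ≤
      10 ^ 7 * (x ^ 3 + x * y + y ^ 2) := by
  have hxy : 0 ≤ x * y := mul_nonneg hx hy
  have h1 : x ^ 2 * y ≤ x * y := by nlinarith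
  have h2 : x * y ^ 2 ≤ x * y := by nlinarith
  have h3 : y ^ 3 ≤ y ^ 2 := by nlinarith [sq_nonneg y]
  have h4 : 0 ≤ x ^ 3 := by positivity
  have h5 : 0 ≤ y ^ 2 := by positivity
  nlinarith

lemma t08_bd2 (v n k Q x y : ℝ) (hQ : 0 < Q) (hv0 : 0 ≤ v) (hv : v ≤ 104273 ^ 2 / Q) (hn0 : 0 ≤ n)
    (hn : n ≤ 104273) (hk0 : 0 ≤ k) (hk : k ≤ 40 * ((3 * x) ^ 3 + 247 * (9 * y))) (hx : 0 ≤ x)
    (hy : 0 ≤ y) :
    1 + v ^ 2 + ((1 + n) * k) ^ 2 ≤ 1 + 10 ^ 24 / Q ^ 2 + 10 ^ 24 * (x ^ 3 + y) ^ 2 := by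
  have b1 : v ^ 2 ≤ 10 ^ 24 / Q ^ 2 := by
    refine (pow_le_pow_left₀ hv0 hv 2).trans ?_
    rw [div_pow]
    exact div_le_div_of_nonneg_right (by norm_num) (by positivity)
  have hx3 : 0 ≤ x ^ 3 := by positivity
  have b2 : (1 + n) * k ≤ 10 ^ 12 * (x ^ 3 + y) := by
    have h1 : 1 + n ≤ 104274 := by linarith
    refine (mul_le_mul h1 hk hk0 (by norm_num)).trans ?_
    nlinarith
  have b3 : ((1 + n) * k) ^ 2 ≤ 10 ^ 24 * (x ^ 3 + y) ^ 2 :=
    (pow_le_pow_left₀ (by positivity) b2 2).trans (le_of_eq (by ring))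
  linarith

lemma t08_bd3 (d n x y : ℝ) (hd : d ≤ 617 * 40 *
      ((4 * (3 * x + 9 * y) + 14 * (9 * y)) * (4 * (3 * x + 9 * y) ^ 2 + 196 * (9 * y))))
    (hn0 : 0 ≤ n) (hn : n ≤ 104273) (hx : 0 ≤ x) (hy : 0 ≤ y) (hx1 : x ≤ 1) (hy1 : y ≤ 1) :
    d * (n * √2) ≤ 10 ^ 24 * (x ^ 3 + x * y + y ^ 2) := by
  have b1 : d ≤ 617 * 40 * (10 ^ 7 * (x ^ 3 + x * y + y ^ 2)) :=
    hd.trans (mul_le_mul_of_nonneg_left (t08_arith x y hx hy hx1 hy1) (by norm_num))
  have b2 : n * √2 ≤ 104273 * 2 :=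
    mul_le_mul hn (Real.sqrt_le_iff.mpr ⟨by norm_num, by norm_num⟩) (Real.sqrt_nonneg _)
      (by norm_num)
  have hW : 0 ≤ x ^ 3 + x * y + y ^ 2 := by positivity
  refine (mul_le_mul b1 b2 (by positivity) (by positivity)).trans ?_
  nlinarith

/-- `P` and the `Y` part of `X_j` lie in the algebra without the letter `(1, j)` -/
lemma t08_PA {N : ℕ} {Q : ℝ} {l : Letter N → (H →L[ℂ] H)} {e : H →L[ℂ] H}
    (J : Finset (Fin N)) (X : Fin N → (H →L[ℂ] H))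
    (hXi : ∀ i, X i = (Q : ℂ) • (e * (l (0, i) + star (l (0, i))) * e) +
        (l (1, i) + star (l (1, i)))) (j : Fin N) (hj : j ∉ J) :
    psi (Tpol Q J X) ∈ Algebra.adjoin ℂ ({e} ∪ {x | ∃ i, i ∉ ({((1 : Fin 3), j)} : Set (Letter N)) ∧
      x = l i + star (l i)} : Set (H →L[ℂ] H)) ∧
    (Q : ℂ) • (e * (l (0, j) + star (l (0, j))) * e) ∈ Algebra.adjoin ℂ
      ({e} ∪ {x | ∃ i, i ∉ ({((1 : Fin 3), j)} : Set (Letter N)) ∧
        x = l i + star (l i)} : Set (H →L[ℂ] H)) := by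
  set 𝒜 := Algebra.adjoin ℂ ({e} ∪ {x | ∃ i, i ∉ ({((1 : Fin 3), j)} : Set (Letter N)) ∧
      x = l i + star (l i)} : Set (H →L[ℂ] H)) with h𝒜
  have heA : e ∈ 𝒜 := Algebra.subset_adjoin (Or.inl rfl)
  have hlA : ∀ i : Letter N, i ≠ (1, j) → l i + star (l i) ∈ 𝒜 := fun i hi =>
    Algebra.subset_adjoin (Or.inr ⟨i, hi, rfl⟩)
  have hYA : ∀ i, (Q : ℂ) • (e * (l (0, i) + star (l (0, i))) * e) ∈ 𝒜 := fun i =>
    Subalgebra.smul_mem _ (Subalgebra.mul_mem _ (Subalgebra.mul_mem _ heA (hlA _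
      (fun hh => absurd (congrArg Prod.fst hh : (0 : Fin 3) = 1) (by decide)))) heA) _
  have hXA : ∀ i ∈ J, X i ∈ 𝒜 := fun i hi => by
    rw [hXi]
    refine Subalgebra.add_mem _ (hYA i) (hlA _ ?_)
    intro hh
    have h1 : i = j := congrArg Prod.snd hh
    exact hj (h1 ▸ hi)
  have hTA : Tpol Q J X ∈ 𝒜 := by
    rw [Tpol]
    exact Subalgebra.smul_mem _ (Subalgebra.sub_mem _ (Subalgebra.sum_mem _ fun i hi =>
      Subalgebra.pow_mem _ (hXA i hi) 2) (Subalgebra.smul_mem _ (Subalgebra.one_mem _) _)) _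
  have h3 : ∀ n : ℕ, ((n : H →L[ℂ] H)) ∈ 𝒜 := fun n => natCast_mem _ n
  have h33 : (3 : H →L[ℂ] H) ∈ 𝒜 := h3 3
  have h36 : (6 : H →L[ℂ] H) ∈ 𝒜 := h3 6
  have h38 : (8 : H →L[ℂ] H) ∈ 𝒜 := h3 8
  refine ⟨?_, hYA j⟩
  rw [psi]
  exact Subalgebra.mul_mem _ (Subalgebra.pow_mem _ hTA 2) (Subalgebra.add_mem _
    (Subalgebra.sub_mem _ h36 (Subalgebra.mul_mem _ h38 hTA))
    (Subalgebra.mul_mem _ h33 (Subalgebra.pow_mem _ hTA 2)))

end t08

/-- T8. Operator estimates. `p = |J|`, `ζ = 1/√p`, `ε₀ = 1/√(p Q)`. -/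
theorem op_estimates : ∃ C : ℝ, 0 < C ∧
    ∀ {H : Type} [NormedAddCommGroup H] [InnerProductSpace ℂ H] [CompleteSpace H]
      (T : TracialVN H) (N : ℕ) (Q : ℝ) (l : Letter N → (H →L[ℂ] H)) (e : H →L[ℂ] H)
      (_ : Rel T (1 / Q) l e) (_ : 1 ≤ Q) (J : Finset (Fin N)) (_ : 1 ≤ J.card)
      (X : Fin N → (H →L[ℂ] H)) (_ : X = Xof Q (gen l e))
      (P : H →L[ℂ] H) (_ : P = psi (Tpol Q J X)),
      (T.τ (P ^ 2)).re ≤ C / Q ∧
      ∀ j ∉ J,
        ‖(X j - P * X j * P) T.Ω‖ ^ 2 ≤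
          1 + C / Q ^ 2 + C * (1 / √J.card ^ 3 + 1 / √(J.card * Q)) ^ 2 ∧
        ‖((P ^ 2 - P) * X j * P) T.Ω‖ ≤
          C * (1 / √J.card ^ 3 + 1 / √J.card * (1 / √(J.card * Q)) + 1 / (J.card * Q)) ∧
        ‖X j T.Ω‖ ^ 2 = 2 := by
  refine ⟨10 ^ 24, by norm_num, ?_⟩
  intro H _ _ _ T N Q l e h hQ J hJ X hX P hP
  have hQ0 : 0 < Q := by linarith
  have hp0 : (0 : ℝ) < J.card := by exact_mod_cast hJ
  have hp1 : (1 : ℝ) ≤ J.card := by exact_mod_cast hJ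
  obtain ⟨Z, E, hT, heZ, hZe, hZs, hEs, hz, hε⟩ := t08_setup h hQ J hJ X hX
  set x : ℝ := 1 / √J.card with hx
  set y : ℝ := 1 / √(J.card * Q) with hy
  have hsp : (1 : ℝ) ≤ √J.card := Real.one_le_sqrt.mpr hp1
  have hspQ : (1 : ℝ) ≤ √(J.card * Q) := Real.one_le_sqrt.mpr (by nlinarith)
  have hx0 : 0 ≤ x := by positivity
  have hy0 : 0 ≤ y := by positivity
  have hx1 : x ≤ 1 := by rw [hx, div_le_one (by linarith)]; exact hsp
  have hy1 : y ≤ 1 := by rw [hy, div_le_one (by linarith)]; exact hspQ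
  have hyQ : y ≤ 1 / √Q := by
    rw [hy]
    refine one_div_le_one_div_of_le (Real.sqrt_pos.mpr hQ0) (Real.sqrt_le_sqrt ?_)
    nlinarith
  obtain ⟨hPs, hTg, hPn, hPe, hPP⟩ := t08_abs e Z E (Tpol Q J X) hT heZ hZe hZs hEs h.e_idem h.e_sa
    (3 * x) (9 * y) hz hε (by linarith) (by linarith)
  have hPΩ2 := t08_PΩ h hQ0 (Tpol Q J X) Z E hT hZe x y hz hε hx1 hyQ hTg
  rw [← hP] at hPs hPn hPe hPP hPΩ2
  refine ⟨?_, fun j hj => ?_⟩
  · have h1 : T.τ (P ^ 2) = ((‖P T.Ω‖ ^ 2 : ℝ) : ℂ) := by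
      rw [t08_norm_sq, t08_sa P hPs, sq]
      rfl
    rw [h1, Complex.ofReal_re]
    refine hPΩ2.trans ?_
    exact div_le_div_of_nonneg_right (by norm_num) hQ0.le
  · have hXi : ∀ i, X i = (Q : ℂ) • (e * (l (0, i) + star (l (0, i))) * e) +
        (l (1, i) + star (l (1, i))) := fun i => by rw [hX]; rfl
    obtain ⟨hPA, hYA⟩ := t08_PA (Q := Q) (l := l) (e := e) J X hXi j hj
    rw [← hP] at hPA
    obtain ⟨hYs, heY, hYn⟩ := t08_Y h hQ0 (0, j) _ rfl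
    obtain ⟨g1, g2, g3⟩ := t08_vec h (1, j) P _ hPA hYA hPs hYs heY hYn
    rw [← hXi j] at g1 g2 g3
    have hx3 : 1 / √J.card ^ 3 = x ^ 3 := by rw [hx, div_pow, one_pow]
    have hy2 : 1 / (J.card * Q) = y ^ 2 := by
      rw [hy, div_pow, one_pow, Real.sq_sqrt (by positivity)]
    rw [hx3, hy2]
    exact ⟨g1.trans (t08_bd2 _ _ _ Q x y hQ0 (by positivity) hPΩ2 (norm_nonneg _) hPn
      (norm_nonneg _) hPe hx0 hy0),
      g3.trans (t08_bd3 _ _ x y hPP (norm_nonneg _) hPn hx0 hy0 hx1 hy1), g2⟩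

end P087
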