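import Vale.Agent.P087.FrobLemmas

open MeasureTheory Filter
open scoped ENNReal InnerProductSpace Matrix.Norms.L2Operator Matrix
noncomputable section
namespace P087

private lemma t9_frob_mono {m n : ℕ} {A B : Matrix (Fin m) (Fin n) ℂ}
    (h : ∀ i j, ‖A i j‖ ≤ ‖B i j‖) : frob A ≤ frob B := by
  unfold frob
  refine Real.sqrt_le_sqrt ?_
  exact Finset.sum_le_sum fun i _ => Finset.sum_le_sum fun j _ =>
    pow_le_pow_left₀ (norm_nonneg _) (h i j) 2

private def t9_abs {m n : ℕ} (A : Matrix (Fin m) (Fin n) ℂ) : Matrix (Fin m) (Fin n) ℂ :=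
  Matrix.of fun i j => ((‖A i j‖ : ℝ) : ℂ)

private lemma t9_frob_abs {m n : ℕ} (A : Matrix (Fin m) (Fin n) ℂ) : frob (t9_abs A) = frob A := by
  unfold frob t9_abs
  simp

private lemma t9_entry {k : ℕ} (M1 M2 M3 : Matrix (Fin k) (Fin k) ℂ)
    (h : ∀ i j, ‖M1 i j‖ ≤ ‖M2 i j‖ + 2 * ‖M3 i j‖ + 2 * ‖M3 j i‖) :
    frob M1 ≤ frob M2 + 4 * frob M3 := by
  have h1 : frob M1 ≤ frob ((t9_abs M2 + (2 : ℂ) • t9_abs M3) + (2 : ℂ) • (t9_abs M3)ᴴ) := by
    refine t9_frob_mono fun i j => (h i j).trans (le_of_eq ?_)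
    simp only [Matrix.add_apply, Matrix.smul_apply, Matrix.conjTranspose_apply, t9_abs,
      Matrix.of_apply, smul_eq_mul, Complex.star_def, Complex.conj_ofReal]
    have : (((‖M2 i j‖ : ℝ) : ℂ) + 2 * ((‖M3 i j‖ : ℝ) : ℂ) + 2 * ((‖M3 j i‖ : ℝ) : ℂ)) =
        ((‖M2 i j‖ + 2 * ‖M3 i j‖ + 2 * ‖M3 j i‖ : ℝ) : ℂ) := by push_cast; ring
    rw [this, Complex.norm_real, Real.norm_of_nonneg (by positivity)]
  refine h1.trans ((frob_add_le _ _).trans ?_)
  have h2 := frob_add_le (t9_abs M2) ((2 : ℂ) • t9_abs M3)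
  rw [frob_smul, t9_frob_abs, t9_frob_abs] at h2
  rw [frob_smul, frob_conjTranspose, t9_frob_abs]
  have h3 : ‖(2 : ℂ)‖ = 2 := by simp
  rw [h3]
  rw [h3] at h2
  linarith

private lemma t9_half {x y : ℝ} (hx : x < 1 / 2) :
    ‖(x : ℂ) * (y : ℂ)‖ ≤ 2 * ‖(((x ^ 2 - x) * y : ℝ) : ℂ)‖ := by
  rw [← Complex.ofReal_mul, Complex.norm_real, Complex.norm_real, Real.norm_eq_abs,
    Real.norm_eq_abs]
  have h1 : (x ^ 2 - x) * y = (x - 1) * (x * y) := by ring
  have h5 : (1 / 2 : ℝ) ≤ |x - 1| := by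
    rw [abs_of_neg (by linarith)]
    linarith
  rw [h1, abs_mul (x - 1)]
  nlinarith [abs_nonneg (x * y)]

private lemma t9_key {x y : ℝ} {ex ey : ℂ} (hx : ex = 1 ∨ (ex = 0 ∧ x < 1 / 2))
    (hy : ey = 1 ∨ (ey = 0 ∧ y < 1 / 2)) :
    ‖(1 - ex * ey : ℂ)‖ ≤ ‖(1 - (x : ℂ) * (y : ℂ))‖ +
      2 * ‖(((x ^ 2 - x) * y : ℝ) : ℂ)‖ + 2 * ‖(((y ^ 2 - y) * x : ℝ) : ℂ)‖ := by
  have y1 : ‖(1 : ℂ)‖ ≤ ‖(1 - (x : ℂ) * (y : ℂ))‖ + ‖(x : ℂ) * (y : ℂ)‖ := by
    have := norm_add_le (1 - (x : ℂ) * (y : ℂ)) ((x : ℂ) * (y : ℂ))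
    simpa using this
  have z1 : 0 ≤ ‖(((x ^ 2 - x) * y : ℝ) : ℂ)‖ := norm_nonneg _
  have z2 : 0 ≤ ‖(((y ^ 2 - y) * x : ℝ) : ℂ)‖ := norm_nonneg _
  have z3 : 0 ≤ ‖(1 - (x : ℂ) * (y : ℂ))‖ := norm_nonneg _
  rcases hx with hx | ⟨hx, hx2⟩
  · rcases hy with hy | ⟨hy, hy2⟩
    · rw [hx, hy, mul_one, sub_self, norm_zero]
      linarith
    · rw [hx, hy, mul_zero, sub_zero]
      have := t9_half (y := x) hy2
      rw [mul_comm (y : ℂ)] at this
      linarith
  · rw [hx, zero_mul, sub_zero]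
    have := t9_half (y := y) hx2
    linarith

private lemma t9_M {k : ℕ} (a : Matrix (Fin k) (Fin k) ℂ) (e : Fin k → ℂ) (p : Fin k → ℝ)
    (D : Matrix (Fin k) (Fin k) ℂ) (hD : D = Matrix.diagonal (fun i => (p i : ℂ)))
    (haH : ∀ i j, ‖a i j‖ = ‖a j i‖)
    (hep : ∀ i, e i = 1 ∨ (e i = 0 ∧ p i < 1 / 2)) :
    frob (a - Matrix.diagonal e * a * Matrix.diagonal e) ≤
      frob (a - D * a * D) + 4 * frob ((D * D - D) * a * D) := by
  refine t9_entry _ _ _ fun i j => ?_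
  have x1 : (a - Matrix.diagonal e * a * Matrix.diagonal e) i j = a i j * (1 - e i * e j) := by
    rw [Matrix.sub_apply, Matrix.mul_diagonal, Matrix.diagonal_mul]
    ring
  have x2 : (a - D * a * D) i j = a i j * (1 - (p i : ℂ) * (p j : ℂ)) := by
    rw [Matrix.sub_apply, hD, Matrix.mul_diagonal, Matrix.diagonal_mul]
    ring
  have x3 : ∀ i j, ((D * D - D) * a * D) i j =
      a i j * ((((p i) ^ 2 - p i) * p j : ℝ) : ℂ) := by
    intro i j
    have : D * D - D = Matrix.diagonal (fun i => (((p i) ^ 2 - p i : ℝ) : ℂ)) := by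
      rw [hD, Matrix.diagonal_mul_diagonal, Matrix.diagonal_sub]
      congr 1
      ext i
      push_cast
      ring
    rw [this, hD, Matrix.mul_diagonal, Matrix.diagonal_mul]
    push_cast
    ring
  rw [x1, x2, x3 i j, x3 j i, norm_mul, norm_mul, norm_mul, norm_mul, haH j i]
  have := mul_le_mul_of_nonneg_left (t9_key (hep i) (hep j)) (norm_nonneg (a i j))
  linarith

/-- T9. -/
theorem exists_compression {k r : ℕ} (Tm : Matrix (Fin k) (Fin k) ℂ) (hT : Tm.IsHermitian)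
    (hr : 4 * ((psi Tm) ^ 2).trace.re ≤ r) :
    ∃ V : Matrix (Fin k) (Fin r) ℂ, ‖V‖ ≤ 1 ∧
      ∀ A : Matrix (Fin k) (Fin k) ℂ, A.IsHermitian →
        ∃ B : Matrix (Fin r) (Fin r) ℂ, B.IsHermitian ∧ frob B ≤ frob A ∧
          frob (A - V * B * Vᴴ) ≤ frob (A - psi Tm * A * psi Tm) +
            4 * frob ((psi Tm ^ 2 - psi Tm) * A * psi Tm) := by
  classical
  set u : Matrix (Fin k) (Fin k) ℂ := (hT.eigenvectorUnitary : Matrix (Fin k) (Fin k) ℂ) with hu
  have hu1 : uᴴ * u = 1 := by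
    have := (Unitary.mem_iff.1 hT.eigenvectorUnitary.2).1
    simpa [Matrix.star_eq_conjTranspose] using this
  have hu2 : u * uᴴ = 1 := by
    have := (Unitary.mem_iff.1 hT.eigenvectorUnitary.2).2
    simpa [Matrix.star_eq_conjTranspose] using this
  set p : Fin k → ℝ := fun i => psi (hT.eigenvalues i) with hp
  set D : Matrix (Fin k) (Fin k) ℂ := Matrix.diagonal (fun i => (p i : ℂ)) with hD
  have hpsi : psi Tm = u * D * uᴴ := by
    have h1 := hT.spectral_theorem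
    have h2 : psi Tm = Unitary.conjStarAlgAut ℂ _ hT.eigenvectorUnitary
        (psi (Matrix.diagonal (RCLike.ofReal ∘ hT.eigenvalues) : Matrix (Fin k) (Fin k) ℂ)) := by
      conv_lhs => rw [h1]
      unfold psi
      simp only [map_mul, map_add, map_sub, map_pow, map_ofNat]
    have h3 : psi (Matrix.diagonal (RCLike.ofReal ∘ hT.eigenvalues) : Matrix (Fin k) (Fin k) ℂ)
        = D := by
      have h6 : (6 : Matrix (Fin k) (Fin k) ℂ) = Matrix.diagonal (fun _ => (6 : ℂ)) := by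
        rw [← Matrix.diagonal_ofNat]
      have h8 : (8 : Matrix (Fin k) (Fin k) ℂ) = Matrix.diagonal (fun _ => (8 : ℂ)) := by
        rw [← Matrix.diagonal_ofNat]
      have h33 : (3 : Matrix (Fin k) (Fin k) ℂ) = Matrix.diagonal (fun _ => (3 : ℂ)) := by
        rw [← Matrix.diagonal_ofNat]
      unfold psi
      rw [h6, h8, h33, Matrix.diagonal_pow]
      simp only [Matrix.diagonal_mul_diagonal, Matrix.diagonal_sub, Matrix.diagonal_add, hD, hp,
        psi]
      congr 1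
      ext i
      simp
    rw [h2, h3, Unitary.conjStarAlgAut_apply]
    rfl
  have hDH : Dᴴ = D := by
    rw [hD, Matrix.diagonal_conjTranspose]
    congr 1
    ext i
    simp
  have hunorm : ‖u‖ ≤ 1 := by
    have h1 : ‖uᴴ * u‖ = ‖u‖ * ‖u‖ := Matrix.l2_opNorm_conjTranspose_mul_self u
    rw [hu1] at h1
    have h2 : ‖(1 : Matrix (Fin k) (Fin k) ℂ)‖ ≤ 1 := by
      rw [← Matrix.diagonal_one, Matrix.l2_opNorm_diagonal]
      refine (pi_norm_le_iff_of_nonneg zero_le_one).2 fun i => by simp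
    nlinarith [norm_nonneg u]
  have hunorm' : ‖uᴴ‖ ≤ 1 := by rwa [l2_norm_conjTranspose]
  have hsq : psi Tm ^ 2 = u * (D * D) * uᴴ := by
    rw [hpsi, sq]
    calc u * D * uᴴ * (u * D * uᴴ) = u * D * (uᴴ * u) * D * uᴴ := by
          simp only [Matrix.mul_assoc]
      _ = u * (D * D) * uᴴ := by rw [hu1, Matrix.mul_one]; simp only [Matrix.mul_assoc]
  have htr : ((psi Tm) ^ 2).trace.re = ∑ i, p i ^ 2 := by
    rw [hsq, Matrix.trace_mul_comm, ← Matrix.mul_assoc, hu1, Matrix.one_mul, hD,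
      Matrix.diagonal_mul_diagonal, Matrix.trace_diagonal]
    simp [sq]
  set E : Finset (Fin k) := Finset.univ.filter fun i => (1 / 2 : ℝ) ≤ p i with hE
  have hcard : E.card ≤ r := by
    have h1 : (E.card : ℝ) * (1 / 4) ≤ ∑ i, p i ^ 2 := by
      calc (E.card : ℝ) * (1 / 4) = ∑ i ∈ E, (1 / 4 : ℝ) := by simp
        _ ≤ ∑ i ∈ E, p i ^ 2 := by
          refine Finset.sum_le_sum fun i hi => ?_
          have : (1 / 2 : ℝ) ≤ p i := (Finset.mem_filter.1 hi).2
          nlinarith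
        _ ≤ ∑ i, p i ^ 2 := Finset.sum_le_sum_of_subset_of_nonneg (Finset.filter_subset _ _)
          (fun i _ _ => sq_nonneg _)
    have h2 : (E.card : ℝ) ≤ r := by
      rw [htr] at hr
      linarith
    exact_mod_cast h2
  obtain ⟨φ⟩ : Nonempty ({i // i ∈ E} ↪ Fin r) := by
    apply Function.Embedding.nonempty_of_card_le
    simpa using hcard
  set W : Matrix (Fin k) (Fin r) ℂ := Matrix.of fun i a =>
    if h : i ∈ E then (if φ ⟨i, h⟩ = a then (1 : ℂ) else 0) else 0 with hW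
  set e : Fin k → ℂ := fun i => if i ∈ E then 1 else 0 with he
  have hWW : W * Wᴴ = Matrix.diagonal e := by
    ext i j
    rw [Matrix.mul_apply]
    simp only [Matrix.conjTranspose_apply, hW, Matrix.of_apply]
    by_cases hi : i ∈ E
    · by_cases hj : j ∈ E
      · simp only [hi, hj, dif_pos]
        by_cases hij : i = j
        · subst hij
          rw [Matrix.diagonal_apply_eq]
          simp [he, hi]
        · rw [Matrix.diagonal_apply_ne _ hij]
          have : φ ⟨i, hi⟩ ≠ φ ⟨j, hj⟩ := by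
            intro h
            exact hij (congrArg Subtype.val (φ.injective h))
          simp [hij]
      · have hij : i ≠ j := fun h => hj (h ▸ hi)
        rw [Matrix.diagonal_apply_ne _ hij]
        simp [hj]
    · by_cases hij : i = j
      · subst hij
        rw [Matrix.diagonal_apply_eq]
        simp [he, hi]
      · rw [Matrix.diagonal_apply_ne _ hij]
        simp [hi]
  have hWnorm : ‖W‖ ≤ 1 := by
    have h1 : ‖Wᴴᴴ * Wᴴ‖ = ‖Wᴴ‖ * ‖Wᴴ‖ := Matrix.l2_opNorm_conjTranspose_mul_self Wᴴ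
    rw [Matrix.conjTranspose_conjTranspose, hWW, l2_norm_conjTranspose,
      Matrix.l2_opNorm_diagonal] at h1
    have h2 : ‖e‖ ≤ 1 := by
      refine (pi_norm_le_iff_of_nonneg zero_le_one).2 fun i => ?_
      simp only [he]
      split_ifs <;> simp
    nlinarith [norm_nonneg W]
  have hVnorm : ‖u * W‖ ≤ 1 := by
    calc ‖u * W‖ ≤ ‖u‖ * ‖W‖ := Matrix.l2_opNorm_mul _ _
      _ ≤ 1 * 1 := mul_le_mul hunorm hWnorm (norm_nonneg _) zero_le_one
      _ = 1 := one_mul 1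
  have hVnorm' : ‖(u * W)ᴴ‖ ≤ 1 := by rwa [l2_norm_conjTranspose]
  refine ⟨u * W, hVnorm, fun A hA => ⟨(u * W)ᴴ * A * (u * W), ?_, ?_, ?_⟩⟩
  · exact Matrix.isHermitian_conjTranspose_mul_mul _ hA
  · calc frob ((u * W)ᴴ * A * (u * W)) ≤ frob ((u * W)ᴴ * A) * ‖u * W‖ := frob_mul_le' _ _
      _ ≤ frob ((u * W)ᴴ * A) := mul_le_of_le_one_right (frob_nonneg _) hVnorm
      _ ≤ ‖(u * W)ᴴ‖ * frob A := frob_mul_le _ _
      _ ≤ frob A := mul_le_of_le_one_left (frob_nonneg _) hVnorm'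
  · set a : Matrix (Fin k) (Fin k) ℂ := uᴴ * A * u with ha
    set M1 : Matrix (Fin k) (Fin k) ℂ := a - Matrix.diagonal e * a * Matrix.diagonal e with hM1
    set M2 : Matrix (Fin k) (Fin k) ℂ := a - D * a * D with hM2
    set M3 : Matrix (Fin k) (Fin k) ℂ := (D * D - D) * a * D with hM3
    have hAa : A = u * a * uᴴ := by
      rw [ha]
      calc A = (u * uᴴ) * A * (u * uᴴ) := by rw [hu2]; simp
        _ = u * (uᴴ * A * u) * uᴴ := by simp only [Matrix.mul_assoc]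
    have e1 : A - u * W * ((u * W)ᴴ * A * (u * W)) * (u * W)ᴴ = u * M1 * uᴴ := by
      have : u * W * ((u * W)ᴴ * A * (u * W)) * (u * W)ᴴ
          = u * (W * Wᴴ) * (uᴴ * A * u) * (W * Wᴴ) * uᴴ := by
        simp only [Matrix.conjTranspose_mul, Matrix.mul_assoc]
      rw [this, hWW, ← ha, hM1, Matrix.mul_sub, Matrix.sub_mul, ← hAa]
      simp only [Matrix.mul_assoc]
    have e2 : M2 = uᴴ * (A - psi Tm * A * psi Tm) * u := by
      rw [hM2, hpsi, Matrix.mul_sub, Matrix.sub_mul, ← ha]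
      congr 1
      calc D * a * D = (uᴴ * u) * D * (uᴴ * A * u) * D * (uᴴ * u) := by
            rw [hu1, ← ha]; simp
        _ = uᴴ * (u * D * uᴴ * A * (u * D * uᴴ)) * u := by simp only [Matrix.mul_assoc]
    have e3 : M3 = uᴴ * ((psi Tm ^ 2 - psi Tm) * A * psi Tm) * u := by
      rw [hM3, hsq, hpsi]
      have : u * (D * D) * uᴴ - u * D * uᴴ = u * (D * D - D) * uᴴ := by
        rw [Matrix.mul_sub, Matrix.sub_mul]
      rw [this]
      calc (D * D - D) * a * D = (uᴴ * u) * (D * D - D) * (uᴴ * A * u) * D * (uᴴ * u) := by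
            rw [hu1, ← ha]; simp
        _ = uᴴ * (u * (D * D - D) * uᴴ * A * (u * D * uᴴ)) * u := by
          simp only [Matrix.mul_assoc]
    have f1 : frob (A - u * W * ((u * W)ᴴ * A * (u * W)) * (u * W)ᴴ) ≤ frob M1 := by
      rw [e1]
      exact frob_conj_le u hunorm M1
    have f2 : frob M2 ≤ frob (A - psi Tm * A * psi Tm) := by
      rw [e2]
      have := frob_conj_le uᴴ hunorm' (A - psi Tm * A * psi Tm)
      rwa [Matrix.conjTranspose_conjTranspose] at this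
    have f3 : frob M3 ≤ frob ((psi Tm ^ 2 - psi Tm) * A * psi Tm) := by
      rw [e3]
      have := frob_conj_le uᴴ hunorm' ((psi Tm ^ 2 - psi Tm) * A * psi Tm)
      rwa [Matrix.conjTranspose_conjTranspose] at this
    have haH : ∀ i j, ‖a i j‖ = ‖a j i‖ := by
      intro i j
      have h1 : aᴴ = a := Matrix.isHermitian_conjTranspose_mul_mul u hA
      have h2 : a i j = star (a j i) := by
        conv_lhs => rw [← h1]
        rw [Matrix.conjTranspose_apply]
      rw [h2, norm_star]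
    have hm : frob M1 ≤ frob M2 + 4 * frob M3 := by
      refine t9_M a e p D hD haH fun i => ?_
      by_cases hi : i ∈ E
      · left
        simp [he, hi]
      · right
        refine ⟨by simp [he, hi], ?_⟩
        by_contra h
        exact hi (Finset.mem_filter.2 ⟨Finset.mem_univ _, not_lt.1 h⟩)
    linarith

end P087
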