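import Vale.Agent.P087.FrobLemmas
import Vale.Agent.P087.T10ab

open MeasureTheory Filter
open scoped ENNReal InnerProductSpace Matrix.Norms.L2Operator Matrix
noncomputable section
namespace P087

private lemma t10_diff {k r : ℕ} (V V' : Matrix (Fin k) (Fin r) ℂ) (b b' : Matrix (Fin r) (Fin r) ℂ)
    {s δ : ℝ} (hs : 0 ≤ s) (hδ : 0 ≤ δ)
    (hV : ‖V‖ ≤ 1) (hV' : ‖V'‖ ≤ 1) (hVV : ‖V - V'‖ ≤ δ) (hb : frob b ≤ s)
    (hbb : frob (b - b') ≤ s * δ) :
    frob (V * b * Vᴴ - V' * b' * V'ᴴ) ≤ 3 * (s * δ) := by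
  have e : V * b * Vᴴ - V' * b' * V'ᴴ =
      (V - V') * b * Vᴴ + V' * b * (V - V')ᴴ + V' * (b - b') * V'ᴴ := by
    rw [Matrix.conjTranspose_sub]
    simp only [Matrix.mul_sub, Matrix.sub_mul]
    abel
  have hVs : ‖Vᴴ‖ ≤ 1 := by rwa [l2_norm_conjTranspose]
  have hVVs : ‖(V - V')ᴴ‖ ≤ δ := by rwa [l2_norm_conjTranspose]
  have h1 : frob ((V - V') * b * Vᴴ) ≤ s * δ := by
    calc frob ((V - V') * b * Vᴴ) ≤ frob ((V - V') * b) * ‖Vᴴ‖ := frob_mul_le' _ _
      _ ≤ frob ((V - V') * b) := mul_le_of_le_one_right (frob_nonneg _) hVs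
      _ ≤ ‖V - V'‖ * frob b := frob_mul_le _ _
      _ ≤ δ * s := mul_le_mul hVV hb (frob_nonneg _) hδ
      _ = s * δ := mul_comm _ _
  have h2 : frob (V' * b * (V - V')ᴴ) ≤ s * δ := by
    calc frob (V' * b * (V - V')ᴴ) ≤ frob (V' * b) * ‖(V - V')ᴴ‖ := frob_mul_le' _ _
      _ ≤ s * δ := by
        refine mul_le_mul ?_ hVVs (norm_nonneg _) hs
        calc frob (V' * b) ≤ ‖V'‖ * frob b := frob_mul_le _ _
          _ ≤ frob b := mul_le_of_le_one_left (frob_nonneg _) hV'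
          _ ≤ s := hb
  have h3 : frob (V' * (b - b') * V'ᴴ) ≤ s * δ := (frob_conj_le V' hV' _).trans hbb
  rw [e]
  have h4 := frob_add_le ((V - V') * b * Vᴴ + V' * b * (V - V')ᴴ) (V' * (b - b') * V'ᴴ)
  have h5 := frob_add_le ((V - V') * b * Vᴴ) (V' * b * (V - V')ᴴ)
  linarith

private lemma t10_herm {r : ℕ} (y : EuclideanSpace ℝ (Fin r × Fin r)) :
    frob (herm fun a b => y (a, b)) = ‖y‖ := by
  have h1 := frob_herm_sq (fun a b => y (a, b))
  rw [EuclideanSpace.norm_eq, Fintype.sum_prod_type, ← Real.sqrt_sq (frob_nonneg _), h1]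
  congr 1
  refine Finset.sum_congr rfl fun a _ => Finset.sum_congr rfl fun b _ => ?_
  rw [Real.norm_eq_abs, sq_abs]

theorem volume_cover_le {N k r : ℕ} (hN : 1 ≤ N) (hk : 1 ≤ k) (h : Fin N → Fin 2)
    (K : Set (Fin N → Fin k → Fin k → ℝ)) {ρ δ : ℝ} (hρ : 0 ≤ ρ) (hδ : 0 < δ) (hδ1 : δ ≤ 1)
    (hK : ∀ x ∈ K, ∃ V : Fin 2 → Matrix (Fin k) (Fin r) ℂ, (∀ a, ‖V a‖ ≤ 1) ∧
      ∃ b : Fin N → Matrix (Fin r) (Fin r) ℂ, (∀ i, (b i).IsHermitian ∧ frob (b i) ^ 2 ≤ 4 * k) ∧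
        ∀ i, frob (herm (x i) - V (h i) * b i * (V (h i))ᴴ) ^ 2 ≤ k * ρ ^ 2) :
    volume K ≤ ENNReal.ofReal
      ((1 + 4 / δ) ^ (4 * k * r + N * r ^ 2) *
        (2 * Real.pi * Real.exp 1 * (ρ + 5 * δ) ^ 2 / k) ^ ((N : ℝ) * k ^ 2 / 2)) := by
  classical
  have hk0 : (0 : ℝ) < k := by exact_mod_cast hk
  have hN0 : (0 : ℝ) < N := by exact_mod_cast hN
  have hδ2 : 0 < δ / 2 := half_pos hδ
  set s : ℝ := 2 * √k with hs
  have hs0 : 0 < s := by positivity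
  obtain ⟨FV, hFV1, hFV2, hFV3⟩ := exists_net (E := Fin 2 → Matrix (Fin k) (Fin r) ℂ) hδ2
  obtain ⟨FB, hFB1, hFB2, hFB3⟩ := exists_net (E := Fin N → EuclideanSpace ℝ (Fin r × Fin r)) hδ2
  have dV : Module.finrank ℝ (Fin 2 → Matrix (Fin k) (Fin r) ℂ) = 4 * k * r := by
    rw [finrank_real_of_complex, Module.finrank_pi_fintype]
    simp only [Module.finrank_matrix, Module.finrank_self, Fintype.card_fin, Finset.sum_const,
      Finset.card_univ, smul_eq_mul]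
    ring
  have dB : Module.finrank ℝ (Fin N → EuclideanSpace ℝ (Fin r × Fin r)) = N * r ^ 2 := by
    rw [Module.finrank_pi_fintype]
    simp only [finrank_euclideanSpace, Fintype.card_prod, Fintype.card_fin, Finset.sum_const,
      Finset.card_univ, smul_eq_mul]
    ring
  have hcen : ∀ q : (Fin 2 → Matrix (Fin k) (Fin r) ℂ) × (Fin N → EuclideanSpace ℝ (Fin r × Fin r)),
      ∃ c : Fin N → Fin k → Fin k → ℝ, ∀ i, herm (c i) =
        q.1 (h i) * herm (fun a b => (s • q.2 i) (a, b)) * (q.1 (h i))ᴴ := by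
    intro q
    have : ∀ i, ∃ c : Fin k → Fin k → ℝ, herm c =
        q.1 (h i) * herm (fun a b => (s • q.2 i) (a, b)) * (q.1 (h i))ᴴ := by
      intro i
      apply exists_herm
      exact Matrix.isHermitian_mul_mul_conjTranspose _ (isHermitian_herm _)
    choose c hc using this
    exact ⟨c, hc⟩
  choose c hc using hcen
  set R2 : ℝ := N * k * (ρ + 5 * δ) ^ 2 with hR2
  have hR20 : 0 < R2 := by positivity
  have hcov : K ⊆ ⋃ q ∈ FV ×ˢ FB,
      {x : Fin N → Fin k → Fin k → ℝ | ∑ i, ∑ a, ∑ b, (x i a b - c q i a b) ^ 2 ≤ R2} := by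
    intro x hx
    obtain ⟨V, hV, b, hb, hVb⟩ := hK x hx
    obtain ⟨V', hV'F, hV'⟩ := hFV2 V ((pi_norm_le_iff_of_nonneg zero_le_one).2 hV)
    have hyy : ∀ i, ∃ y : EuclideanSpace ℝ (Fin r × Fin r),
        herm (fun a b => (s • y) (a, b)) = b i := by
      intro i
      obtain ⟨y0, hy0⟩ := exists_herm (hb i).1
      refine ⟨s⁻¹ • WithLp.toLp 2 (fun q => y0 q.1 q.2), ?_⟩
      rw [smul_smul, mul_inv_cancel₀ hs0.ne', one_smul]
      exact hy0
    choose y hy using hyy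
    have hbs : ∀ i, frob (b i) ≤ s := by
      intro i
      refine abs_le_of_sq_le_sq' ?_ hs0.le |>.2
      rw [hs, mul_pow, Real.sq_sqrt hk0.le]
      refine (hb i).2.trans (le_of_eq ?_)
      norm_num
    have hy1 : ∀ i, ‖y i‖ ≤ 1 := by
      intro i
      have h1 := hbs i
      rw [← hy i, t10_herm, norm_smul, Real.norm_of_nonneg hs0.le] at h1
      nlinarith
    obtain ⟨y', hy'F, hy'⟩ := hFB2 y ((pi_norm_le_iff_of_nonneg zero_le_one).2 hy1)
    rw [Set.mem_iUnion₂]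
    refine ⟨(V', y'), Finset.mem_product.2 ⟨hV'F, hy'F⟩, ?_⟩
    show ∑ i, ∑ a, ∑ b, (x i a b - c (V', y') i a b) ^ 2 ≤ R2
    have hi : ∀ i, ∑ a, ∑ b, (x i a b - c (V', y') i a b) ^ 2 ≤ k * (ρ + 5 * δ) ^ 2 := by
      intro i
      have h1 := frob_herm_sq (x i - c (V', y') i)
      have h2 : ∑ a, ∑ b, (x i a b - c (V', y') i a b) ^ 2 =
        ∑ a, ∑ b, ((x i - c (V', y') i) a b) ^ 2 := rfl
      rw [h2, ← h1, herm_sub, hc]
      have h3 := t10_diff (V (h i)) (V' (h i)) (b i) (herm (fun a b => (s • y' i) (a, b)))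
        hs0.le hδ2.le (hV _) ((pi_norm_le_iff_of_nonneg zero_le_one).1 (hFV1 _ hV'F) _)
        ((norm_le_pi_norm (V - V') (h i)).trans hV') (hbs i) (by
          rw [← hy i, ← herm_sub]
          have h4 : ((fun a b => (s • y i) (a, b)) - fun a b => (s • y' i) (a, b)) =
              fun a b => (s • (y i - y' i)) (a, b) := by
            funext a b
            rw [smul_sub]
            rfl
          rw [h4, t10_herm, norm_smul, Real.norm_of_nonneg hs0.le]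
          exact mul_le_mul_of_nonneg_left ((norm_le_pi_norm (y - y') i).trans hy') hs0.le)
      have h5 := frob_sub_le_add (herm (x i)) (V (h i) * b i * (V (h i))ᴴ)
        (V' (h i) * herm (fun a b => (s • y' i) (a, b)) * (V' (h i))ᴴ)
      have h6 : frob (herm (x i) - V (h i) * b i * (V (h i))ᴴ) ≤ √k * ρ := by
        refine abs_le_of_sq_le_sq' ?_ (by positivity) |>.2
        rw [mul_pow, Real.sq_sqrt hk0.le]
        exact hVb i
      have h7 : frob (herm (x i) - V' (h i) * herm (fun a b => (s • y' i) (a, b)) *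
          (V' (h i))ᴴ) ≤ √k * (ρ + 5 * δ) := by
        have : 3 * (s * (δ / 2)) = 3 * √k * δ := by rw [hs]; ring
        rw [this] at h3
        have h8 : 0 ≤ √(k : ℝ) * δ := by positivity
        nlinarith
      calc _ ≤ (√k * (ρ + 5 * δ)) ^ 2 := pow_le_pow_left₀ (frob_nonneg _) h7 2
        _ = k * (ρ + 5 * δ) ^ 2 := by rw [mul_pow, Real.sq_sqrt hk0.le]
    calc ∑ i, ∑ a, ∑ b, (x i a b - c (V', y') i a b) ^ 2 ≤ ∑ _i : Fin N, k * (ρ + 5 * δ) ^ 2 :=
          Finset.sum_le_sum fun i _ => hi i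
      _ = R2 := by
        rw [Finset.sum_const, Finset.card_univ, Fintype.card_fin, nsmul_eq_mul, hR2]
        ring
  set W : ℝ := (2 * Real.pi * Real.exp 1 * (ρ + 5 * δ) ^ 2 / k) ^ ((N : ℝ) * k ^ 2 / 2) with hW
  have hW0 : 0 ≤ W := by positivity
  have hball : ∀ q, volume {x : Fin N → Fin k → Fin k → ℝ |
      ∑ i, ∑ a, ∑ b, (x i a b - c q i a b) ^ 2 ≤ R2} ≤ ENNReal.ofReal W := by
    intro q
    refine (volume_ball_le hN hk (c q) hR20).trans (le_of_eq ?_)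
    congr 1
    rw [hW]
    congr 1
    rw [hR2]
    field_simp
  have hcard : ((FV ×ˢ FB).card : ℝ) ≤ (1 + 4 / δ) ^ (4 * k * r + N * r ^ 2) := by
    rw [Finset.card_product, Nat.cast_mul, pow_add]
    have e1 : 1 + 2 / (δ / 2) = 1 + 4 / δ := by
      congr 1
      field_simp
      norm_num
    rw [e1, dV] at hFV3
    rw [e1, dB] at hFB3
    exact mul_le_mul hFV3 hFB3 (Nat.cast_nonneg _) (by positivity)
  calc volume K ≤ volume (⋃ q ∈ FV ×ˢ FB,
      {x : Fin N → Fin k → Fin k → ℝ | ∑ i, ∑ a, ∑ b, (x i a b - c q i a b) ^ 2 ≤ R2}) :=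
        measure_mono hcov
    _ ≤ ∑ q ∈ FV ×ˢ FB, volume {x : Fin N → Fin k → Fin k → ℝ |
        ∑ i, ∑ a, ∑ b, (x i a b - c q i a b) ^ 2 ≤ R2} := measure_biUnion_finset_le _ _
    _ ≤ ∑ _q ∈ FV ×ˢ FB, ENNReal.ofReal W := Finset.sum_le_sum fun q _ => hball q
    _ = ENNReal.ofReal ((FV ×ˢ FB).card * W) := by
        rw [Finset.sum_const, nsmul_eq_mul, ENNReal.ofReal_mul (Nat.cast_nonneg _),
          ENNReal.ofReal_natCast]
    _ ≤ _ := ENNReal.ofReal_le_ofReal (mul_le_mul_of_nonneg_right hcard hW0)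

end P087
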