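import Vale.Agent.P087.Basic

open MeasureTheory Filter
open scoped ENNReal
noncomputable section
namespace P087

private lemma t10a_card {E : Type} [NormedAddCommGroup E] [NormedSpace ℝ E]
    [FiniteDimensional ℝ E] {δ : ℝ} (hδ : 0 < δ) (F : Finset E) (hF1 : ∀ x ∈ F, ‖x‖ ≤ 1)
    (hF2 : ∀ x ∈ F, ∀ y ∈ F, x ≠ y → δ < ‖x - y‖) :
    (F.card : ℝ) ≤ (1 + 2 / δ) ^ (Module.finrank ℝ E) := by
  let _ : MeasurableSpace E := borel E
  have _ : BorelSpace E := ⟨rfl⟩
  let μ : Measure E := Measure.addHaar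
  have hδ2 : 0 < δ / 2 := half_pos hδ
  set D := Module.finrank ℝ E with hD
  have h1 : ∑ x ∈ F, μ (Metric.ball x (δ / 2)) ≤ μ (Metric.ball (0 : E) (1 + δ / 2)) := by
    rw [← measure_biUnion_finset]
    · apply measure_mono
      intro z hz
      rw [Set.mem_iUnion₂] at hz
      obtain ⟨x, hx, hzx⟩ := hz
      rw [Metric.mem_ball, dist_zero_right]
      rw [Metric.mem_ball, dist_eq_norm] at hzx
      have h2 : ‖z‖ ≤ ‖z - x‖ + ‖x‖ := by
        have := norm_add_le (z - x) x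
        rwa [sub_add_cancel] at this
      have := hF1 x hx
      linarith
    · intro x hx y hy hxy
      simp only [Function.onFun]
      apply Metric.ball_disjoint_ball
      have := hF2 x hx y hy hxy
      rw [dist_eq_norm]
      linarith
    · intro x _
      exact measurableSet_ball
  have h2 : ∀ x : E, μ (Metric.ball x (δ / 2)) =
      ENNReal.ofReal ((δ / 2) ^ D) * μ (Metric.ball 0 1) := fun x =>
    Measure.addHaar_ball_of_pos μ x hδ2
  have h3 : μ (Metric.ball (0 : E) (1 + δ / 2)) =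
      ENNReal.ofReal ((1 + δ / 2) ^ D) * μ (Metric.ball 0 1) :=
    Measure.addHaar_ball_of_pos μ 0 (by linarith)
  simp only [h2, Finset.sum_const, nsmul_eq_mul] at h1
  rw [h3, ← mul_assoc] at h1
  have hpos : μ (Metric.ball (0 : E) 1) ≠ 0 := (Metric.measure_ball_pos μ 0 one_pos).ne'
  have hfin : μ (Metric.ball (0 : E) 1) ≠ ⊤ := measure_ball_lt_top.ne
  have h4 : (F.card : ℝ≥0∞) * ENNReal.ofReal ((δ / 2) ^ D) ≤ ENNReal.ofReal ((1 + δ / 2) ^ D) :=
    (ENNReal.mul_le_mul_iff_left hpos hfin).mp h1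
  rw [← ENNReal.ofReal_natCast, ← ENNReal.ofReal_mul (Nat.cast_nonneg _),
    ENNReal.ofReal_le_ofReal_iff (by positivity)] at h4
  have h5 : (1 + 2 / δ) ^ D = (1 + δ / 2) ^ D / (δ / 2) ^ D := by
    rw [← div_pow]
    congr 1
    field_simp
    ring
  rw [h5, le_div_iff₀ (by positivity)]
  exact h4

/-- T10a: finite nets in the unit ball of a finite dimensional real normed space. -/
theorem exists_net {E : Type} [NormedAddCommGroup E] [NormedSpace ℝ E] [FiniteDimensional ℝ E]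
    {δ : ℝ} (hδ : 0 < δ) :
    ∃ F : Finset E, (∀ x ∈ F, ‖x‖ ≤ 1) ∧ (∀ x : E, ‖x‖ ≤ 1 → ∃ y ∈ F, ‖x - y‖ ≤ δ) ∧
      (F.card : ℝ) ≤ (1 + 2 / δ) ^ (Module.finrank ℝ E) := by
  classical
  let P : ℕ → Prop := fun n => ∃ F : Finset E, F.card = n ∧ (∀ x ∈ F, ‖x‖ ≤ 1) ∧
    ∀ x ∈ F, ∀ y ∈ F, x ≠ y → δ < ‖x - y‖
  obtain ⟨M, hM⟩ := exists_nat_ge ((1 + 2 / δ) ^ (Module.finrank ℝ E))
  have hbound : ∀ n, P n → n ≤ M := by
    rintro n ⟨F, rfl, h1, h2⟩
    have := t10a_card hδ F h1 h2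
    exact_mod_cast this.trans hM
  have hP0 : P 0 := ⟨∅, by simp, by simp, by simp⟩
  obtain ⟨F, hcard, hF1, hF2⟩ : P (Nat.findGreatest P M) :=
    Nat.findGreatest_spec (Nat.zero_le M) hP0
  refine ⟨F, hF1, ?_, t10a_card hδ F hF1 hF2⟩
  intro x hx
  by_contra hcon
  push Not at hcon
  have hxF : x ∉ F := by
    intro h
    have := hcon x h
    rw [sub_self, norm_zero] at this
    linarith
  have hPs : P (Nat.findGreatest P M + 1) := by
    refine ⟨insert x F, ?_, ?_, ?_⟩
    · rw [Finset.card_insert_of_notMem hxF, hcard]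
    · intro y hy
      rw [Finset.mem_insert] at hy
      rcases hy with rfl | hy
      · exact hx
      · exact hF1 y hy
    · intro y hy z hz hyz
      rw [Finset.mem_insert] at hy hz
      rcases hy with rfl | hy <;> rcases hz with rfl | hz
      · exact absurd rfl hyz
      · exact hcon z hz
      · rw [norm_sub_rev]; exact hcon y hy
      · exact hF2 y hy z hz hyz
  have := Nat.le_findGreatest (hbound _ hPs) hPs
  omega

end P087
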