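import Mathlib

/-!
T10b: the volume of a Euclidean ball in the coordinate space `(ℝ^{k²})^N`, by Chernoff's bound.
-/

open MeasureTheory Filter
open scoped ENNReal
noncomputable section
namespace P087

private lemma t10b_int1 {lam : ℝ} (c : ℝ) :
    ∫ t : ℝ, Real.exp (-lam * (t - c) ^ 2) = √(Real.pi / lam) := by
  rw [integral_sub_right_eq_self (fun t : ℝ => Real.exp (-lam * t ^ 2)) c]
  exact integral_gaussian lam

private lemma t10b_intb1 {lam : ℝ} (hl : 0 < lam) (c : ℝ) :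
    Integrable (fun t : ℝ => Real.exp (-lam * (t - c) ^ 2)) :=
  (integrable_exp_neg_mul_sq hl).comp_sub_right c

private lemma t10b_prod {N k : ℕ} {lam : ℝ} (hl : 0 < lam) (c : Fin N → Fin k → Fin k → ℝ) :
    Integrable (fun x : Fin N → Fin k → Fin k → ℝ =>
      ∏ i, ∏ a, ∏ b, Real.exp (-lam * (x i a b - c i a b) ^ 2)) ∧
    ∫ x : Fin N → Fin k → Fin k → ℝ,
      ∏ i, ∏ a, ∏ b, Real.exp (-lam * (x i a b - c i a b) ^ 2) =
        √(Real.pi / lam) ^ (N * (k * k)) := by
  have h1 : ∀ i a, Integrable (fun z : Fin k → ℝ =>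
      ∏ b, Real.exp (-lam * (z b - c i a b) ^ 2)) ∧
      ∫ z : Fin k → ℝ, ∏ b, Real.exp (-lam * (z b - c i a b) ^ 2) =
        √(Real.pi / lam) ^ k := by
    intro i a
    constructor
    · exact Integrable.fintype_prod (μ := fun _ => volume)
        (f := fun b t => Real.exp (-lam * (t - c i a b) ^ 2)) (fun b => t10b_intb1 hl _)
    · rw [integral_fintype_prod_volume_eq_prod
        (fun b t => Real.exp (-lam * (t - c i a b) ^ 2))]
      rw [Finset.prod_congr rfl (fun b _ => t10b_int1 (c i a b)), Finset.prod_const,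
        Finset.card_univ, Fintype.card_fin]
  have h2 : ∀ i, Integrable (fun y : Fin k → Fin k → ℝ =>
      ∏ a, ∏ b, Real.exp (-lam * (y a b - c i a b) ^ 2)) ∧
      ∫ y : Fin k → Fin k → ℝ, ∏ a, ∏ b, Real.exp (-lam * (y a b - c i a b) ^ 2) =
        √(Real.pi / lam) ^ (k * k) := by
    intro i
    constructor
    · exact Integrable.fintype_prod (μ := fun _ => volume)
        (f := fun a (z : Fin k → ℝ) => ∏ b, Real.exp (-lam * (z b - c i a b) ^ 2))
        (fun a => (h1 i a).1)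
    · rw [integral_fintype_prod_volume_eq_prod
        (fun a (z : Fin k → ℝ) => ∏ b, Real.exp (-lam * (z b - c i a b) ^ 2))]
      rw [Finset.prod_congr rfl (fun a _ => (h1 i a).2), Finset.prod_const,
        Finset.card_univ, Fintype.card_fin, ← pow_mul]
  constructor
  · exact Integrable.fintype_prod (μ := fun _ => volume)
      (f := fun i (y : Fin k → Fin k → ℝ) =>
        ∏ a, ∏ b, Real.exp (-lam * (y a b - c i a b) ^ 2)) (fun i => (h2 i).1)
  · rw [integral_fintype_prod_volume_eq_prod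
      (fun i (y : Fin k → Fin k → ℝ) => ∏ a, ∏ b, Real.exp (-lam * (y a b - c i a b) ^ 2))]
    rw [Finset.prod_congr rfl (fun i _ => (h2 i).2), Finset.prod_const,
      Finset.card_univ, Fintype.card_fin, ← pow_mul]
    congr 1
    ring

/-- T10b: volume of a Euclidean ball of squared radius `ρ`. -/
theorem volume_ball_le {N k : ℕ} (hN : 1 ≤ N) (hk : 1 ≤ k) (c : Fin N → Fin k → Fin k → ℝ)
    {ρ : ℝ} (hρ : 0 < ρ) :
    volume {x : Fin N → Fin k → Fin k → ℝ | ∑ i, ∑ a, ∑ b, (x i a b - c i a b) ^ 2 ≤ ρ} ≤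
      ENNReal.ofReal ((2 * Real.pi * Real.exp 1 * ρ / (N * k ^ 2)) ^ ((N : ℝ) * k ^ 2 / 2)) := by
  have hN' : (0 : ℝ) < N := by exact_mod_cast hN
  have hk' : (0 : ℝ) < k := by exact_mod_cast hk
  set D : ℝ := (N : ℝ) * k ^ 2 with hD
  have hD0 : 0 < D := by positivity
  set lam : ℝ := D / (2 * ρ) with hlam
  have hl : 0 < lam := by positivity
  obtain ⟨hint, hval⟩ := t10b_prod (N := N) (k := k) hl c
  have hexp : ∀ x : Fin N → Fin k → Fin k → ℝ,
      ∏ i, ∏ a, ∏ b, Real.exp (-lam * (x i a b - c i a b) ^ 2) =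
        Real.exp (-lam * ∑ i, ∑ a, ∑ b, (x i a b - c i a b) ^ 2) := by
    intro x
    rw [Finset.mul_sum, Real.exp_sum]
    refine Finset.prod_congr rfl fun i _ => ?_
    rw [Finset.mul_sum, Real.exp_sum]
    refine Finset.prod_congr rfl fun a _ => ?_
    rw [Finset.mul_sum, Real.exp_sum]
  set G : (Fin N → Fin k → Fin k → ℝ) → ℝ := fun x =>
    ∏ i, ∏ a, ∏ b, Real.exp (-lam * (x i a b - c i a b) ^ 2) with hG
  have hGnn : ∀ x, 0 ≤ G x := fun x =>
    Finset.prod_nonneg fun i _ => Finset.prod_nonneg fun a _ =>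
      Finset.prod_nonneg fun b _ => (Real.exp_pos _).le
  have hsub : {x : Fin N → Fin k → Fin k → ℝ | ∑ i, ∑ a, ∑ b, (x i a b - c i a b) ^ 2 ≤ ρ} ⊆
      {x | 1 ≤ ENNReal.ofReal (Real.exp (lam * ρ) * G x)} := by
    intro x hx
    change 1 ≤ ENNReal.ofReal (Real.exp (lam * ρ) * G x)
    rw [ENNReal.one_le_ofReal]
    change 1 ≤ Real.exp (lam * ρ) * ∏ i, ∏ a, ∏ b, Real.exp (-lam * (x i a b - c i a b) ^ 2)
    rw [hexp x, ← Real.exp_add]
    apply Real.one_le_exp
    have hx1 : ∑ i, ∑ a, ∑ b, (x i a b - c i a b) ^ 2 ≤ ρ := hx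
    nlinarith
  have hmeas : AEMeasurable (fun x => ENNReal.ofReal (Real.exp (lam * ρ) * G x)) volume :=
    (hint.aemeasurable.const_mul _).ennreal_ofReal
  have h1 := mul_meas_ge_le_lintegral₀ hmeas 1
  rw [one_mul] at h1
  refine (measure_mono hsub).trans (h1.trans (le_of_eq ?_))
  rw [← ofReal_integral_eq_lintegral_ofReal (hint.const_mul _)
    (Eventually.of_forall fun x => mul_nonneg (Real.exp_pos _).le (hGnn x))]
  congr 1
  rw [integral_const_mul, hval]
  have e1 : lam * ρ = D / 2 := by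
    rw [hlam]
    field_simp
  have e2 : Real.exp (lam * ρ) = Real.exp 1 ^ (D / 2) := by
    rw [e1, Real.exp_one_rpow]
  have e3 : √(Real.pi / lam) ^ (N * (k * k)) = (Real.pi / lam) ^ (D / 2) := by
    have hpl : 0 ≤ Real.pi / lam := by positivity
    rw [Real.sqrt_eq_rpow, ← Real.rpow_natCast, ← Real.rpow_mul hpl]
    congr 1
    push_cast
    rw [hD]
    ring
  have hpl : 0 ≤ Real.pi / lam := by positivity
  rw [e2, e3, ← Real.mul_rpow (Real.exp_pos 1).le hpl]
  congr 1
  rw [hlam]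
  field_simp

end P087
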