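import Vale.Agent.P087.T09
import Vale.Agent.P087.T10

open MeasureTheory Filter
open scoped ENNReal InnerProductSpace Matrix.Norms.L2Operator Matrix Topology
noncomputable section
namespace P087
variable {H : Type} [NormedAddCommGroup H] [InnerProductSpace ℂ H] [CompleteSpace H]

namespace T11

/-- noncommutative polynomials -/
abbrev FA (N : ℕ) : Type := MonoidAlgebra ℂ (FreeMonoid (Fin N))

/-- evaluation of a noncommutative polynomial -/
def ev {A : Type*} [Ring A] [Algebra ℂ A] {N : ℕ} (X : Fin N → A) : FA N →ₐ[ℂ] A :=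
  MonoidAlgebra.lift ℂ A (FreeMonoid (Fin N)) (FreeMonoid.lift X)

/-- generators -/
def gn {N : ℕ} (j : Fin N) : FA N := MonoidAlgebra.single (FreeMonoid.of j) 1

lemma ev_gn {A : Type*} [Ring A] [Algebra ℂ A] {N : ℕ} (X : Fin N → A) (j : Fin N) :
    ev X (gn j) = X j := by
  simp [ev, gn]

lemma ev_single {A : Type*} [Ring A] [Algebra ℂ A] {N : ℕ} (X : Fin N → A)
    (w : FreeMonoid (Fin N)) (c : ℂ) :
    ev X (MonoidAlgebra.single w c) = c • word X w.toList := by
  simp [ev, word, FreeMonoid.lift_apply]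

lemma map_psi {A B : Type*} [Ring A] [Ring B] [Algebra ℂ A] [Algebra ℂ B] (φ : A →ₐ[ℂ] B)
    (x : A) : φ (psi x) = psi (φ x) := by
  simp only [psi, map_mul, map_pow, map_add, map_sub, map_ofNat]

lemma map_Tpol {A B : Type*} [Ring A] [Ring B] [Algebra ℂ A] [Algebra ℂ B] (φ : A →ₐ[ℂ] B)
    {N : ℕ} (Q : ℝ) (J : Finset (Fin N)) (X : Fin N → A) :
    φ (Tpol Q J X) = Tpol Q J (fun i => φ (X i)) := by
  simp only [Tpol, map_smul, map_sub, map_sum, map_pow, map_one]

lemma star_psi {A : Type*} [Ring A] [StarRing A] {x : A} (hx : star x = x) :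
    star (psi x) = psi x := by
  have h6 : star (6 : A) = 6 := by simp
  have h8 : star (8 : A) = 8 := by simp
  have h3 : star (3 : A) = 3 := by simp
  simp only [psi, star_mul, star_pow, star_add, star_sub, hx, h6, h8, h3]
  noncomm_ring

lemma star_Tpol {A : Type*} [Ring A] [StarRing A] [Algebra ℂ A] [StarModule ℂ A] {N : ℕ}
    (Q : ℝ) (J : Finset (Fin N)) {X : Fin N → A} (hX : ∀ i, star (X i) = X i) :
    star (Tpol Q J X) = Tpol Q J X := by
  simp only [Tpol, star_smul, star_sub, star_sum, star_pow, hX, star_one]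
  simp

lemma herm_star {k : ℕ} (x : Fin k → Fin k → ℝ) : star (herm x) = herm x := by
  ext i j
  simp only [Matrix.star_apply, herm, Matrix.of_apply, star_add, star_div₀, star_mul', star_sub]
  simp only [RCLike.star_def, Complex.conj_ofReal, Complex.conj_I, map_ofNat]
  ring

lemma τ_add (T : TracialVN H) (a b : H →L[ℂ] H) : T.τ (a + b) = T.τ a + T.τ b := by
  simp [TracialVN.τ]

lemma τ_smul (T : TracialVN H) (c : ℂ) (a : H →L[ℂ] H) : T.τ (c • a) = c * T.τ a := by
  simp [TracialVN.τ]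

lemma τ_one (T : TracialVN H) : T.τ 1 = 1 := by
  simp [TracialVN.τ, inner_self_eq_norm_sq_to_K, T.norm_Ω]

lemma τ_star_mul (T : TracialVN H) (a : H →L[ℂ] H) : (T.τ (star a * a)).re = ‖a T.Ω‖ ^ 2 := by
  rw [TracialVN.τ, mul_apply_eq_comp, ContinuousLinearMap.star_eq_adjoint,
    ContinuousLinearMap.adjoint_inner_right, inner_self_eq_norm_sq_to_K]
  norm_cast

lemma frob_sq {m n : ℕ} (A : Matrix (Fin m) (Fin n) ℂ) : frob A ^ 2 = ((Aᴴ * A).trace).re := by
  rw [frob, Real.sq_sqrt (by positivity)]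
  simp only [Matrix.trace, Matrix.diag, Matrix.mul_apply, Matrix.conjTranspose_apply,
    Complex.re_sum]
  rw [Finset.sum_comm]
  refine Finset.sum_congr rfl fun j _ => Finset.sum_congr rfl fun i _ => ?_
  rw [RCLike.star_def, ← Complex.normSq_eq_conj_mul_self, Complex.ofReal_re,
    Complex.normSq_eq_norm_sq]

lemma frob_nonneg {m n : ℕ} (A : Matrix (Fin m) (Fin n) ℂ) : 0 ≤ frob A := Real.sqrt_nonneg _

lemma approx (T : TracialVN H) {N : ℕ} (X : Fin N → (H →L[ℂ] H)) (R : ℝ) (f : FA N) :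
    ∀ η : ℝ, 0 < η → ∀ᶠ q : ℕ × ℝ in atTop ×ˢ 𝓝[>] (0 : ℝ), ∀ k : ℕ, 1 ≤ k →
      ∀ x ∈ T.Gamma X R q.1 k q.2,
        ‖(ev (fun j => herm (x j)) f).trace / k - T.τ (ev X f)‖ < η := by
  induction f using MonoidAlgebra.induction_linear with
  | zero =>
    intro η hη
    filter_upwards with q k hk x hx
    simpa [TracialVN.τ] using hη
  | add f g hf hg =>
    intro η hη
    filter_upwards [hf (η / 2) (by positivity), hg (η / 2) (by positivity)] with q h1 h2 k hk x hx
    have e1 := h1 k hk x hx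
    have e2 := h2 k hk x hx
    rw [map_add, map_add, Matrix.trace_add, τ_add, add_div, add_sub_add_comm]
    calc _ ≤ _ := norm_add_le _ _
      _ < η / 2 + η / 2 := add_lt_add e1 e2
      _ = η := by ring
  | single w c =>
    intro η hη
    have hev : ∀ᶠ q : ℕ × ℝ in atTop ×ˢ 𝓝[>] (0 : ℝ),
        w.toList.length ≤ q.1 ∧ q.2 < η / (‖c‖ + 1) :=
      (eventually_ge_atTop w.toList.length).prod_mk
        ((eventually_lt_nhds (by positivity)).filter_mono nhdsWithin_le_nhds)
    filter_upwards [hev] with q hq k hk x hx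
    have hk0 : (k : ℂ) ≠ 0 := by exact_mod_cast (by omega : k ≠ 0)
    rw [ev_single, ev_single, Matrix.trace_smul, τ_smul, smul_eq_mul, mul_div_assoc, ← mul_sub,
      norm_mul]
    have hb : ‖(word (fun j => herm (x j)) w.toList).trace / k - T.τ (word X w.toList)‖
        ≤ η / (‖c‖ + 1) := by
      by_cases hw : w.toList = []
      · rw [hw]
        have : (word (fun j => herm (x j)) ([] : List (Fin N))).trace / (k : ℂ) -
            T.τ (word X ([] : List (Fin N))) = 0 := by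
          simp only [word, List.map_nil, List.prod_nil, Matrix.trace_one, Fintype.card_fin]
          rw [div_self hk0, τ_one, sub_self]
        rw [this, norm_zero]
        positivity
      · have hl : 1 ≤ w.toList.length := by
          rw [Nat.one_le_iff_ne_zero]
          simpa [List.length_eq_zero_iff] using hw
        exact ((hx.2 w.toList hl hq.1).trans hq.2).le
    calc ‖c‖ * _ ≤ ‖c‖ * (η / (‖c‖ + 1)) := mul_le_mul_of_nonneg_left hb (norm_nonneg _)
      _ < η := by
        rw [← mul_div_assoc, div_lt_iff₀ (by positivity)]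
        nlinarith [norm_nonneg c]

lemma approx_re (T : TracialVN H) {N : ℕ} (X : Fin N → (H →L[ℂ] H)) (R : ℝ) (f : FA N) (t : ℝ)
    (ht : (T.τ (ev X f)).re < t) :
    ∀ᶠ q : ℕ × ℝ in atTop ×ˢ 𝓝[>] (0 : ℝ), ∀ k : ℕ, 1 ≤ k →
      ∀ x ∈ T.Gamma X R q.1 k q.2, ((ev (fun j => herm (x j)) f).trace).re < t * k := by
  filter_upwards [approx T X R f (t - (T.τ (ev X f)).re) (by linarith)] with q hq k hk x hx
  have h1 := hq k hk x hx
  have hk0 : (0 : ℝ) < k := by exact_mod_cast hk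
  have h2 := (Complex.re_le_norm _).trans_lt h1
  rw [Complex.sub_re, Complex.div_natCast_re] at h2
  rw [← div_lt_iff₀ hk0]
  linarith

end T11

open T11 in
/-- T11 -/
theorem chiR_le (T : TracialVN H) {N : ℕ} (hN : 1 ≤ N) (X : Fin N → (H →L[ℂ] H))
    (hXM : ∀ j, X j ∈ T.M) (hX : ∀ j, IsSelfAdjoint (X j)) (Q : ℝ) (hQ : 0 < Q)
    (J : Fin 2 → Finset (Fin N)) (hJ : ∀ a, 1 ≤ (J a).card) (h : Fin N → Fin 2)
    (P : Fin 2 → (H →L[ℂ] H)) (hP : ∀ a, P a = psi (Tpol Q (J a) X))
    (κ b c δ : ℝ) (hκ : 0 < κ) (hb : 0 ≤ b) (hc : 0 ≤ c) (hδ : 0 < δ) (hδ1 : δ ≤ 1)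
    (h1 : ∀ a, 4 * (T.τ (P a ^ 2)).re < κ)
    (h2 : ∀ j, ‖(X j - P (h j) * X j * P (h j)) T.Ω‖ < b)
    (h3 : ∀ j, ‖((P (h j) ^ 2 - P (h j)) * X j * P (h j)) T.Ω‖ < c)
    (h4 : ∀ j, ‖X j T.Ω‖ ^ 2 < 4) (R : ℝ) :
    T.chiR X R ≤ (((4 * κ + N * κ ^ 2) * Real.log (1 + 4 / δ) +
      (N : ℝ) / 2 * Real.log (2 * Real.pi * Real.exp 1 * (b + 4 * c + 5 * δ) ^ 2) : ℝ) : EReal) := by
  -- noncommutative polynomials
  let tp : Fin 2 → FA N := fun a => psi (Tpol Q (J a) gn)
  have hPe : ∀ a, ev X (tp a) = P a := by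
    intro a
    simp only [tp, map_psi, map_Tpol, ev_gn, hP]
  have hPm : ∀ {k : ℕ} (A : Fin N → Matrix (Fin k) (Fin k) ℂ) (a : Fin 2),
      ev A (tp a) = psi (Tpol Q (J a) A) := by
    intro k A a
    simp only [tp, map_psi, map_Tpol, ev_gn]
  have hPs : ∀ a, star (P a) = P a := by
    intro a
    rw [hP]
    exact star_psi (star_Tpol Q (J a) fun i => (hX i).star_eq)
  -- the four families of estimates
  have E1 : ∀ a, ∀ᶠ q : ℕ × ℝ in atTop ×ˢ 𝓝[>] (0 : ℝ), ∀ k : ℕ, 1 ≤ k →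
      ∀ x ∈ T.Gamma X R q.1 k q.2,
        ((psi (Tpol Q (J a) (fun j => herm (x j))) ^ 2).trace).re < κ / 4 * k := by
    intro a
    have := approx_re T X R (tp a ^ 2) (κ / 4) (by
      rw [map_pow, hPe]; linarith [h1 a])
    filter_upwards [this] with q hq k hk x hx
    have h := hq k hk x hx
    rwa [map_pow, hPm] at h
  have E2 : ∀ j, ∀ᶠ q : ℕ × ℝ in atTop ×ˢ 𝓝[>] (0 : ℝ), ∀ k : ℕ, 1 ≤ k →
      ∀ x ∈ T.Gamma X R q.1 k q.2,
        frob (herm (x j) - psi (Tpol Q (J (h j)) (fun j => herm (x j))) * herm (x j) *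
          psi (Tpol Q (J (h j)) (fun j => herm (x j)))) ^ 2 < b ^ 2 * k := by
    intro j
    have := approx_re T X R ((gn j - tp (h j) * gn j * tp (h j)) *
      (gn j - tp (h j) * gn j * tp (h j))) (b ^ 2) (by
        have hs : star (X j - P (h j) * X j * P (h j)) = X j - P (h j) * X j * P (h j) := by
          simp only [star_sub, star_mul, hPs, (hX j).star_eq, mul_assoc]
        simp only [map_mul, map_sub, ev_gn, hPe]
        nth_rw 1 [← hs]
        rw [τ_star_mul]
        exact pow_lt_pow_left₀ (h2 j) (norm_nonneg _) (by norm_num))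
    filter_upwards [this] with q hq k hk x hx
    have hh := hq k hk x hx
    simp only [map_mul, map_sub, ev_gn, hPm] at hh
    have hPms := star_psi (star_Tpol Q (J (h j)) (X := fun j => herm (x j))
      fun i => herm_star (x i))
    rw [frob_sq_eq_trace, ← Matrix.star_eq_conjTranspose]
    generalize psi (Tpol Q (J (h j)) (fun j => herm (x j))) = Pm at hh hPms ⊢
    have hs : star (herm (x j) - Pm * herm (x j) * Pm) = herm (x j) - Pm * herm (x j) * Pm := by
      simp only [star_sub, star_mul, hPms, herm_star, mul_assoc]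
    rw [hs]
    exact hh
  have E3 : ∀ j, ∀ᶠ q : ℕ × ℝ in atTop ×ˢ 𝓝[>] (0 : ℝ), ∀ k : ℕ, 1 ≤ k →
      ∀ x ∈ T.Gamma X R q.1 k q.2,
        frob ((psi (Tpol Q (J (h j)) (fun j => herm (x j))) ^ 2 -
          psi (Tpol Q (J (h j)) (fun j => herm (x j)))) * herm (x j) *
          psi (Tpol Q (J (h j)) (fun j => herm (x j)))) ^ 2 < c ^ 2 * k := by
    intro j
    have := approx_re T X R ((tp (h j) * (gn j * (tp (h j) ^ 2 - tp (h j)))) *
      ((tp (h j) ^ 2 - tp (h j)) * gn j * tp (h j))) (c ^ 2) (by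
        have hs : star ((P (h j) ^ 2 - P (h j)) * X j * P (h j)) =
            P (h j) * (X j * (P (h j) ^ 2 - P (h j))) := by
          simp only [star_sub, star_mul, star_pow, hPs, (hX j).star_eq]
        simp only [map_mul, map_sub, map_pow, ev_gn, hPe]
        rw [← hs, τ_star_mul]
        exact pow_lt_pow_left₀ (h3 j) (norm_nonneg _) (by norm_num))
    filter_upwards [this] with q hq k hk x hx
    have hh := hq k hk x hx
    simp only [map_mul, map_sub, map_pow, ev_gn, hPm] at hh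
    have hPms := star_psi (star_Tpol Q (J (h j)) (X := fun j => herm (x j))
      fun i => herm_star (x i))
    rw [frob_sq_eq_trace, ← Matrix.star_eq_conjTranspose]
    generalize psi (Tpol Q (J (h j)) (fun j => herm (x j))) = Pm at hh hPms ⊢
    have hs : star ((Pm ^ 2 - Pm) * herm (x j) * Pm) = Pm * (herm (x j) * (Pm ^ 2 - Pm)) := by
      simp only [star_sub, star_mul, star_pow, hPms, herm_star]
    rw [hs]
    exact hh
  have E4 : ∀ j, ∀ᶠ q : ℕ × ℝ in atTop ×ˢ 𝓝[>] (0 : ℝ), ∀ k : ℕ, 1 ≤ k →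
      ∀ x ∈ T.Gamma X R q.1 k q.2, frob (herm (x j)) ^ 2 < 4 * k := by
    intro j
    have := approx_re T X R (gn j * gn j) 4 (by
        simp only [map_mul, ev_gn]
        nth_rw 1 [← (hX j).star_eq]
        rw [τ_star_mul]
        exact h4 j)
    filter_upwards [this] with q hq k hk x hx
    have hh := hq k hk x hx
    simp only [map_mul, ev_gn] at hh
    rw [frob_sq_eq_trace, ← Matrix.star_eq_conjTranspose, herm_star]
    exact hh
  have E5 : ∀ᶠ q : ℕ × ℝ in atTop ×ˢ 𝓝[>] (0 : ℝ), 0 < q.2 :=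
    (tendsto_snd (f := (atTop : Filter ℕ)) (g := 𝓝[>] (0 : ℝ))).eventually self_mem_nhdsWithin
  obtain ⟨⟨m, ε⟩, F1, F2, F3, F4, F5⟩ := ((eventually_all.2 E1).and ((eventually_all.2 E2).and
    ((eventually_all.2 E3).and ((eventually_all.2 E4).and E5)))).exists
  simp only at F1 F2 F3 F4 F5
  refine iInf_le_of_le m (iInf_le_of_le ε (iInf_le_of_le F5 ?_))
  set r : ℕ → ℕ := fun k => ⌈κ * k⌉₊ with hr
  set ρ : ℝ := b + 4 * c with hρ
  have hρ0 : 0 ≤ ρ := by positivity
  -- the covering estimate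
  have hvol : ∀ k : ℕ, 1 ≤ k → volume (T.Gamma X R m k ε) ≤ ENNReal.ofReal
      ((1 + 4 / δ) ^ (4 * k * r k + N * r k ^ 2) *
        (2 * Real.pi * Real.exp 1 * (ρ + 5 * δ) ^ 2 / k) ^ ((N : ℝ) * k ^ 2 / 2)) := by
    intro k hk
    have hk0 : (0 : ℝ) ≤ k := Nat.cast_nonneg k
    refine volume_cover_le hN hk h _ hρ0 hδ hδ1 fun x hx => ?_
    have hcomp : ∀ a, ∃ V : Matrix (Fin k) (Fin (r k)) ℂ, ‖V‖ ≤ 1 ∧
        ∀ A : Matrix (Fin k) (Fin k) ℂ, A.IsHermitian →
          ∃ B : Matrix (Fin (r k)) (Fin (r k)) ℂ, B.IsHermitian ∧ frob B ≤ frob A ∧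
            frob (A - V * B * Vᴴ) ≤
              frob (A - psi (Tpol Q (J a) (fun j => herm (x j))) * A *
                psi (Tpol Q (J a) (fun j => herm (x j)))) +
              4 * frob ((psi (Tpol Q (J a) (fun j => herm (x j))) ^ 2 -
                psi (Tpol Q (J a) (fun j => herm (x j)))) * A *
                psi (Tpol Q (J a) (fun j => herm (x j)))) := by
      intro a
      refine exists_compression _ ?_ ?_
      · exact star_Tpol Q (J a) (X := fun j => herm (x j)) fun i => herm_star (x i)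
      · have e := F1 a k hk x hx
        have e' : κ * k ≤ (r k : ℝ) := Nat.le_ceil _
        linarith
    choose V hV hVB using hcomp
    have hB : ∀ i, ∃ B : Matrix (Fin (r k)) (Fin (r k)) ℂ, B.IsHermitian ∧
        frob B ≤ frob (herm (x i)) ∧ frob (herm (x i) - V (h i) * B * (V (h i))ᴴ) ≤
              frob (herm (x i) - psi (Tpol Q (J (h i)) (fun j => herm (x j))) * herm (x i) *
                psi (Tpol Q (J (h i)) (fun j => herm (x j)))) +
              4 * frob ((psi (Tpol Q (J (h i)) (fun j => herm (x j))) ^ 2 -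
                psi (Tpol Q (J (h i)) (fun j => herm (x j)))) * herm (x i) *
                psi (Tpol Q (J (h i)) (fun j => herm (x j)))) := by
      intro i
      exact hVB (h i) (herm (x i)) (herm_star (x i))
    choose B hBh hBf hBd using hB
    refine ⟨V, hV, B, fun i => ⟨hBh i, ?_⟩, fun i => ?_⟩
    · calc frob (B i) ^ 2 ≤ frob (herm (x i)) ^ 2 :=
            pow_le_pow_left₀ (frob_nonneg _) (hBf i) 2
        _ ≤ 4 * k := (F4 i k hk x hx).le
    · have e2 := (F2 i k hk x hx).le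
      have e3 := (F3 i k hk x hx).le
      have g2 := Real.le_sqrt_of_sq_le e2
      have g3 := Real.le_sqrt_of_sq_le e3
      rw [Real.sqrt_mul' _ hk0, Real.sqrt_sq hb] at g2
      rw [Real.sqrt_mul' _ hk0, Real.sqrt_sq hc] at g3
      have g : frob (herm (x i) - V (h i) * B i * (V (h i))ᴴ) ≤ ρ * √k := by
        refine (hBd i).trans ?_
        rw [hρ]
        linarith
      calc _ ≤ (ρ * √k) ^ 2 := pow_le_pow_left₀ (frob_nonneg _) g 2
        _ = k * ρ ^ 2 := by rw [mul_pow, Real.sq_sqrt hk0]; ring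
  -- passing to logarithms
  have hlog : ∀ k : ℕ, 1 ≤ k →
      ((((k : ℝ) ^ 2)⁻¹ : ℝ) : EReal) * ENNReal.log (volume (T.Gamma X R m k ε)) +
        (((N : ℝ) / 2 * Real.log k : ℝ) : EReal) ≤
      (((4 * ((r k : ℝ) / k) + N * ((r k : ℝ) / k) ^ 2) * Real.log (1 + 4 / δ) +
        (N : ℝ) / 2 * Real.log (2 * Real.pi * Real.exp 1 * (ρ + 5 * δ) ^ 2) : ℝ) : EReal) := by
    intro k hk
    have hk0 : (0 : ℝ) < k := by exact_mod_cast hk
    have hp1 : (0 : ℝ) < 1 + 4 / δ := by positivity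
    have hp2 : (0 : ℝ) < 2 * Real.pi * Real.exp 1 * (ρ + 5 * δ) ^ 2 := by positivity
    have hp3 : (0 : ℝ) < 2 * Real.pi * Real.exp 1 * (ρ + 5 * δ) ^ 2 / k := by positivity
    have hl := ENNReal.log_monotone (hvol k hk)
    rw [ENNReal.log_ofReal_of_pos (by positivity)] at hl
    have hm : ((((k : ℝ) ^ 2)⁻¹ : ℝ) : EReal) * ENNReal.log (volume (T.Gamma X R m k ε)) ≤
        ((((k : ℝ) ^ 2)⁻¹ : ℝ) : EReal) * ((Real.log ((1 + 4 / δ) ^ (4 * k * r k + N * r k ^ 2) *
        (2 * Real.pi * Real.exp 1 * (ρ + 5 * δ) ^ 2 / k) ^ ((N : ℝ) * k ^ 2 / 2)) : ℝ) : EReal) :=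
      mul_le_mul_of_nonneg_left hl (by exact_mod_cast (by positivity : (0 : ℝ) ≤ ((k : ℝ) ^ 2)⁻¹))
    refine (add_le_add_left hm _).trans (le_of_eq ?_)
    rw [← EReal.coe_mul, ← EReal.coe_add, EReal.coe_eq_coe_iff,
      Real.log_mul (by positivity) (by positivity), Real.log_pow, Real.log_rpow hp3,
      Real.log_div hp2.ne' hk0.ne']
    push_cast
    field_simp
    ring
  refine (limsup_le_limsup (eventually_atTop.2 ⟨1, hlog⟩)).trans (le_of_eq ?_)
  refine Tendsto.limsup_eq ?_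
  refine (continuous_coe_real_ereal.tendsto _).comp ?_
  have hr1 : Tendsto (fun k : ℕ => (r k : ℝ) / k) atTop (𝓝 κ) :=
    (tendsto_nat_ceil_mul_div_atTop hκ.le).comp tendsto_natCast_atTop_atTop
  exact (((hr1.const_mul 4).add ((hr1.pow 2).const_mul (N : ℝ))).mul_const _).add_const _

end P087
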