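import Vale.Agent.P087.GDef

open MeasureTheory Filter
open scoped ENNReal InnerProductSpace Matrix.Norms.L2Operator Matrix
noncomputable section
namespace P087

open MvPolynomial ProbabilityTheory

/-! ### Gaussian moments in one variable -/

private theorem t12_integrable_pow (v : NNReal) (k : ℕ) :
    Integrable (fun x : ℝ => x ^ k) (gaussianReal 0 v) := by
  have h := memLp_id_gaussianReal (μ := 0) (v := v) (k : NNReal)
  rcases Nat.eq_zero_or_pos k with rfl | hk
  · simp
  · have := h.integrable_norm_pow (p := k) (by omega)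
    refine this.mono' (by fun_prop) ?_
    filter_upwards with x
    simp

private theorem t12_moment_succ (v : NNReal) (hv : v ≠ 0) (k : ℕ) :
    ∫ x : ℝ, x ^ (k + 1) ∂(gaussianReal 0 v) = v * k * ∫ x : ℝ, x ^ (k - 1) ∂(gaussianReal 0 v) := by
  rcases Nat.eq_zero_or_pos k with rfl | hk
  · simp [integral_id_gaussianReal]
  obtain ⟨k, rfl⟩ : ∃ j, k = j + 1 := ⟨k - 1, by omega⟩
  have hv' : (v : ℝ) ≠ 0 := by exact_mod_cast hv
  have hd : ∀ x : ℝ, HasDerivAt (fun x : ℝ => x ^ (k + 1) * gaussianPDFReal 0 v x)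
      ((((k + 1 : ℕ) : ℝ) * x ^ k - (v : ℝ)⁻¹ * x ^ (k + 2)) * gaussianPDFReal 0 v x) x := by
    intro x
    have h1 : HasDerivAt (fun x : ℝ => x ^ (k + 1)) (((k + 1 : ℕ) : ℝ) * x ^ k) x := by
      simpa using hasDerivAt_pow (k + 1) x
    have h2 : HasDerivAt (fun x : ℝ => gaussianPDFReal 0 v x)
        (-(x / v) * gaussianPDFReal 0 v x) x := by
      unfold gaussianPDFReal
      have h3 : HasDerivAt (fun x : ℝ => -(x - 0) ^ 2 / (2 * (v : ℝ))) (-(x / v)) x := by
        have h4 := ((((hasDerivAt_id x).sub_const 0).pow 2).neg).div_const (2 * (v : ℝ))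
        refine h4.congr_deriv ?_
        simp
        field_simp
      have h5 := (h3.exp).const_mul ((√(2 * Real.pi * (v : ℝ)))⁻¹)
      refine h5.congr_deriv ?_
      ring
    refine (h1.mul h2).congr_deriv ?_
    ring
  have hint : ∀ j : ℕ, Integrable (fun x : ℝ => x ^ j * gaussianPDFReal 0 v x) := by
    intro j
    have h := t12_integrable_pow v j
    rw [gaussianReal_of_var_ne_zero _ hv] at h
    rw [integrable_withDensity_iff_integrable_smul' (measurable_gaussianPDF 0 v)
      (by filter_upwards with x; exact gaussianPDF_lt_top)] at h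
    refine h.congr ?_
    filter_upwards with x
    rw [gaussianPDF, ENNReal.toReal_ofReal (gaussianPDFReal_nonneg 0 v x), smul_eq_mul, mul_comm]
  have h2 : (fun x : ℝ => (((k + 1 : ℕ) : ℝ) * x ^ k - (v : ℝ)⁻¹ * x ^ (k + 2)) *
      gaussianPDFReal 0 v x) =
        fun x : ℝ => ((k + 1 : ℕ) : ℝ) * (x ^ k * gaussianPDFReal 0 v x) -
          (v : ℝ)⁻¹ * (x ^ (k + 2) * gaussianPDFReal 0 v x) := by
    funext x; ring
  have h0 := integral_eq_zero_of_hasDerivAt_of_integrable hd
    (by rw [h2]; exact ((hint k).const_mul _).sub ((hint (k + 2)).const_mul _)) (hint (k + 1))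
  have h1 : ∀ j : ℕ, ∫ x : ℝ, x ^ j ∂(gaussianReal 0 v) =
      ∫ x : ℝ, x ^ j * gaussianPDFReal 0 v x := by
    intro j
    rw [integral_gaussianReal_eq_integral_smul hv]
    congr 1
    funext x
    rw [smul_eq_mul, mul_comm]
  rw [h1, h1]
  rw [h2, integral_sub ((hint k).const_mul _) ((hint (k + 2)).const_mul _), integral_const_mul,
    integral_const_mul] at h0
  have h3 : k + 1 - 1 = k := by omega
  rw [h3]
  have h4 : (k + 1 + 1) = k + 2 := rfl
  rw [h4]
  have h5 := sub_eq_zero.mp h0
  rw [mul_assoc, h5, ← mul_assoc, mul_inv_cancel₀ hv', one_mul]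

private theorem t12_integrable_cpow (v : NNReal) (k : ℕ) :
    Integrable (fun x : ℝ => (x : ℂ) ^ k) (gaussianReal 0 v) := by
  have := (t12_integrable_pow v k).ofReal (𝕜 := ℂ)
  refine this.congr ?_
  filter_upwards with x
  simp

private theorem t12_cmoment_succ (v : NNReal) (hv : v ≠ 0) (k : ℕ) :
    ∫ x : ℝ, (x : ℂ) ^ (k + 1) ∂(gaussianReal 0 v) =
      v * k * ∫ x : ℝ, (x : ℂ) ^ (k - 1) ∂(gaussianReal 0 v) := by
  have h : ∀ j : ℕ, ∫ x : ℝ, (x : ℂ) ^ j ∂(gaussianReal 0 v) =
      ((∫ x : ℝ, x ^ j ∂(gaussianReal 0 v) : ℝ) : ℂ) := by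
    intro j
    rw [← integral_complex_ofReal]
    congr 1
    funext x
    simp
  rw [h, h, t12_moment_succ v hv k]
  push_cast
  ring

/-! ### The Gaussian functional on polynomials -/

section poly

variable {I : Type} [Fintype I] {k : ℕ}

/-- coordinates -/
abbrev T12Idx (I : Type) (k : ℕ) : Type := I × Fin k × Fin k

/-- evaluation of a polynomial at a point -/
def t12ev (x : I → Fin k → Fin k → ℝ) : MvPolynomial (T12Idx I k) ℂ →+* ℂ :=
  MvPolynomial.eval (fun c : T12Idx I k => ((x c.1 c.2.1 c.2.2 : ℝ) : ℂ))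

private lemma t12ev_monomial (x : I → Fin k → Fin k → ℝ) (s : T12Idx I k →₀ ℕ) (c : ℂ) :
    t12ev x (monomial s c) = c * ∏ i : I, ∏ a : Fin k, ∏ b : Fin k,
      ((x i a b : ℝ) : ℂ) ^ s (i, a, b) := by
  unfold t12ev
  rw [eval_monomial, Finsupp.prod_fintype _ _ (by simp), Fintype.prod_prod_type]
  congr 1
  refine Finset.prod_congr rfl fun i _ => ?_
  rw [Fintype.prod_prod_type]

private lemma t12_integrable_monomial (s : T12Idx I k →₀ ℕ) (c : ℂ) :
    Integrable (fun x => t12ev x (monomial s c)) (gm I k) := by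
  simp_rw [t12ev_monomial]
  refine Integrable.const_mul ?_ c
  unfold gm
  refine Integrable.fintype_prod_dep (f := fun i (y : Fin k → Fin k → ℝ) =>
    ∏ a : Fin k, ∏ b : Fin k, ((y a b : ℝ) : ℂ) ^ s (i, a, b)) fun i => ?_
  refine Integrable.fintype_prod_dep (f := fun a (y : Fin k → ℝ) =>
    ∏ b : Fin k, ((y b : ℝ) : ℂ) ^ s (i, a, b)) fun a => ?_
  refine Integrable.fintype_prod_dep (f := fun b (y : ℝ) =>
    ((y : ℝ) : ℂ) ^ s (i, a, b)) fun b => ?_
  exact t12_integrable_cpow _ _

private lemma t12_integrable (p : MvPolynomial (T12Idx I k) ℂ) :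
    Integrable (fun x => t12ev x p) (gm I k) := by
  induction p using MvPolynomial.induction_on' with
  | monomial s c => exact t12_integrable_monomial s c
  | add p q hp hq =>
    have := hp.add hq
    refine this.congr ?_
    filter_upwards with x
    simp

private lemma t12_integral_monomial (s : T12Idx I k →₀ ℕ) (c : ℂ) :
    ∫ x, t12ev x (monomial s c) ∂(gm I k) =
      c * ∏ j : T12Idx I k, ∫ y : ℝ, (y : ℂ) ^ s j ∂(gaussianReal 0 ((k : NNReal)⁻¹)) := by
  simp_rw [t12ev_monomial]
  rw [integral_const_mul]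
  congr 1
  rw [Fintype.prod_prod_type]
  unfold gm
  rw [integral_fintype_prod_eq_prod (f := fun i (y : Fin k → Fin k → ℝ) =>
    ∏ a : Fin k, ∏ b : Fin k, ((y a b : ℝ) : ℂ) ^ s (i, a, b))]
  refine Finset.prod_congr rfl fun i _ => ?_
  rw [integral_fintype_prod_eq_prod (f := fun a (y : Fin k → ℝ) =>
    ∏ b : Fin k, ((y b : ℝ) : ℂ) ^ s (i, a, b)), Fintype.prod_prod_type]
  refine Finset.prod_congr rfl fun a _ => ?_
  rw [integral_fintype_prod_eq_prod (f := fun b (y : ℝ) => ((y : ℝ) : ℂ) ^ s (i, a, b))]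

/-- the Gaussian expectation, as a linear functional on polynomials -/
def t12E (I : Type) [Fintype I] (k : ℕ) : MvPolynomial (T12Idx I k) ℂ →ₗ[ℂ] ℂ where
  toFun p := ∫ x, t12ev x p ∂(gm I k)
  map_add' p q := by
    simp only [map_add]
    exact integral_add (t12_integrable p) (t12_integrable q)
  map_smul' c p := by
    have : ∀ x : I → Fin k → Fin k → ℝ, t12ev x (c • p) = c • t12ev x p := by
      intro x
      unfold t12ev
      rw [smul_eval, smul_eq_mul]
    simp only [this]
    rw [integral_smul]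
    rfl

private lemma t12E_apply (p : MvPolynomial (T12Idx I k) ℂ) :
    t12E I k p = ∫ x, t12ev x p ∂(gm I k) := rfl

variable [DecidableEq I]

private lemma t12_ibp (hk : 0 < k) (j : T12Idx I k) (p : MvPolynomial (T12Idx I k) ℂ) :
    t12E I k (X j * p) = (1 / (k : ℂ)) * t12E I k (pderiv j p) := by
  have hv : ((k : NNReal)⁻¹) ≠ 0 := by
    have : (k : NNReal) ≠ 0 := by exact_mod_cast hk.ne'
    exact inv_ne_zero this
  induction p using MvPolynomial.induction_on' with
  | add p q hp hq => rw [mul_add, map_add, map_add, map_add, hp, hq, mul_add]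
  | monomial s c =>
    rw [show (X j : MvPolynomial (T12Idx I k) ℂ) = monomial (Finsupp.single j 1) 1 from rfl,
      monomial_mul, one_mul, pderiv_monomial, t12E_apply, t12E_apply, t12_integral_monomial,
      t12_integral_monomial]
    rw [← Finset.mul_prod_erase _ _ (Finset.mem_univ j),
      ← Finset.mul_prod_erase Finset.univ (fun i => ∫ y : ℝ, (y : ℂ) ^ ((s - Finsupp.single j 1 : T12Idx I k →₀ ℕ) i)
        ∂(gaussianReal 0 ((k : NNReal)⁻¹))) (Finset.mem_univ j)]
    have h1 : ∏ x ∈ Finset.univ.erase j, ∫ y : ℝ, (y : ℂ) ^ ((Finsupp.single j 1 + s : T12Idx I k →₀ ℕ) x)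
        ∂(gaussianReal 0 ((k : NNReal)⁻¹)) = ∏ x ∈ Finset.univ.erase j,
        ∫ y : ℝ, (y : ℂ) ^ ((s - Finsupp.single j 1 : T12Idx I k →₀ ℕ) x) ∂(gaussianReal 0 ((k : NNReal)⁻¹)) := by
      refine Finset.prod_congr rfl fun i hi => ?_
      have hij : j ≠ i := (Finset.ne_of_mem_erase hi).symm
      simp [hij]
    rw [h1]
    have h2 : (Finsupp.single j 1 + s : T12Idx I k →₀ ℕ) j = s j + 1 := by
      simp [add_comm]
    have h3 : (s - Finsupp.single j 1 : T12Idx I k →₀ ℕ) j = s j - 1 := by
      simp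
    rw [h2, h3, t12_cmoment_succ _ hv]
    push_cast
    ring

/-! ### Hermitian coordinates -/

/-- the polynomial matrix `herm x_i` -/
def t12G (i : I) : Matrix (Fin k) (Fin k) (MvPolynomial (T12Idx I k) ℂ) :=
  Matrix.of fun a b =>
    ((1 + Complex.I) / 2) • X (i, a, b) + ((1 - Complex.I) / 2) • X (i, b, a)

/-- the derivation dual to the entries of `t12G` -/
def t12D (i : I) (a b : Fin k) :
    Derivation ℂ (MvPolynomial (T12Idx I k) ℂ) (MvPolynomial (T12Idx I k) ℂ) :=
  ((1 + Complex.I) / 2) • pderiv (i, a, b) + ((1 - Complex.I) / 2) • pderiv (i, b, a)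

omit [Fintype I] [DecidableEq I] in
private lemma t12ev_G (x : I → Fin k → Fin k → ℝ) (i : I) (a b : Fin k) :
    t12ev x (t12G i a b) = herm (x i) a b := by
  unfold t12ev t12G herm
  simp only [Matrix.of_apply, map_add, smul_eval, eval_X]
  ring

private lemma t12_ibpG (hk : 0 < k) (i : I) (a b : Fin k) (p : MvPolynomial (T12Idx I k) ℂ) :
    t12E I k (t12G i a b * p) = (1 / (k : ℂ)) * t12E I k (t12D i a b p) := by
  unfold t12G t12D
  simp only [Matrix.of_apply, add_mul, smul_mul_assoc, map_add, map_smul, t12_ibp hk,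
    Derivation.add_apply, Derivation.smul_apply, smul_eq_mul]
  ring

omit [Fintype I] in
private lemma t12_pd (i j : I) (a b c d : Fin k) :
    pderiv (R := ℂ) (i, a, b) (X (j, c, d) : MvPolynomial (T12Idx I k) ℂ) =
      C (if i = j ∧ a = c ∧ b = d then 1 else 0) := by
  rw [pderiv_X, Pi.single_apply]
  by_cases h : i = j ∧ a = c ∧ b = d
  · rw [if_pos h, if_pos (by rw [h.1, h.2.1, h.2.2]), C_1]
  · rw [if_neg h, if_neg, C_0]
    intro h1
    simp only [Prod.mk.injEq] at h1
    exact h ⟨h1.1.symm, h1.2.1.symm, h1.2.2.symm⟩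

omit [Fintype I] [DecidableEq I] in
private lemma t12_smul_C (r z : ℂ) : (r • C z : MvPolynomial (T12Idx I k) ℂ) = C (r * z) := by
  rw [smul_eq_C_mul, ← C_mul]

omit [Fintype I] in
private lemma t12_DG (i j : I) (a b c d : Fin k) :
    t12D i a b (t12G j c d) = C (if i = j ∧ c = b ∧ a = d then 1 else 0) := by
  unfold t12D t12G
  simp only [Matrix.of_apply, Derivation.map_add, Derivation.map_smul, Derivation.smul_apply,
    Derivation.add_apply, t12_pd, t12_smul_C, ← C_add]
  congr 1
  have hI := Complex.I_mul_I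
  have h1 : ∀ P Q : Prop, ∀ [Decidable P] [Decidable Q], (P ↔ Q) →
      (if P then (1 : ℂ) else 0) = if Q then (1 : ℂ) else 0 := by
    intro P Q _ _ h
    by_cases hP : P
    · rw [if_pos hP, if_pos (h.mp hP)]
    · rw [if_neg hP, if_neg (fun hQ => hP (h.mpr hQ))]
  rw [h1 (i = j ∧ a = d ∧ b = c) (i = j ∧ c = b ∧ a = d)
      ⟨fun h => ⟨h.1, h.2.2.symm, h.2.1⟩, fun h => ⟨h.1, h.2.2, h.2.1.symm⟩⟩,
    h1 (i = j ∧ b = c ∧ a = d) (i = j ∧ c = b ∧ a = d)
      ⟨fun h => ⟨h.1, h.2.1.symm, h.2.2⟩, fun h => ⟨h.1, h.2.1.symm, h.2.2⟩⟩,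
    h1 (i = j ∧ b = d ∧ a = c) (i = j ∧ a = c ∧ b = d)
      ⟨fun h => ⟨h.1, h.2.2, h.2.1⟩, fun h => ⟨h.1, h.2.2, h.2.1⟩⟩]
  generalize (if i = j ∧ c = b ∧ a = d then (1 : ℂ) else 0) = u
  generalize (if i = j ∧ a = c ∧ b = d then (1 : ℂ) else 0) = v
  linear_combination (v / 2 - u / 2) * hI

/-! ### Words -/

/-- the projection as a polynomial matrix -/
def t12P (I : Type) (k d : ℕ) : Matrix (Fin k) (Fin k) (MvPolynomial (T12Idx I k) ℂ) :=
  Matrix.of fun a b => C (pmat k d a b)

/-- the generators as polynomial matrices -/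
def t12gen (d : ℕ) : Option I → Matrix (Fin k) (Fin k) (MvPolynomial (T12Idx I k) ℂ)
  | none => t12P I k d
  | some i => t12G i

/-- words in the polynomial matrices -/
def t12W (k : ℕ) (d : ℕ) (w : List (Option I)) :
    Matrix (Fin k) (Fin k) (MvPolynomial (T12Idx I k) ℂ) := (w.map (t12gen d)).prod

/-- normalised traces -/
def t12tr (k : ℕ) (d : ℕ) (w : List (Option I)) : MvPolynomial (T12Idx I k) ℂ :=
  C (1 / (k : ℂ)) * (t12W k d w).trace

private lemma t12ev_gen (x : I → Fin k → Fin k → ℝ) (d : ℕ) (o : Option I) :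
    (t12ev x).mapMatrix (t12gen d o) = mgen d x o := by
  ext a b
  rw [RingHom.mapMatrix_apply, Matrix.map_apply]
  rcases o with _ | i
  · simp [t12gen, t12P, mgen, t12ev]
  · exact t12ev_G x i a b

private lemma t12ev_W (x : I → Fin k → Fin k → ℝ) (d : ℕ) (w : List (Option I)) :
    (t12ev x).mapMatrix (t12W k d w) = (w.map (mgen d x)).prod := by
  unfold t12W
  rw [map_list_prod, List.map_map]
  congr 1
  refine List.map_congr_left fun o _ => ?_
  exact t12ev_gen x d o

private lemma t12ev_tr (x : I → Fin k → Fin k → ℝ) (d : ℕ) (w : List (Option I)) :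
    t12ev x (t12tr k d w) = mtr d x w := by
  unfold t12tr mtr
  rw [map_mul, ← t12ev_W]
  have h1 : t12ev x ((t12W k d w).trace) = ((t12ev x).mapMatrix (t12W k d w)).trace := by
    simp [Matrix.trace, map_sum]
  rw [h1]
  have h2 : t12ev x (C (1 / (k : ℂ))) = 1 / (k : ℂ) := by simp [t12ev]
  rw [h2]
  ring

private lemma t12W_cons (d : ℕ) (o : Option I) (w : List (Option I)) :
    t12W k d (o :: w) = t12gen d o * t12W k d w := by
  unfold t12W
  rw [List.map_cons, List.prod_cons]

private lemma t12W_append (d : ℕ) (u w : List (Option I)) :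
    t12W k d (u ++ w) = t12W k d u * t12W k d w := by
  unfold t12W
  rw [List.map_append, List.prod_append]

private lemma t12_DW (d : ℕ) (i : I) (a b : Fin k) (w : List (Option I)) (c e : Fin k) :
    t12D i a b (t12W k d w c e) =
      ssum (some i) w (fun u v => t12W k d u c b * t12W k d v a e) := by
  induction w generalizing c with
  | nil =>
    unfold t12W
    rw [List.map_nil, List.prod_nil, ssum_nil, Matrix.one_apply]
    split_ifs
    · exact Derivation.map_one_eq_zero _
    · exact map_zero _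
  | cons o w ih =>
    rw [t12W_cons, Matrix.mul_apply, map_sum, ssum_cons]
    simp only [Derivation.leibniz, smul_eq_mul, ih]
    rw [Finset.sum_add_distrib, add_comm]
    congr 1
    · rcases o with _ | j
      · simp [t12gen, t12P]
      · have h1 : ∀ f, t12D i a b (t12gen d (some j) c f : MvPolynomial (T12Idx I k) ℂ) =
            if a = f then (if i = j ∧ c = b then 1 else 0) else 0 := by
          intro f
          unfold t12gen
          rw [t12_DG]
          by_cases h2 : a = f
          · subst h2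
            by_cases h1 : i = j ∧ c = b
            · simp [h1]
            · rw [if_pos rfl, if_neg h1, if_neg (fun h => h1 ⟨h.1, h.2.1⟩), C_0]
          · rw [if_neg h2, if_neg (fun h => h2 h.2.2), C_0]
        simp only [h1, mul_ite, mul_zero, Finset.sum_ite_eq, Finset.mem_univ, if_true]
        unfold t12W
        by_cases h3 : i = j
        · by_cases h4 : c = b
          · simp [h3, h4]
          · simp [h3, h4]
        · have h5 : ¬ (some j = some i) := fun h => h3 (Option.some.inj h).symm
          simp [h3, h5]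
    · simp only [t12W_cons, Matrix.mul_apply, mul_ssum, Finset.sum_mul]
      rw [ssum_sum]
      refine ssum_congr fun u v _ => ?_
      refine Finset.sum_congr rfl fun f _ => ?_
      ring

private lemma t12_Dtr (d : ℕ) (i : I) (a b : Fin k) (w : List (Option I)) :
    t12D i a b (t12tr k d w) =
      C (1 / (k : ℂ)) * ssum (some i) w (fun u v => t12W k d (v ++ u) a b) := by
  unfold t12tr
  rw [← smul_eq_C_mul, Derivation.map_smul, smul_eq_C_mul]
  congr 1
  unfold Matrix.trace
  rw [map_sum]
  simp only [Matrix.diag_apply, t12_DW]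
  rw [ssum_sum]
  refine ssum_congr fun u v _ => ?_
  rw [t12W_append, Matrix.mul_apply]
  refine Finset.sum_congr rfl fun c _ => ?_
  ring

private lemma t12_Dprod (d : ℕ) (i : I) (a b : Fin k) (L : List (List (Option I))) :
    t12D i a b ((L.map (t12tr k d)).prod) = ∑ t : Fin L.length,
      t12D i a b (t12tr k d (L.get t)) * ((L.eraseIdx t).map (t12tr k d)).prod := by
  induction L with
  | nil => simp
  | cons w L ih =>
    rw [List.map_cons, List.prod_cons, Derivation.leibniz, ih]
    have h1 := Fin.sum_univ_succ (n := L.length) (fun t : Fin (L.length + 1) =>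
      t12D i a b (t12tr k d ((w :: L).get t)) *
        (((w :: L).eraseIdx t).map (t12tr k d)).prod)
    refine Eq.trans ?_ h1.symm
    rw [add_comm]
    congr 1
    · simp [mul_comm]
    · rw [smul_eq_mul, Finset.mul_sum]
      refine Finset.sum_congr rfl fun t _ => ?_
      simp only [List.get_cons_succ', Fin.val_succ, List.eraseIdx_cons_succ, List.map_cons,
        List.prod_cons]
      ring

private lemma t12ev_prod (x : I → Fin k → Fin k → ℝ) (d : ℕ) (L : List (List (Option I))) :
    t12ev x ((L.map (t12tr k d)).prod) = (L.map (mtr d x)).prod := by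
  rw [map_list_prod, List.map_map]
  congr 1
  refine List.map_congr_left fun w _ => ?_
  exact t12ev_tr x d w

private lemma t12_main (hk : 0 < k) (d : ℕ) (i : I) (W : List (Option I))
    (L : List (List (Option I))) :
    t12E I k (t12tr k d (some i :: W) * (L.map (t12tr k d)).prod) =
      ssum (some i) W (fun u v => t12E I k (t12tr k d u * t12tr k d v * (L.map (t12tr k d)).prod)) +
      (1 / (k : ℂ) ^ 2) * ∑ t : Fin L.length, ssum (some i) (L.get t) (fun u v =>
        t12E I k (t12tr k d (W ++ v ++ u) * ((L.eraseIdx t).map (t12tr k d)).prod)) := by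
  have h1 : t12tr k d (some i :: W) * (L.map (t12tr k d)).prod =
      ∑ a : Fin k, ∑ b : Fin k, (1 / (k : ℂ)) • (t12G i a b *
        (t12W k d W b a * (L.map (t12tr k d)).prod)) := by
    have h2 : t12tr k d (some i :: W) = C (1 / (k : ℂ)) * ∑ a : Fin k, ∑ b : Fin k,
        t12G i a b * t12W k d W b a := by
      unfold t12tr
      rw [t12W_cons]
      congr 1
    rw [h2, Finset.mul_sum, Finset.sum_mul]
    refine Finset.sum_congr rfl fun a _ => ?_
    rw [Finset.mul_sum, Finset.sum_mul]
    refine Finset.sum_congr rfl fun b _ => ?_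
    rw [smul_eq_C_mul]
    ring
  rw [h1]
  simp only [map_sum, map_smul, t12_ibpG hk, smul_eq_mul]
  have h3 : ∀ a b : Fin k, (1 / (k : ℂ)) * ((1 / (k : ℂ)) * t12E I k (t12D i a b
      (t12W k d W b a * (L.map (t12tr k d)).prod))) = t12E I k (C (1 / (k : ℂ)) *
        (C (1 / (k : ℂ)) * t12D i a b (t12W k d W b a * (L.map (t12tr k d)).prod))) := by
    intro a b
    rw [← smul_eq_C_mul, ← smul_eq_C_mul, map_smul, map_smul, smul_eq_mul, smul_eq_mul]
  simp only [h3]
  simp only [← map_sum]
  have h4 : ∑ a : Fin k, ∑ b : Fin k, C (1 / (k : ℂ)) * (C (1 / (k : ℂ)) *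
      t12D i a b (t12W k d W b a * (L.map (t12tr k d)).prod)) =
      ssum (some i) W (fun u v => t12tr k d u * t12tr k d v * (L.map (t12tr k d)).prod) +
      (1 / (k : ℂ) ^ 2) • ∑ t : Fin L.length, ssum (some i) (L.get t) (fun u v =>
        t12tr k d (W ++ v ++ u) * ((L.eraseIdx t).map (t12tr k d)).prod) := by
    simp only [Derivation.leibniz, t12_DW, t12_Dprod, t12_Dtr, smul_eq_mul, mul_add,
      Finset.sum_add_distrib]
    rw [add_comm]
    congr 1
    · simp only [mul_ssum, ssum_sum]
      refine ssum_congr fun u v _ => ?_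
      unfold t12tr Matrix.trace
      simp only [Matrix.diag_apply]
      rw [Finset.sum_comm]
      rw [Finset.mul_sum, Finset.mul_sum, Finset.sum_mul_sum, Finset.sum_mul]
      refine Finset.sum_congr rfl fun b _ => ?_
      rw [Finset.sum_mul]
      refine Finset.sum_congr rfl fun a _ => ?_
      ring
    · rw [smul_eq_C_mul]
      simp only [Finset.mul_sum]
      refine (Finset.sum_congr rfl (fun x _ => Finset.sum_comm)).trans (Finset.sum_comm.trans ?_)
      refine Finset.sum_congr rfl fun t _ => ?_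
      simp only [mul_ssum, ssum_mul, ssum_sum]
      refine ssum_congr fun u v _ => ?_
      have h5 : t12tr k d (W ++ v ++ u) = C (1 / (k : ℂ)) * ∑ a : Fin k, ∑ b : Fin k,
          t12W k d W b a * t12W k d (v ++ u) a b := by
        unfold t12tr
        congr 1
        rw [List.append_assoc, t12W_append, Matrix.trace, Finset.sum_comm]
        refine Finset.sum_congr rfl fun b _ => ?_
        rw [Matrix.diag_apply, Matrix.mul_apply]
      have h6 : (C (1 / (k : ℂ) ^ 2) : MvPolynomial (T12Idx I k) ℂ) =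
          C (1 / (k : ℂ)) * C (1 / (k : ℂ)) := by
        rw [← C_mul]
        congr 1
        ring
      rw [h5, h6, Finset.mul_sum, Finset.sum_mul, Finset.mul_sum]
      refine Finset.sum_congr rfl fun a _ => ?_
      rw [Finset.mul_sum, Finset.sum_mul, Finset.mul_sum]
      refine Finset.sum_congr rfl fun b _ => ?_
      ring
  rw [h4, map_add, map_smul, smul_eq_mul, map_ssum]
  simp only [map_sum, map_ssum]

end poly

/-- T12a: everything polynomial is integrable. -/
theorem integrable_prod_mtr {I : Type} [Fintype I] [DecidableEq I] {k : ℕ} (hk : 0 < k) (d : ℕ)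
    (L : List (List (Option I))) :
    Integrable (fun x : I → Fin k → Fin k → ℝ => (L.map (mtr d x)).prod) (gm I k) := by
  have h := t12_integrable (I := I) (k := k) ((L.map (t12tr k d)).prod)
  refine h.congr ?_
  filter_upwards with x
  rw [t12ev_prod]

/-- T12b: Gaussian integration by parts (Schwinger-Dyson equation for products of traces). -/
theorem gauss_sd {I : Type} [Fintype I] [DecidableEq I] {k : ℕ} (hk : 0 < k) (d : ℕ) (i : I)
    (W : List (Option I)) (L : List (List (Option I))) :
    ∫ x, mtr d x (some i :: W) * (L.map (mtr d x)).prod ∂(gm I k) =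
      ssum (some i) W (fun u v => ∫ x, mtr d x u * mtr d x v * (L.map (mtr d x)).prod ∂(gm I k)) +
      (1 / (k : ℂ) ^ 2) * ∑ t : Fin L.length, ssum (some i) (L.get t) (fun u v =>
        ∫ x, mtr d x (W ++ v ++ u) * ((L.eraseIdx t).map (mtr d x)).prod ∂(gm I k)) := by
  have h := t12_main hk d i W L
  simp only [t12E_apply, map_mul, t12ev_prod, t12ev_tr] at h
  exact h

end P087
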