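import Vale.Agent.P087.T12

open MeasureTheory Filter Topology
open scoped ENNReal InnerProductSpace Matrix.Norms.L2Operator Matrix
noncomputable section
namespace P087

private lemma t13_tendsto_ssum {ι : Type*} [DecidableEq ι] (j : ι) (w : List ι)
    {f : ℕ → List ι → List ι → ℂ} {g : List ι → List ι → ℂ}
    (h : ∀ u v, w = u ++ j :: v → Tendsto (fun m => f m u v) atTop (𝓝 (g u v))) :
    Tendsto (fun m => ssum j w (f m)) atTop (𝓝 (ssum j w g)) := by
  induction w generalizing f g with
  | nil => simp
  | cons i w ih =>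
    simp only [ssum_cons]
    refine Tendsto.add ?_ (ih fun u v huv => h (i :: u) v (by rw [huv]; rfl))
    by_cases hij : i = j
    · simp only [if_pos hij]
      exact h [] w (by rw [hij]; rfl)
    · simp only [if_neg hij]
      exact tendsto_const_nhds

instance t13_prob (I : Type) [Fintype I] (k : ℕ) : IsProbabilityMeasure (gm I k) := by
  unfold gm
  infer_instance

section

variable {I : Type} [Fintype I] [DecidableEq I]

/-- the number of Gaussian letters -/
def t13cnt (L : List (List (Option I))) : ℕ := (L.map (fun w => w.countP Option.isSome)).sum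

omit [Fintype I] [DecidableEq I] in
private lemma t13_pmat_pow (k d a : ℕ) : (pmat k d) ^ (a + 1) = pmat k d := by
  unfold pmat
  rw [Matrix.diagonal_pow]
  congr 1
  funext i
  rw [Pi.pow_apply]
  split_ifs <;> simp

omit [Fintype I] [DecidableEq I] in
private lemma t13_mtr_none (Q : ℕ) (hQ : 1 ≤ Q) (φ : List (Option I) → ℂ) [DecidableEq I]
    (hφ : LawProps (1 / (Q : ℝ)) φ) {m : ℕ} (hm : 0 < m) (x : I → Fin (Q * m) → Fin (Q * m) → ℝ)
    (w : List (Option I)) (hw : w.countP Option.isSome = 0) : mtr m x w = φ w := by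
  have hw' : w = List.replicate w.length none := by
    rw [List.eq_replicate_iff]
    refine ⟨rfl, fun b hb => ?_⟩
    rw [List.countP_eq_zero] at hw
    have := hw b hb
    rcases b with _ | i
    · rfl
    · simp at this
  have hQ' : (Q : ℂ) ≠ 0 := by exact_mod_cast (by omega : Q ≠ 0)
  have hm' : (m : ℂ) ≠ 0 := by exact_mod_cast (by omega : m ≠ 0)
  rw [hw']
  rcases w.length with _ | a
  · rw [List.replicate_zero, hφ.nil]
    unfold mtr
    simp only [List.map_nil, List.prod_nil, Matrix.trace_one, Fintype.card_fin]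
    push_cast
    rw [div_self]
    exact mul_ne_zero hQ' hm'
  · rw [hφ.proj a]
    unfold mtr
    rw [List.map_replicate, List.prod_replicate]
    have : mgen m x none = pmat (Q * m) m := rfl
    rw [this, t13_pmat_pow]
    have htr : (pmat (Q * m) m).trace = m := by
      unfold pmat
      rw [Matrix.trace_diagonal]
      rw [Finset.sum_boole]
      have : (Finset.univ.filter (fun i : Fin (Q * m) => (i : ℕ) < m)).card = m := by
        rw [Fin.card_filter_val_lt]
        apply min_eq_right
        exact Nat.le_mul_of_pos_left m (by omega)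
      rw [this]
    rw [htr]
    push_cast
    field_simp

omit [Fintype I] [DecidableEq I] in
private lemma t13_mtr_cyc {k : ℕ} (d : ℕ) (x : I → Fin k → Fin k → ℝ) (u v : List (Option I)) :
    mtr d x (u ++ v) = mtr d x (v ++ u) := by
  unfold mtr
  rw [List.map_append, List.map_append, List.prod_append, List.prod_append, Matrix.trace_mul_comm]

private lemma t13_step (Q : ℕ) (hQ : 1 ≤ Q)
    (φ : List (Option I) → ℂ) (hφ : LawProps (1 / (Q : ℝ)) φ) (i : I) (W : List (Option I))
    (L : List (List (Option I)))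
    (ih : ∀ L' : List (List (Option I)), t13cnt L' < t13cnt ((some i :: W) :: L) →
      Tendsto (fun m : ℕ => ∫ x, (L'.map (mtr m x)).prod ∂(gm I (Q * m))) atTop
        (𝓝 ((L'.map φ).prod))) :
    Tendsto (fun m : ℕ => ∫ x, (((some i :: W) :: L).map (mtr m x)).prod ∂(gm I (Q * m))) atTop
      (𝓝 ((((some i :: W) :: L).map φ).prod)) := by
  have h1 : Tendsto (fun m : ℕ => ssum (some i) W (fun u v =>
      ∫ x, ((u :: v :: L).map (mtr m x)).prod ∂(gm I (Q * m)))) atTop
      (𝓝 (ssum (some i) W (fun u v => ((u :: v :: L).map φ).prod))) := by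
    refine t13_tendsto_ssum _ _ fun u v huv => ih _ ?_
    unfold t13cnt
    rw [huv]
    simp only [List.map_cons, List.sum_cons, List.countP_cons, List.countP_append,
      Option.isSome_some, if_true]
    omega
  have h2 : Tendsto (fun m : ℕ => ∑ t : Fin L.length, ssum (some i) (L.get t) (fun u v =>
      ∫ x, (((W ++ v ++ u) :: L.eraseIdx t).map (mtr m x)).prod ∂(gm I (Q * m)))) atTop
      (𝓝 (∑ t : Fin L.length, ssum (some i) (L.get t) (fun u v =>
        (((W ++ v ++ u) :: L.eraseIdx t).map φ).prod))) := by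
    refine tendsto_finsetSum _ fun t _ => t13_tendsto_ssum _ _ fun u v huv => ih _ ?_
    unfold t13cnt
    have hperm : List.Perm L (L.get t :: L.eraseIdx t) :=
      (List.getElem_cons_eraseIdx_perm t.2).symm
    have h3 := (hperm.map (fun w : List (Option I) => w.countP Option.isSome)).sum_eq
    simp only [List.map_cons, List.sum_cons] at h3 ⊢
    rw [huv] at h3
    rw [h3]
    simp only [List.countP_cons, List.countP_append, Option.isSome_some, if_true]
    omega
  have h3 : Tendsto (fun m : ℕ => (1 / ((Q * m : ℕ) : ℂ) ^ 2)) atTop (𝓝 0) := by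
    have h4 : Tendsto (fun m : ℕ => ((Q * m : ℕ) : ℝ)) atTop atTop := by
      refine tendsto_natCast_atTop_atTop.comp ?_
      refine tendsto_atTop_mono (fun m => ?_) tendsto_id
      exact Nat.le_mul_of_pos_left m (by omega)
    have h5 : Tendsto (fun m : ℕ => (1 / ((Q * m : ℕ) : ℝ) ^ 2)) atTop (𝓝 0) := by
      have := (tendsto_pow_atTop (α := ℝ) (two_ne_zero)).comp h4
      exact tendsto_const_nhds.div_atTop this
    have h6 := (Complex.continuous_ofReal.tendsto 0).comp h5
    refine (h6.congr fun m => ?_).trans (by simp)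
    simp
  have h4 := h1.add (h3.mul h2)
  have h5 : ssum (some i) W (fun u v => ((u :: v :: L).map φ).prod) +
      0 * ∑ t : Fin L.length, ssum (some i) (L.get t) (fun u v =>
        (((W ++ v ++ u) :: L.eraseIdx t).map φ).prod) = ((((some i :: W) :: L).map φ).prod) := by
    rw [zero_mul, add_zero, List.map_cons, List.prod_cons, hφ.sd i W,
      ← ssum_eq_fin (some i) W (fun u v => φ u * φ v), ssum_mul]
    refine ssum_congr fun u v _ => ?_
    simp only [List.map_cons, List.prod_cons]
    ring
  rw [h5] at h4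
  refine h4.congr' ?_
  filter_upwards [eventually_gt_atTop 0] with m hm
  have hk : 0 < Q * m := Nat.mul_pos (by omega) hm
  have h6 := gauss_sd (I := I) hk m i W L
  simp only [List.map_cons, List.prod_cons]
  rw [h6]
  simp only [mul_assoc]

/-- T13a -/
theorem tendsto_moments {I : Type} [Fintype I] [DecidableEq I] (Q : ℕ) (hQ : 1 ≤ Q)
    (φ : List (Option I) → ℂ) (hφ : LawProps (1 / (Q : ℝ)) φ) (L : List (List (Option I))) :
    Tendsto (fun m : ℕ => ∫ x, (L.map (mtr m x)).prod ∂(gm I (Q * m))) atTop
      (𝓝 ((L.map φ).prod)) := by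
  obtain ⟨n, hn⟩ : ∃ n, n = t13cnt L := ⟨_, rfl⟩
  induction n using Nat.strong_induction_on generalizing L with
  | _ n ih =>
  by_cases h0 : ∀ w ∈ L, w.countP Option.isSome = 0
  · refine (tendsto_const_nhds (x := (L.map φ).prod)).congr' ?_
    filter_upwards [eventually_gt_atTop 0] with m hm
    have h1 : ∀ x : I → Fin (Q * m) → Fin (Q * m) → ℝ, (L.map (mtr m x)).prod =
        (L.map φ).prod := by
      intro x
      congr 1
      refine List.map_congr_left fun w hw => ?_
      exact t13_mtr_none Q hQ φ hφ hm x w (h0 w hw)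
    simp only [h1]
    simp
  · push Not at h0
    obtain ⟨w, hwL, hw⟩ := h0
    have h1 : 0 < w.countP Option.isSome := Nat.pos_of_ne_zero hw
    rw [List.countP_pos_iff] at h1
    obtain ⟨o, how, ho⟩ := h1
    obtain ⟨i, rfl⟩ := Option.isSome_iff_exists.mp ho
    obtain ⟨u, v, huv⟩ := List.append_of_mem how
    have hperm : List.Perm L (w :: L.erase w) := List.perm_cons_erase hwL
    have h2 := t13_step Q hQ φ hφ i (v ++ u) (L.erase w) (fun L' hL' => ?_)
    · have h3 : (L.map φ).prod = (((some i :: (v ++ u)) :: L.erase w).map φ).prod := by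
        rw [(hperm.map φ).prod_eq]
        simp only [List.map_cons, List.prod_cons]
        rw [huv, hφ.cyc u (some i :: v)]
        rfl
      rw [h3]
      refine h2.congr fun m => ?_
      congr 1
      funext x
      rw [(hperm.map (mtr m x)).prod_eq]
      simp only [List.map_cons, List.prod_cons]
      rw [huv, t13_mtr_cyc m x u (some i :: v)]
      rfl
    · refine ih (t13cnt L') ?_ L' rfl
      rw [hn]
      refine lt_of_lt_of_eq hL' ?_
      unfold t13cnt
      have h3 := (hperm.map (fun w : List (Option I) => w.countP Option.isSome)).sum_eq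
      rw [h3]
      simp only [List.map_cons, List.sum_cons]
      rw [huv]
      simp only [List.countP_cons, List.countP_append]
      omega

omit [Fintype I] [DecidableEq I] in
private lemma t13_herm_star {k : ℕ} (x : Fin k → Fin k → ℝ) : (herm x)ᴴ = herm x := by
  ext i j
  rw [Matrix.conjTranspose_apply]
  unfold herm
  simp only [Matrix.of_apply]
  apply Complex.ext
  · simp
    try ring
  · simp
    try ring

omit [Fintype I] [DecidableEq I] in
private lemma t13_mgen_star {k : ℕ} (d : ℕ) (x : I → Fin k → Fin k → ℝ) (o : Option I) :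
    (mgen d x o)ᴴ = mgen d x o := by
  rcases o with _ | i
  · show (pmat k d)ᴴ = pmat k d
    unfold pmat
    rw [Matrix.diagonal_conjTranspose]
    congr 1
    funext i
    rw [Pi.star_apply]
    split_ifs <;> simp
  · exact t13_herm_star (x i)

omit [Fintype I] [DecidableEq I] in
private lemma t13_prod_star {k : ℕ} (d : ℕ) (x : I → Fin k → Fin k → ℝ) (w : List (Option I)) :
    ((w.map (mgen d x)).prod)ᴴ = ((w.reverse.map (mgen d x)).prod) := by
  induction w with
  | nil => simp
  | cons o w ih =>
    rw [List.map_cons, List.prod_cons, Matrix.conjTranspose_mul, ih, t13_mgen_star]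
    simp

omit [Fintype I] [DecidableEq I] in
private lemma t13_mtr_star {k : ℕ} (d : ℕ) (x : I → Fin k → Fin k → ℝ) (w : List (Option I)) :
    mtr d x w.reverse = (starRingEnd ℂ) (mtr d x w) := by
  unfold mtr
  rw [← t13_prod_star, Matrix.trace_conjTranspose]
  simp

end

/-- T13b: convergence in probability. -/
theorem tendsto_prob {I : Type} [Fintype I] [DecidableEq I] (Q : ℕ) (hQ : 1 ≤ Q)
    (φ : List (Option I) → ℂ) (hφ : LawProps (1 / (Q : ℝ)) φ) (w : List (Option I)) {ε : ℝ}
    (hε : 0 < ε) :
    Tendsto (fun m : ℕ => gm I (Q * m) {x | ε ≤ ‖mtr m x w - φ w‖}) atTop (𝓝 0) := by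
  have hsq : ∀ (m : ℕ) (x : I → Fin (Q * m) → Fin (Q * m) → ℝ),
      ((‖mtr m x w - φ w‖ ^ 2 : ℝ) : ℂ) = mtr m x w * mtr m x w.reverse -
        φ w * mtr m x w.reverse - φ w.reverse * mtr m x w + φ w * φ w.reverse := by
    intro m x
    rw [← Complex.normSq_eq_norm_sq, Complex.normSq_eq_conj_mul_self, map_sub, ← t13_mtr_star,
      ← hφ.rev]
    ring
  have hI : ∀ m : ℕ, 0 < Q * m →
      Integrable (fun x => mtr m x w * mtr m x w.reverse) (gm I (Q * m)) ∧
      Integrable (fun x => mtr m x w) (gm I (Q * m)) ∧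
      Integrable (fun x => mtr m x w.reverse) (gm I (Q * m)) := by
    intro m hk
    have iA := integrable_prod_mtr (I := I) hk m [w, w.reverse]
    have iB := integrable_prod_mtr (I := I) hk m [w]
    have iC := integrable_prod_mtr (I := I) hk m [w.reverse]
    simp only [List.map_cons, List.map_nil, List.prod_cons, List.prod_nil, mul_one] at iA iB iC
    exact ⟨iA, iB, iC⟩
  have h2 : Tendsto (fun m : ℕ => ((∫ x, ‖mtr m x w - φ w‖ ^ 2 ∂(gm I (Q * m)) : ℝ) : ℂ)) atTop
      (𝓝 0) := by
    have hA := tendsto_moments Q hQ φ hφ [w, w.reverse]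
    have hB := tendsto_moments Q hQ φ hφ [w]
    have hC := tendsto_moments Q hQ φ hφ [w.reverse]
    have hD := ((hA.sub (hC.const_mul (φ w))).sub (hB.const_mul (φ w.reverse))).add
      (tendsto_const_nhds (x := φ w * φ w.reverse))
    have h0 : ([w, w.reverse].map φ).prod - φ w * ([w.reverse].map φ).prod -
        φ w.reverse * ([w].map φ).prod + φ w * φ w.reverse = 0 := by
      simp
      ring
    rw [h0] at hD
    refine hD.congr' ?_
    filter_upwards [eventually_gt_atTop 0] with m hm
    have hk : 0 < Q * m := Nat.mul_pos (by omega) hm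
    obtain ⟨iA, iB, iC⟩ := hI m hk
    rw [← integral_complex_ofReal]
    simp only [hsq]
    have j1 : Integrable (fun x => mtr m x w * mtr m x w.reverse - φ w * mtr m x w.reverse)
        (gm I (Q * m)) := iA.sub (iC.const_mul (φ w))
    have j2 : Integrable (fun x => mtr m x w * mtr m x w.reverse - φ w * mtr m x w.reverse -
        φ w.reverse * mtr m x w) (gm I (Q * m)) := j1.sub (iB.const_mul (φ w.reverse))
    rw [integral_add j2 (integrable_const _), integral_sub j1 (iB.const_mul (φ w.reverse)),
      integral_sub iA (iC.const_mul (φ w)), integral_const_mul, integral_const_mul]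
    simp
  have h3 : Tendsto (fun m : ℕ => ∫ x, ‖mtr m x w - φ w‖ ^ 2 ∂(gm I (Q * m))) atTop (𝓝 0) := by
    have := (Complex.continuous_re.tendsto 0).comp h2
    refine (this.congr fun m => ?_).trans (by simp)
    simp
  have h4 : Tendsto (fun m : ℕ => ENNReal.ofReal
      ((∫ x, ‖mtr m x w - φ w‖ ^ 2 ∂(gm I (Q * m))) / ε ^ 2)) atTop (𝓝 0) := by
    have := (h3.div_const (ε ^ 2))
    rw [zero_div] at this
    have h5 := (ENNReal.continuous_ofReal.tendsto 0).comp this
    rw [ENNReal.ofReal_zero] at h5
    exact h5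
  refine tendsto_of_tendsto_of_tendsto_of_le_of_le' tendsto_const_nhds h4
    (Eventually.of_forall fun m => zero_le) ?_
  filter_upwards [eventually_gt_atTop 0] with m hm
  have hk : 0 < Q * m := Nat.mul_pos (by omega) hm
  obtain ⟨iA, iB, iC⟩ := hI m hk
  have hint : Integrable (fun x => ‖mtr m x w - φ w‖ ^ 2) (gm I (Q * m)) := by
    have h5 : Integrable (fun x => ((‖mtr m x w - φ w‖ ^ 2 : ℝ) : ℂ)) (gm I (Q * m)) := by
      simp only [hsq]
      exact ((iA.sub (iC.const_mul (φ w))).sub (iB.const_mul (φ w.reverse))).add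
        (integrable_const (φ w * φ w.reverse))
    have h6 := h5.re
    refine h6.congr ?_
    filter_upwards with x
    exact Complex.ofReal_re _
  have h5 := mul_meas_ge_le_integral_of_nonneg (μ := gm I (Q * m))
    (f := fun x => ‖mtr m x w - φ w‖ ^ 2) (Eventually.of_forall fun x => by positivity) hint
    (ε ^ 2)
  have h6 : {x | ε ≤ ‖mtr m x w - φ w‖} = {x : I → Fin (Q * m) → Fin (Q * m) → ℝ |
      ε ^ 2 ≤ ‖mtr m x w - φ w‖ ^ 2} := by
    ext x
    simp only [Set.mem_ofPred_eq]
    exact (pow_le_pow_iff_left₀ hε.le (norm_nonneg _) two_ne_zero).symm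
  rw [h6]
  rw [← ofReal_measureReal]
  refine ENNReal.ofReal_le_ofReal ?_
  rw [le_div_iff₀ (by positivity), mul_comm]
  exact h5

end P087
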