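import Vale.Agent.P087.GDef
import Vale.Agent.P087.T10

open MeasureTheory Filter Topology
open scoped ENNReal InnerProductSpace Matrix.Norms.L2Operator Matrix
noncomputable section
namespace P087

namespace T14

/-! ### the linear functional `x ↦ Re ⟨u, herm x v⟩` -/

private lemma herm_add' {k : ℕ} (x y : Fin k → Fin k → ℝ) :
    herm (x + y) = herm x + herm y := herm_add x y

private lemma herm_smul' {k : ℕ} (r : ℝ) (x : Fin k → Fin k → ℝ) :
    herm (r • x) = (r : ℂ) • herm x := herm_smul r x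

private lemma norm_herm_entry {k : ℕ} (x : Fin k → Fin k → ℝ) (a b : Fin k) :
    ‖herm x a b‖ ^ 2 = (x a b ^ 2 + x b a ^ 2) / 2 := norm_herm_sq_add x a b

private lemma sum_norm_herm {k : ℕ} (x : Fin k → Fin k → ℝ) :
    ∑ a, ∑ b, ‖herm x a b‖ ^ 2 = ∑ a, ∑ b, x a b ^ 2 := by
  simp only [norm_herm_entry]
  have : ∑ a : Fin k, ∑ b : Fin k, (x a b ^ 2 + x b a ^ 2) / 2
      = (∑ a, ∑ b, x a b ^ 2) / 2 + (∑ a, ∑ b, x b a ^ 2) / 2 := by
    rw [Finset.sum_div, Finset.sum_div, ← Finset.sum_add_distrib]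
    refine Finset.sum_congr rfl fun a _ => ?_
    rw [Finset.sum_div, Finset.sum_div, ← Finset.sum_add_distrib]
    refine Finset.sum_congr rfl fun b _ => ?_
    ring
  rw [this, Finset.sum_comm (f := fun a b => x b a ^ 2)]
  ring

/-- `Re ⟨u, herm x v⟩` -/
private def q {k : ℕ} (u v : Fin k → ℂ) (x : Fin k → Fin k → ℝ) : ℝ :=
  (∑ a, ∑ b, (starRingEnd ℂ) (u a) * herm x a b * v b).re

private def qlin {k : ℕ} (u v : Fin k → ℂ) : (Fin k → Fin k → ℝ) →ₗ[ℝ] ℝ where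
  toFun := q u v
  map_add' x y := by
    simp only [q, herm_add', Matrix.add_apply]
    rw [← Complex.add_re, ← Finset.sum_add_distrib]
    congr 1
    refine Finset.sum_congr rfl fun a _ => ?_
    rw [← Finset.sum_add_distrib]
    refine Finset.sum_congr rfl fun b _ => ?_
    ring
  map_smul' r x := by
    simp only [q, herm_smul', Matrix.smul_apply, smul_eq_mul, RingHom.id_apply]
    rw [← Complex.re_ofReal_mul, Finset.mul_sum]
    congr 1
    refine Finset.sum_congr rfl fun a _ => ?_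
    rw [Finset.mul_sum]
    refine Finset.sum_congr rfl fun b _ => ?_
    ring

/-- coefficients -/
private def qc {k : ℕ} (u v : Fin k → ℂ) (a b : Fin k) : ℝ :=
  qlin u v (Pi.single a (Pi.single b 1))

private lemma q_eq {k : ℕ} (u v : Fin k → ℂ) (x : Fin k → Fin k → ℝ) :
    q u v x = ∑ a, ∑ b, qc u v a b * x a b := by
  have hx : x = ∑ a, ∑ b, x a b • (Pi.single a (Pi.single b (1 : ℝ)) : Fin k → Fin k → ℝ) := by
    funext c d
    simp only [Finset.sum_apply, Pi.smul_apply, smul_eq_mul]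
    rw [Finset.sum_eq_single c, Finset.sum_eq_single d]
    · simp
    · intro b _ hb
      simp [Ne.symm hb]
    · simp
    · intro a _ ha
      refine Finset.sum_eq_zero fun b _ => ?_
      simp [Ne.symm ha]
    · simp
  have h1 : q u v x = qlin u v x := rfl
  rw [h1]
  conv_lhs => rw [hx]
  rw [map_sum]
  refine Finset.sum_congr rfl fun a _ => ?_
  rw [map_sum]
  refine Finset.sum_congr rfl fun b _ => ?_
  rw [map_smul, smul_eq_mul, qc, mul_comm]

private lemma q_sq_le {k : ℕ} (u v : Fin k → ℂ) (x : Fin k → Fin k → ℝ) :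
    q u v x ^ 2 ≤ (∑ a, ∑ b, x a b ^ 2) * ((∑ a, ‖u a‖ ^ 2) * ∑ b, ‖v b‖ ^ 2) := by
  have h1 : |q u v x| ≤ ∑ p : Fin k × Fin k, ‖herm x p.1 p.2‖ * (‖u p.1‖ * ‖v p.2‖) := by
    calc |q u v x| ≤ ‖∑ a, ∑ b, (starRingEnd ℂ) (u a) * herm x a b * v b‖ :=
          Complex.abs_re_le_norm _
      _ = ‖∑ p : Fin k × Fin k, (starRingEnd ℂ) (u p.1) * herm x p.1 p.2 * v p.2‖ := by
          rw [Fintype.sum_prod_type]
      _ ≤ ∑ p : Fin k × Fin k, ‖(starRingEnd ℂ) (u p.1) * herm x p.1 p.2 * v p.2‖ :=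
          norm_sum_le _ _
      _ = ∑ p : Fin k × Fin k, ‖herm x p.1 p.2‖ * (‖u p.1‖ * ‖v p.2‖) := by
          refine Finset.sum_congr rfl fun p _ => ?_
          rw [norm_mul, norm_mul, RCLike.norm_conj]; ring
  have h2 : q u v x ^ 2 ≤
      (∑ p : Fin k × Fin k, ‖herm x p.1 p.2‖ * (‖u p.1‖ * ‖v p.2‖)) ^ 2 := by
    rw [← sq_abs]
    gcongr
  refine h2.trans ((Finset.sum_mul_sq_le_sq_mul_sq _ _ _).trans ?_)
  refine le_of_eq ?_
  have h3 : ∑ p : Fin k × Fin k, (‖u p.1‖ * ‖v p.2‖) ^ 2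
      = (∑ a, ‖u a‖ ^ 2) * ∑ b, ‖v b‖ ^ 2 := by
    rw [Fintype.sum_prod_type, Finset.sum_mul]
    refine Finset.sum_congr rfl fun a _ => ?_
    rw [Finset.mul_sum]
    refine Finset.sum_congr rfl fun b _ => ?_
    ring
  rw [h3, Fintype.sum_prod_type, sum_norm_herm]

private lemma sum_qc_sq_le {k : ℕ} (u v : Fin k → ℂ) (hu : ∑ a, ‖u a‖ ^ 2 ≤ 1)
    (hv : ∑ b, ‖v b‖ ^ 2 ≤ 1) : ∑ a, ∑ b, qc u v a b ^ 2 ≤ 1 := by
  have h1 := q_sq_le u v (qc u v)
  have h2 : q u v (qc u v) = ∑ a, ∑ b, qc u v a b ^ 2 := by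
    rw [q_eq]
    refine Finset.sum_congr rfl fun a _ => ?_
    refine Finset.sum_congr rfl fun b _ => ?_
    ring
  rw [h2] at h1
  set s := ∑ a, ∑ b, qc u v a b ^ 2 with hs
  have hs0 : 0 ≤ s := Finset.sum_nonneg fun a _ => Finset.sum_nonneg fun b _ => sq_nonneg _
  have h3 : (∑ a, ‖u a‖ ^ 2) * ∑ b, ‖v b‖ ^ 2 ≤ 1 :=
    mul_le_one₀ hu (Finset.sum_nonneg fun b _ => sq_nonneg _) hv
  have h4 : s ^ 2 ≤ s * 1 := h1.trans (mul_le_mul_of_nonneg_left h3 hs0)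
  by_contra hcon
  have : 1 < s := lt_of_not_ge hcon
  nlinarith

/-! ### exponential moments -/

private def gm1 (k : ℕ) : Measure (Fin k → Fin k → ℝ) :=
  Measure.pi fun _ => Measure.pi fun _ => ProbabilityTheory.gaussianReal 0 ((k : NNReal)⁻¹)

private instance (k : ℕ) : IsProbabilityMeasure (gm1 k) := by
  unfold gm1; infer_instance

private lemma exp_q_prod {k : ℕ} (c : Fin k → Fin k → ℝ) (t : ℝ) (x : Fin k → Fin k → ℝ) :
    Real.exp (t * ∑ a, ∑ b, c a b * x a b) = ∏ a, ∏ b, Real.exp ((t * c a b) * x a b) := by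
  simp only [← Real.exp_sum, Finset.mul_sum, mul_assoc]

private lemma integrable_exp_q {k : ℕ} (c : Fin k → Fin k → ℝ) (t : ℝ) :
    Integrable (fun x : Fin k → Fin k → ℝ => Real.exp (t * ∑ a, ∑ b, c a b * x a b)) (gm1 k) := by
  simp only [exp_q_prod]
  exact Integrable.fintype_prod (f := fun a (y : Fin k → ℝ) => ∏ b, Real.exp ((t * c a b) * y b))
    fun a => Integrable.fintype_prod (f := fun b (z : ℝ) => Real.exp ((t * c a b) * z))
      fun b => ProbabilityTheory.integrable_exp_mul_gaussianReal _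

private lemma mgf_q {k : ℕ} (c : Fin k → Fin k → ℝ) (t : ℝ) :
    ∫ x, Real.exp (t * ∑ a, ∑ b, c a b * x a b) ∂(gm1 k)
      = Real.exp (t ^ 2 * (∑ a, ∑ b, c a b ^ 2) / (2 * k)) := by
  simp only [exp_q_prod]
  unfold gm1
  rw [integral_fintype_prod_eq_prod
    (f := fun a (y : Fin k → ℝ) => ∏ b, Real.exp ((t * c a b) * y b))]
  have h1 : ∀ a, ∫ y : Fin k → ℝ, ∏ b, Real.exp ((t * c a b) * y b)
      ∂(Measure.pi fun _ => ProbabilityTheory.gaussianReal 0 ((k : NNReal)⁻¹))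
      = ∏ b, Real.exp (t ^ 2 * c a b ^ 2 / (2 * k)) := by
    intro a
    rw [integral_fintype_prod_eq_prod (f := fun b (z : ℝ) => Real.exp ((t * c a b) * z))]
    refine Finset.prod_congr rfl fun b _ => ?_
    have h2 := congrFun (ProbabilityTheory.mgf_fun_id_gaussianReal (μ := 0)
      (v := (k : NNReal)⁻¹)) (t * c a b)
    rw [ProbabilityTheory.mgf] at h2
    rw [h2]
    congr 1
    rw [NNReal.coe_inv, NNReal.coe_natCast]
    rcases Nat.eq_zero_or_pos k with hk | hk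
    · subst hk; simp
    · field_simp
      ring
  simp only [h1]
  simp only [← Real.exp_sum]
  congr 1
  rw [Finset.mul_sum, Finset.sum_div]
  refine Finset.sum_congr rfl fun a _ => ?_
  rw [Finset.mul_sum, Finset.sum_div]

private lemma tail_q {k : ℕ} (hk : 1 ≤ k) (u v : Fin k → ℂ) (hu : ∑ a, ‖u a‖ ^ 2 ≤ 1)
    (hv : ∑ b, ‖v b‖ ^ 2 ≤ 1) :
    gm1 k {x | 5 ≤ q u v x} ≤ ENNReal.ofReal (Real.exp (-(25 / 2) * k)) := by
  have hk' : (0 : ℝ) < k := by exact_mod_cast hk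
  have h1 := ProbabilityTheory.measure_ge_le_exp_mul_mgf (μ := gm1 k)
    (X := fun x => ∑ a, ∑ b, qc u v a b * x a b) (t := 5 * k) 5 (by positivity)
    (integrable_exp_q (qc u v) (5 * k))
  rw [ProbabilityTheory.mgf, mgf_q, ← Real.exp_add] at h1
  have h2 : {x | 5 ≤ q u v x} = {x | 5 ≤ ∑ a, ∑ b, qc u v a b * x a b} := by
    ext x; simp only [Set.mem_ofPred_eq, q_eq]
  rw [h2, ← ofReal_measureReal]
  refine ENNReal.ofReal_le_ofReal (h1.trans ?_)
  rw [Real.exp_le_exp]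
  have h3 := sum_qc_sq_le u v hu hv
  have h4 : (5 * (k : ℝ)) ^ 2 * (∑ a, ∑ b, qc u v a b ^ 2) / (2 * k) ≤
      (5 * (k : ℝ)) ^ 2 * 1 / (2 * k) := by gcongr
  have h5 : (5 * (k : ℝ)) ^ 2 * 1 / (2 * k) = 25 / 2 * k := by
    field_simp; ring
  linarith

/-! ### the net argument -/

private lemma norm_le_of_net {k : ℕ} (F : Finset (EuclideanSpace ℂ (Fin k)))
    (hF1 : ∀ x ∈ F, ‖x‖ ≤ 1)
    (hF2 : ∀ x : EuclideanSpace ℂ (Fin k), ‖x‖ ≤ 1 → ∃ y ∈ F, ‖x - y‖ ≤ 1 / 4)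
    (G : EuclideanSpace ℂ (Fin k) →L[ℂ] EuclideanSpace ℂ (Fin k))
    (hG : ∀ u ∈ F, ∀ v ∈ F, (⟪u, G v⟫_ℂ).re ≤ 5) : ‖G‖ ≤ 10 := by
  have h1 : ∀ x y : EuclideanSpace ℂ (Fin k), ‖x‖ ≤ 1 → ‖y‖ ≤ 1 →
      (⟪y, G x⟫_ℂ).re ≤ 5 + ‖G‖ / 2 := by
    intro x y hx hy
    obtain ⟨x', hx'F, hx'⟩ := hF2 x hx
    obtain ⟨y', hy'F, hy'⟩ := hF2 y hy
    have e : ⟪y, G x⟫_ℂ = ⟪y - y', G x⟫_ℂ + ⟪y', G (x - x')⟫_ℂ + ⟪y', G x'⟫_ℂ := by
      rw [map_sub, inner_sub_left, inner_sub_right]; ring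
    have b1 : (⟪y - y', G x⟫_ℂ).re ≤ ‖G‖ / 4 := by
      refine (Complex.re_le_norm _).trans ((norm_inner_le_norm _ _).trans ?_)
      calc ‖y - y'‖ * ‖G x‖ ≤ 1 / 4 * (‖G‖ * 1) := by
            gcongr
            exact (G.le_opNorm x).trans (by gcongr)
        _ = ‖G‖ / 4 := by ring
    have b2 : (⟪y', G (x - x')⟫_ℂ).re ≤ ‖G‖ / 4 := by
      refine (Complex.re_le_norm _).trans ((norm_inner_le_norm _ _).trans ?_)
      calc ‖y'‖ * ‖G (x - x')‖ ≤ 1 * (‖G‖ * (1 / 4)) := by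
            gcongr
            · exact hF1 _ hy'F
            · exact (G.le_opNorm _).trans (by gcongr)
        _ = ‖G‖ / 4 := by ring
    have b3 := hG y' hy'F x' hx'F
    rw [e, Complex.add_re, Complex.add_re]
    linarith
  have h2 : ∀ x : EuclideanSpace ℂ (Fin k), ‖x‖ ≤ 1 → ‖G x‖ ≤ 5 + ‖G‖ / 2 := by
    intro x hx
    rcases eq_or_ne (‖G x‖) 0 with h0 | h0
    · rw [h0]; positivity
    · have hpos : 0 < ‖G x‖ := lt_of_le_of_ne (norm_nonneg _) (Ne.symm h0)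
      have h3 := h1 x (((‖G x‖⁻¹ : ℝ) : ℂ) • G x) hx (by
        rw [norm_smul, Complex.norm_real, norm_inv, norm_norm, inv_mul_cancel₀ h0])
      rw [inner_smul_left, Complex.conj_ofReal, Complex.re_ofReal_mul,
        inner_self_eq_norm_sq_to_K] at h3
      have h4 : (((‖G x‖ : ℝ) : ℂ) ^ 2).re = ‖G x‖ ^ 2 := by
        rw [← Complex.ofReal_pow, Complex.ofReal_re]
      have h5 : ‖G x‖⁻¹ * ‖G x‖ ^ 2 = ‖G x‖ := by field_simp
      have h6 : (((‖G x‖ : ℝ) : ℂ) ^ 2).re = (((‖G x‖ : ℂ)) ^ 2).re := rfl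
      rw [← h5, ← h4]
      exact h3
  have h3 : ‖G‖ ≤ 5 + ‖G‖ / 2 := by
    refine G.opNorm_le_bound (by positivity) fun x => ?_
    rcases eq_or_ne x 0 with h0 | h0
    · subst h0; simp
    · have hx : 0 < ‖x‖ := norm_pos_iff.mpr h0
      have h4 := h2 (((‖x‖⁻¹ : ℝ) : ℂ) • x) (by
        rw [norm_smul, Complex.norm_real, norm_inv, norm_norm, inv_mul_cancel₀ hx.ne'])
      rw [map_smul, norm_smul, Complex.norm_real, norm_inv, norm_norm] at h4
      calc ‖G x‖ = ‖x‖⁻¹ * ‖G x‖ * ‖x‖ := by field_simp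
        _ ≤ (5 + ‖G‖ / 2) * ‖x‖ := by gcongr
  linarith

private lemma inner_eq_q {k : ℕ} (u v : EuclideanSpace ℂ (Fin k)) (x : Fin k → Fin k → ℝ) :
    (⟪u, Matrix.toEuclideanCLM (n := Fin k) (𝕜 := ℂ) (herm x) v⟫_ℂ).re = q u v x := by
  rw [q, PiLp.inner_apply]
  congr 1
  refine Finset.sum_congr rfl fun a _ => ?_
  rw [RCLike.inner_apply, Matrix.ofLp_toEuclideanCLM, Matrix.mulVec, dotProduct, Finset.sum_mul]
  refine Finset.sum_congr rfl fun b _ => ?_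
  ring

private lemma sum_sq_le {k : ℕ} (u : EuclideanSpace ℂ (Fin k)) (hu : ‖u‖ ≤ 1) :
    ∑ a, ‖u a‖ ^ 2 ≤ 1 := by
  rw [← EuclideanSpace.norm_sq_eq]
  exact pow_le_one₀ (norm_nonneg _) hu

private lemma gm1_bound {k : ℕ} (hk : 1 ≤ k) :
    gm1 k {x | 10 < ‖herm x‖} ≤ ENNReal.ofReal ((6561 * Real.exp (-(25 / 2))) ^ k) := by
  obtain ⟨F, hF1, hF2, hF3⟩ := exists_net (E := EuclideanSpace ℂ (Fin k)) (δ := 1 / 4)
    (by norm_num)
  have hfr : Module.finrank ℝ (EuclideanSpace ℂ (Fin k)) = 2 * k := by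
    rw [finrank_real_of_complex, finrank_euclideanSpace_fin]
  have hcard : (F.card : ℝ) ≤ 81 ^ k := by
    refine hF3.trans (le_of_eq ?_)
    rw [hfr, pow_mul]; norm_num
  have hsub : {x : Fin k → Fin k → ℝ | 10 < ‖herm x‖} ⊆
      ⋃ p ∈ F ×ˢ F, {x | 5 ≤ q p.1 p.2 x} := by
    intro x hx
    simp only [Set.mem_iUnion, Set.mem_ofPred_eq] at hx ⊢
    by_contra hcon
    push Not at hcon
    refine absurd hx (not_lt.mpr ?_)
    rw [Matrix.cstar_norm_def]
    refine norm_le_of_net F hF1 hF2 _ fun u hu v hv => ?_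
    rw [inner_eq_q]
    exact (hcon (u, v) (Finset.mem_product.mpr ⟨hu, hv⟩)).le
  calc gm1 k {x | 10 < ‖herm x‖} ≤ gm1 k (⋃ p ∈ F ×ˢ F, {x | 5 ≤ q p.1 p.2 x}) :=
        measure_mono hsub
    _ ≤ ∑ p ∈ F ×ˢ F, gm1 k {x | 5 ≤ q p.1 p.2 x} := measure_biUnion_finset_le _ _
    _ ≤ ∑ _p ∈ F ×ˢ F, ENNReal.ofReal (Real.exp (-(25 / 2) * k)) := by
        refine Finset.sum_le_sum fun p hp => ?_
        rw [Finset.mem_product] at hp
        exact tail_q hk _ _ (sum_sq_le _ (hF1 _ hp.1)) (sum_sq_le _ (hF1 _ hp.2))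
    _ = ENNReal.ofReal (((F.card : ℝ) * F.card) * Real.exp (-(25 / 2) * k)) := by
        rw [Finset.sum_const, Finset.card_product, nsmul_eq_mul, ENNReal.ofReal_mul (by positivity)]
        congr 1
        rw [← Nat.cast_mul, ENNReal.ofReal_natCast]
    _ ≤ ENNReal.ofReal ((6561 * Real.exp (-(25 / 2))) ^ k) := by
        refine ENNReal.ofReal_le_ofReal ?_
        rw [mul_pow, ← Real.exp_nat_mul, mul_comm (k : ℝ)]
        gcongr
        calc (F.card : ℝ) * F.card ≤ 81 ^ k * 81 ^ k := by gcongr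
          _ = 6561 ^ k := by rw [← mul_pow]; norm_num

end T14

/-- T14: the operator norm of a GUE matrix is bounded with probability tending to `1`. -/
theorem norm_bound {I : Type} [Fintype I] [DecidableEq I] (i : I) :
    Tendsto (fun k : ℕ => gm I k {x | 10 < ‖herm (x i)‖}) atTop (𝓝 0) := by
  have hr0 : 0 ≤ 6561 * Real.exp (-(25 / 2)) := by positivity
  have hr1 : 6561 * Real.exp (-(25 / 2)) < 1 := by
    have h1 : (2.7 : ℝ) < Real.exp 1 := by
      have := Real.exp_one_gt_d9; linarith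
    have h2 : (2.7 : ℝ) ^ 12 < Real.exp 12 := by
      have : Real.exp 12 = Real.exp 1 ^ 12 := by
        rw [← Real.exp_nat_mul]; norm_num
      rw [this]
      exact pow_lt_pow_left₀ h1 (by norm_num) (by norm_num)
    have h3 : Real.exp 12 ≤ Real.exp (25 / 2) := Real.exp_le_exp.mpr (by norm_num)
    have h4 : (6561 : ℝ) < Real.exp (25 / 2) := by
      have : (6561 : ℝ) < (2.7 : ℝ) ^ 12 := by norm_num
      linarith
    rw [Real.exp_neg, ← div_eq_mul_inv, div_lt_one (Real.exp_pos _)]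
    exact h4
  have hlim : Tendsto (fun k : ℕ => ENNReal.ofReal ((6561 * Real.exp (-(25 / 2))) ^ k)) atTop
      (𝓝 0) := by
    rw [← ENNReal.ofReal_zero]
    exact (ENNReal.continuous_ofReal.tendsto 0).comp
      (tendsto_pow_atTop_nhds_zero_of_lt_one hr0 hr1)
  refine tendsto_of_tendsto_of_tendsto_of_le_of_le' tendsto_const_nhds hlim
    (Eventually.of_forall fun k => bot_le) ?_
  filter_upwards [eventually_ge_atTop 1] with k hk
  have hmp : MeasurePreserving (Function.eval i) (gm I k) (T14.gm1 k) := by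
    unfold gm T14.gm1
    exact measurePreserving_eval _ i
  have h1 : gm I k {x | 10 < ‖herm (x i)‖} ≤ T14.gm1 k {x | 10 < ‖herm x‖} := by
    have : {x : I → Fin k → Fin k → ℝ | 10 < ‖herm (x i)‖}
        = Function.eval i ⁻¹' {x | 10 < ‖herm x‖} := rfl
    rw [this]
    exact hmp.measure_preimage_le _
  exact h1.trans (T14.gm1_bound hk)

end P087
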