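import Vale.Agent.P087.T03
import Vale.Agent.P087.T13
import Vale.Agent.P087.T14

open MeasureTheory Filter Topology
open scoped ENNReal InnerProductSpace Matrix.Norms.L2Operator Matrix
noncomputable section
namespace P087
variable {H : Type} [NormedAddCommGroup H] [InnerProductSpace ℂ H] [CompleteSpace H]
  {T : TracialVN H}

namespace T15

/-! ### Expansion of words -/

/-- the expansion of a word in the `X_i` in terms of words in the generators -/
def expand {N : ℕ} (Q : ℝ) : List (Fin N) → List (ℂ × List (Option (Letter N)))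
  | [] => [(1, [])]
  | j :: w => (expand Q w).map (fun p => ((Q : ℂ) * p.1, none :: some (0, j) :: none :: p.2)) ++
      (expand Q w).map (fun p => (p.1, some (1, j) :: p.2))

lemma word_expand {A : Type*} [Ring A] [Algebra ℂ A] {N : ℕ} (Q : ℝ)
    (g : Option (Letter N) → A) (w : List (Fin N)) :
    word (Xof Q g) w = ((expand Q w).map (fun p => p.1 • (p.2.map g).prod)).sum := by
  induction w with
  | nil => simp [word, expand]
  | cons j w ih =>
    have h1 : word (Xof Q g) (j :: w) = Xof Q g j * word (Xof Q g) w := by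
      simp [word]
    rw [h1, ih, expand, List.map_append, List.sum_append, List.map_map, List.map_map, Xof, add_mul,
      ← List.sum_map_mul_left, ← List.sum_map_mul_left]
    congr 2
    · refine List.map_congr_left (fun p _ => ?_)
      simp only [Function.comp, List.map_cons, List.prod_cons, smul_mul_assoc, mul_smul_comm,
        mul_assoc, smul_smul]
      rw [mul_comm]
    · refine List.map_congr_left (fun p _ => ?_)
      simp only [Function.comp, List.map_cons, List.prod_cons, mul_smul_comm]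

lemma τ_sum (T : TracialVN H) (L : List (ℂ × (H →L[ℂ] H))) :
    T.τ ((L.map (fun p => p.1 • p.2)).sum) = (L.map (fun p => p.1 * T.τ p.2)).sum := by
  induction L with
  | nil => simp [TracialVN.τ]
  | cons p L ih =>
    rw [List.map_cons, List.sum_cons, List.map_cons, List.sum_cons, ← ih]
    simp [TracialVN.τ]

lemma tr_sum {k : ℕ} (L : List (ℂ × Matrix (Fin k) (Fin k) ℂ)) :
    Matrix.trace ((L.map (fun p : ℂ × Matrix (Fin k) (Fin k) ℂ =>
        (p.1 • p.2 : Matrix (Fin k) (Fin k) ℂ))).sum) / (k : ℂ) =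
      (L.map (fun p : ℂ × Matrix (Fin k) (Fin k) ℂ => p.1 * (Matrix.trace p.2 / k))).sum := by
  induction L with
  | nil => simp
  | cons p L ih =>
    rw [List.map_cons, List.sum_cons, List.map_cons, List.sum_cons, ← ih, Matrix.trace_add,
      Matrix.trace_smul, add_div, smul_eq_mul, mul_div_assoc]

lemma τ_word (T : TracialVN H) {N : ℕ} (Q : ℝ) (g : Option (Letter N) → (H →L[ℂ] H))
    (w : List (Fin N)) :
    T.τ (word (Xof Q g) w) =
      ((expand Q w).map (fun p => p.1 * T.τ ((p.2.map g).prod))).sum := by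
  have := τ_sum T ((expand Q w).map (fun p => (p.1, (p.2.map g).prod)))
  rw [List.map_map, List.map_map] at this
  rw [word_expand]
  exact this

lemma tr_word {N k : ℕ} (Q : ℝ) (m : ℕ) (x : Letter N → Fin k → Fin k → ℝ) (w : List (Fin N)) :
    (word (Xof Q (mgen m x)) w).trace / k =
      ((expand Q w).map (fun p => p.1 * mtr m x p.2)).sum := by
  have := tr_sum ((expand Q w).map (fun p => (p.1, (p.2.map (mgen m x)).prod)))
  rw [List.map_map, List.map_map] at this
  rw [word_expand]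
  exact this

/-! ### Convergence in probability for linear combinations of words -/

lemma tendsto_comb {I : Type} [Fintype I] [DecidableEq I] (Q : ℕ) (hQ : 1 ≤ Q)
    (φ : List (Option I) → ℂ) (hφ : LawProps (1 / (Q : ℝ)) φ)
    (E : List (ℂ × List (Option I))) :
    ∀ {ε : ℝ}, 0 < ε → Tendsto (fun m : ℕ => gm I (Q * m)
      {x | ε ≤ ‖(E.map (fun p => p.1 * mtr m x p.2)).sum - (E.map (fun p => p.1 * φ p.2)).sum‖})
      atTop (𝓝 0) := by
  induction E with
  | nil =>
    intro ε hε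
    have h1 : ∀ m : ℕ, {x : I → Fin (Q * m) → Fin (Q * m) → ℝ |
        ε ≤ ‖(([] : List (ℂ × List (Option I))).map (fun p => p.1 * mtr m x p.2)).sum -
          (([] : List (ℂ × List (Option I))).map (fun p => p.1 * φ p.2)).sum‖} = ∅ := by
      intro m
      ext x
      simp [hε]
    simp only [h1, measure_empty]
    exact tendsto_const_nhds
  | cons p E ih =>
    intro ε hε
    have h1 := ih (half_pos hε)
    have hδ : 0 < ε / 2 / (‖p.1‖ + 1) := by positivity
    have h2 := tendsto_prob Q hQ φ hφ p.2 hδ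
    have h3 := h2.add h1
    rw [add_zero] at h3
    refine tendsto_of_tendsto_of_tendsto_of_le_of_le tendsto_const_nhds h3 (fun _ => bot_le)
      (fun m => ?_)
    refine (measure_mono ?_).trans (measure_union_le _ _)
    intro x hx
    rw [Set.mem_ofPred_eq] at hx
    rw [Set.mem_union, Set.mem_ofPred_eq, Set.mem_ofPred_eq]
    by_contra hcon
    push Not at hcon
    obtain ⟨ha, hb⟩ := hcon
    rw [List.map_cons, List.sum_cons, List.map_cons, List.sum_cons, add_sub_add_comm, ← mul_sub]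
      at hx
    have hc : ‖p.1 * (mtr m x p.2 - φ p.2)‖ < ε / 2 := by
      rw [norm_mul]
      calc ‖p.1‖ * ‖mtr m x p.2 - φ p.2‖ ≤ ‖p.1‖ * (ε / 2 / (‖p.1‖ + 1)) :=
            mul_le_mul_of_nonneg_left ha.le (norm_nonneg _)
        _ < ε / 2 := by
          rw [← mul_div_assoc, div_lt_iff₀ (by positivity)]
          nlinarith [norm_nonneg p.1]
    have := (hx.trans (norm_add_le _ _)).trans_lt (add_lt_add hc hb)
    linarith

/-! ### Domination by Lebesgue measure -/

lemma pi_mono' {ι : Type*} [Fintype ι] {α : ι → Type*} [∀ i, MeasurableSpace (α i)]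
    {μ ν : ∀ i, Measure (α i)} [∀ i, SigmaFinite (μ i)] [∀ i, SigmaFinite (ν i)]
    (h : ∀ i, μ i ≤ ν i) : Measure.pi μ ≤ Measure.pi ν := by
  rw [Measure.le_iff]
  intro s hs
  have h1 : (Measure.pi μ).toOuterMeasure ≤ OuterMeasure.pi (fun i => (ν i).toOuterMeasure) := by
    rw [OuterMeasure.le_pi]
    intro t _
    change Measure.pi μ (Set.univ.pi t) ≤ _
    rw [Measure.pi_pi]
    exact Finset.prod_le_prod' (fun i _ => h i _)
  have h2 : Measure.pi ν s = OuterMeasure.pi (fun i => (ν i).toOuterMeasure) s := by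
    rw [Measure.pi_def]
    exact toMeasure_apply _ _ hs
  rw [h2]
  exact h1 s

lemma pi_smul' {ι : Type*} [Fintype ι] {α : ι → Type*} [∀ i, MeasurableSpace (α i)]
    {ν : ∀ i, Measure (α i)} [∀ i, SigmaFinite (ν i)] (c : ℝ≥0∞) (hc : c ≠ ∞) :
    Measure.pi (fun i => c • ν i) = c ^ (Fintype.card ι) • Measure.pi ν := by
  have : ∀ i, SigmaFinite (c • ν i) := fun i => by
    lift c to NNReal using hc
    exact inferInstanceAs (SigmaFinite (c • ν i))
  refine Measure.pi_eq (fun s _ => ?_)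
  rw [Measure.smul_apply, Measure.pi_pi, smul_eq_mul]
  simp only [Measure.smul_apply, smul_eq_mul, Finset.prod_mul_distrib, Finset.prod_const,
    Finset.card_univ]

lemma pi_le_smul {ι : Type*} [Fintype ι] {α : ι → Type*} [∀ i, MeasurableSpace (α i)]
    {μ ν : ∀ i, Measure (α i)} [∀ i, SigmaFinite (μ i)] [∀ i, SigmaFinite (ν i)] (c : ℝ≥0∞)
    (hc : c ≠ ∞) (h : ∀ i, μ i ≤ c • ν i) :
    Measure.pi μ ≤ c ^ (Fintype.card ι) • Measure.pi ν := by
  have : ∀ i, SigmaFinite (c • ν i) := fun i => by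
    lift c to NNReal using hc
    exact inferInstanceAs (SigmaFinite (c • ν i))
  rw [← pi_smul' c hc]
  exact pi_mono' h

lemma gauss_le {k : ℕ} (hk : 0 < k) : ProbabilityTheory.gaussianReal 0 ((k : NNReal)⁻¹) ≤
    ENNReal.ofReal (√(k / (2 * Real.pi))) • (volume : Measure ℝ) := by
  have hv : ((k : NNReal)⁻¹) ≠ 0 := by
    have : (k : NNReal) ≠ 0 := by exact_mod_cast hk.ne'
    exact inv_ne_zero this
  rw [ProbabilityTheory.gaussianReal_of_var_ne_zero _ hv, ← withDensity_const]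
  refine withDensity_mono (Filter.Eventually.of_forall fun x => ?_)
  rw [ProbabilityTheory.gaussianPDF]
  refine ENNReal.ofReal_le_ofReal ?_
  rw [ProbabilityTheory.gaussianPDFReal]
  have hk0 : (0 : ℝ) < k := by exact_mod_cast hk
  have h1 : (√(2 * Real.pi * (((k : NNReal)⁻¹ : NNReal) : ℝ)))⁻¹ = √(k / (2 * Real.pi)) := by
    rw [← Real.sqrt_inv]
    congr 1
    push_cast
    field_simp
  rw [h1]
  refine mul_le_of_le_one_right (Real.sqrt_nonneg _) ?_
  rw [Real.exp_le_one_iff]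
  have : 0 ≤ (x - 0) ^ 2 / (2 * (((k : NNReal)⁻¹ : NNReal) : ℝ)) := by positivity
  rw [neg_div]
  linarith

/-! ### The matrix model -/

/-- the coordinates of the matrix model for the `X_j` -/
def zz {N k : ℕ} (Q : ℝ) (m : ℕ) (x : Letter N → Fin k → Fin k → ℝ) (j : Fin N) (a b : Fin k) : ℝ :=
  x (1, j) a b + (if (a : ℕ) < m ∧ (b : ℕ) < m then Q else 0) * x (0, j) a b

lemma herm_zz {N k : ℕ} (Q : ℝ) (m : ℕ) (x : Letter N → Fin k → Fin k → ℝ) (j : Fin N) :
    herm (zz Q m x j) = Xof Q (mgen m x) j := by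
  ext a b
  simp only [Xof, mgen, pmat, Matrix.add_apply, Matrix.smul_apply, Matrix.mul_diagonal,
    Matrix.diagonal_mul, herm, Matrix.of_apply, zz, smul_eq_mul]
  by_cases ha : (a : ℕ) < m
  · by_cases hb : (b : ℕ) < m
    · rw [if_pos (⟨ha, hb⟩ : (a : ℕ) < m ∧ (b : ℕ) < m), if_pos (⟨hb, ha⟩ : (b : ℕ) < m ∧ (a : ℕ) < m),
        if_pos ha, if_pos hb]
      push_cast
      ring
    · rw [if_neg (fun h : (a : ℕ) < m ∧ (b : ℕ) < m => hb h.2),
        if_neg (fun h : (b : ℕ) < m ∧ (a : ℕ) < m => hb h.1), if_neg hb]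
      push_cast
      ring
  · rw [if_neg (fun h : (a : ℕ) < m ∧ (b : ℕ) < m => ha h.1),
      if_neg (fun h : (b : ℕ) < m ∧ (a : ℕ) < m => ha h.2), if_neg ha]
    push_cast
    ring

lemma norm_pmat_le (k d : ℕ) : ‖pmat k d‖ ≤ 1 := by
  rw [pmat, Matrix.l2_opNorm_diagonal]
  refine (pi_norm_le_iff_of_nonneg zero_le_one).mpr (fun i => ?_)
  split_ifs <;> simp

lemma norm_zz {N k : ℕ} {Q : ℝ} (hQ : 0 ≤ Q) (m : ℕ) (x : Letter N → Fin k → Fin k → ℝ)
    (j : Fin N) (h0 : ‖herm (x (0, j))‖ ≤ 10) (h1 : ‖herm (x (1, j))‖ ≤ 10) :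
    ‖herm (zz Q m x j)‖ ≤ 10 * (Q + 1) := by
  rw [herm_zz, Xof]
  refine (norm_add_le _ _).trans ?_
  have h2 : ‖(Q : ℂ) • (mgen m x none * mgen m x (some (0, j)) * mgen m x none)‖ ≤ Q * 10 := by
    rw [norm_smul, Complex.norm_real, Real.norm_of_nonneg hQ]
    refine mul_le_mul_of_nonneg_left ?_ hQ
    have hp := norm_pmat_le k m
    calc ‖pmat k m * herm (x (0, j)) * pmat k m‖
        ≤ ‖pmat k m * herm (x (0, j))‖ * ‖pmat k m‖ := norm_mul_le _ _
      _ ≤ ‖pmat k m * herm (x (0, j))‖ * 1 := mul_le_mul_of_nonneg_left hp (norm_nonneg _)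
      _ = ‖pmat k m * herm (x (0, j))‖ := mul_one _
      _ ≤ ‖pmat k m‖ * ‖herm (x (0, j))‖ := norm_mul_le _ _
      _ ≤ 1 * ‖herm (x (0, j))‖ := mul_le_mul_of_nonneg_right hp (norm_nonneg _)
      _ ≤ 10 := by rw [one_mul]; exact h0
  have h3 : ‖mgen m x (some (1, j))‖ ≤ 10 := h1
  linarith

/-- large norm -/
def badN {N : ℕ} (k : ℕ) (i : Letter N) : Set (Letter N → Fin k → Fin k → ℝ) :=
  {x | 10 < ‖herm (x i)‖}

/-- wrong moment -/
def badW (T : TracialVN H) {N : ℕ} (Q : ℕ) (g : Option (Letter N) → (H →L[ℂ] H)) (ε : ℝ) (m : ℕ)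
    (w : List (Fin N)) : Set (Letter N → Fin (Q * m) → Fin (Q * m) → ℝ) :=
  {x | ε ≤ ‖(((expand (Q : ℝ) w).map (fun p => p.1 * mtr m x p.2)).sum : ℂ) -
        ((expand (Q : ℝ) w).map (fun p => p.1 * T.τ ((p.2.map g).prod))).sum‖}

lemma bad_subset (T : TracialVN H) {N : ℕ} (Q : ℕ)
    (g : Option (Letter N) → (H →L[ℂ] H)) (m' : ℕ) (ε : ℝ) (W : Finset (List (Fin N)))
    (hW : ∀ w : List (Fin N), w.length ≤ m' → w ∈ W) (m : ℕ) :
    {x | zz (Q : ℝ) m x ∉ T.Gamma (Xof (Q : ℝ) g) (10 * (Q + 1)) m' (Q * m) ε} ⊆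
      (⋃ i ∈ (Finset.univ : Finset (Letter N)), badN (Q * m) i) ∪ ⋃ w ∈ W, badW T Q g ε m w := by
  intro x hx
  by_contra hcon
  rw [Set.mem_union, not_or] at hcon
  obtain ⟨ha, hb⟩ := hcon
  have ha' : ∀ i, ‖herm (x i)‖ ≤ 10 := by
    intro i
    by_contra h
    push Not at h
    exact ha (Set.mem_biUnion (Finset.mem_coe.mpr (Finset.mem_univ i)) h)
  have hb' : ∀ w ∈ W, ‖(((expand (Q : ℝ) w).map (fun p => p.1 * mtr m x p.2)).sum : ℂ) -
        ((expand (Q : ℝ) w).map (fun p => p.1 * T.τ ((p.2.map g).prod))).sum‖ < ε := by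
    intro w hw
    by_contra h
    push Not at h
    exact hb (Set.mem_biUnion (Finset.mem_coe.mpr hw) h)
  apply hx
  refine ⟨fun j => ?_, fun w _ hw => ?_⟩
  · exact norm_zz (Nat.cast_nonneg Q) m x j (ha' (0, j)) (ha' (1, j))
  · have h5 := hb' w (hW w hw)
    rw [← tr_word, ← τ_word] at h5
    have h6 : (fun j => herm (zz (Q : ℝ) m x j)) = Xof (Q : ℝ) (mgen m x) :=
      funext (fun j => herm_zz _ m x j)
    rw [h6]
    exact h5

/-- the model is a microstate with high probability -/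
lemma tendsto_bad (T : TracialVN H) {N : ℕ} (Q : ℕ) (hQ : 1 ≤ Q)
    (g : Option (Letter N) → (H →L[ℂ] H))
    (hφ : LawProps (1 / (Q : ℝ)) (fun w => T.τ ((w.map g).prod))) (m' : ℕ) {ε : ℝ} (hε : 0 < ε) :
    Tendsto (fun m : ℕ => gm (Letter N) (Q * m)
      {x | zz (Q : ℝ) m x ∉ T.Gamma (Xof (Q : ℝ) g) (10 * (Q + 1)) m' (Q * m) ε}) atTop (𝓝 0) := by
  have hfin : {w : List (Fin N) | w.length ≤ m'}.Finite := List.finite_length_le (Fin N) m'
  have hQm : Tendsto (fun m : ℕ => Q * m) atTop atTop :=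
    tendsto_id.const_mul_atTop' (by omega)
  have h1 : Tendsto (fun m : ℕ => ∑ i : Letter N, gm (Letter N) (Q * m) (badN (Q * m) i))
      atTop (𝓝 0) := by
    have := tendsto_finsetSum (Finset.univ : Finset (Letter N))
      (fun i _ => (norm_bound i).comp hQm)
    rw [Finset.sum_const_zero] at this
    exact this
  have h2 : Tendsto (fun m : ℕ => ∑ w ∈ hfin.toFinset, gm (Letter N) (Q * m) (badW T Q g ε m w))
      atTop (𝓝 0) := by
    have := tendsto_finsetSum hfin.toFinset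
      (fun w _ => tendsto_comb Q hQ _ hφ (expand (Q : ℝ) w) hε)
    rw [Finset.sum_const_zero] at this
    exact this
  have h3 := h1.add h2
  rw [add_zero] at h3
  refine tendsto_of_tendsto_of_tendsto_of_le_of_le tendsto_const_nhds h3 (fun _ => bot_le)
    (fun m => ?_)
  refine (measure_mono (bad_subset T Q g m' ε hfin.toFinset
    (fun w hw => hfin.mem_toFinset.mpr hw) m)).trans ?_
  exact (measure_union_le _ _).trans
    (add_le_add (measure_biUnion_finset_le _ _) (measure_biUnion_finset_le _ _))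

/-! ### Domination of the law of the model by Lebesgue measure -/

/-- the law of one matrix -/
def nu (k : ℕ) : Measure (Fin k → Fin k → ℝ) :=
  Measure.pi fun _ => Measure.pi fun _ => ProbabilityTheory.gaussianReal 0 ((k : NNReal)⁻¹)

instance (k : ℕ) : IsProbabilityMeasure (nu k) := by
  unfold nu
  infer_instance

/-- the bound on the density -/
def cst (k : ℕ) : ℝ≥0∞ := ENNReal.ofReal (√(k / (2 * Real.pi)))

lemma cst_ne_top (k : ℕ) : cst k ≠ ∞ := ENNReal.ofReal_ne_top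

lemma nu_le {k : ℕ} (hk : 0 < k) : nu k ≤ ((cst k ^ k) ^ k) • volume := by
  have h1 : Measure.pi (fun _ : Fin k => ProbabilityTheory.gaussianReal 0 ((k : NNReal)⁻¹)) ≤
      (cst k ^ k) • (volume : Measure (Fin k → ℝ)) := by
    have := pi_le_smul (ι := Fin k) (μ := fun _ => ProbabilityTheory.gaussianReal 0 ((k : NNReal)⁻¹))
      (ν := fun _ => (volume : Measure ℝ)) (cst k) (cst_ne_top k) (fun _ => gauss_le hk)
    rw [Fintype.card_fin] at this
    exact this
  have := pi_le_smul (ι := Fin k)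
    (μ := fun _ => Measure.pi (fun _ : Fin k => ProbabilityTheory.gaussianReal 0 ((k : NNReal)⁻¹)))
    (ν := fun _ => (volume : Measure (Fin k → ℝ))) (cst k ^ k)
    (ENNReal.pow_ne_top (cst_ne_top k)) (fun _ => h1)
  rw [Fintype.card_fin] at this
  exact this

lemma nuN_le {N k : ℕ} (hk : 0 < k) : Measure.pi (fun _ : Fin N => nu k) ≤
    (((cst k ^ k) ^ k) ^ N) • (volume : Measure (Fin N → Fin k → Fin k → ℝ)) := by
  have := pi_le_smul (ι := Fin N) (μ := fun _ => nu k)
    (ν := fun _ => (volume : Measure (Fin k → Fin k → ℝ))) ((cst k ^ k) ^ k)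
    (ENNReal.pow_ne_top (ENNReal.pow_ne_top (cst_ne_top k))) (fun _ => nu_le hk)
  rw [Fintype.card_fin] at this
  exact this

lemma measurable_zz {N k : ℕ} (Q : ℝ) (m : ℕ) :
    Measurable (fun x : Letter N → Fin k → Fin k → ℝ => zz Q m x) := by
  rw [measurable_pi_iff]
  intro j
  rw [measurable_pi_iff]
  intro a
  rw [measurable_pi_iff]
  intro b
  unfold zz
  fun_prop

/-- the letters `(1, j)` -/
def eqv (N : ℕ) : Fin N ≃ {i : Letter N // i.1 = 1} where
  toFun j := ⟨(1, j), rfl⟩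
  invFun i := i.1.2
  left_inv _ := rfl
  right_inv := by
    rintro ⟨⟨a, j⟩, h⟩
    simp only at h
    subst h
    rfl

lemma dom {N k : ℕ} (hk : 0 < k) (Q : ℝ) (m : ℕ) (A : Set (Fin N → Fin k → Fin k → ℝ))
    (hA : MeasurableSet A) :
    gm (Letter N) k {x | zz Q m x ∈ A} ≤ ((cst k ^ k) ^ k) ^ N * volume A := by
  set E := MeasurableEquiv.piEquivPiSubtypeProd (fun _ : Letter N => (Fin k → Fin k → ℝ))
    (fun i => i.1 = 1) with hEdef
  have hE := measurePreserving_piEquivPiSubtypeProd (fun _ : Letter N => nu k) (fun i => i.1 = 1)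
  have hB : MeasurableSet {x : Letter N → Fin k → Fin k → ℝ | zz Q m x ∈ A} :=
    measurable_zz Q m hA
  have h1 : gm (Letter N) k {x | zz Q m x ∈ A} =
      ((Measure.pi fun _ : {i : Letter N // i.1 = 1} => nu k).prod
        (Measure.pi fun _ : {i : Letter N // ¬ i.1 = 1} => nu k))
        (E.symm ⁻¹' {x | zz Q m x ∈ A}) := by
    exact ((MeasurePreserving.symm E hE).measure_preimage_equiv _).symm
  rw [h1, Measure.prod_apply_symm (E.symm.measurable hB)]
  have h2 : ∀ y : {i : Letter N // ¬ i.1 = 1} → Fin k → Fin k → ℝ,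
      (Measure.pi fun _ : {i : Letter N // i.1 = 1} => nu k)
        ((fun u => (u, y)) ⁻¹' (E.symm ⁻¹' {x | zz Q m x ∈ A})) ≤
      ((cst k ^ k) ^ k) ^ N * volume A := by
    intro y
    have hf := measurePreserving_piCongrLeft (fun _ : {i : Letter N // i.1 = 1} => nu k) (eqv N)
    rw [← hf.measure_preimage_equiv]
    let sh : Fin N → Fin k → Fin k → ℝ := fun j a b =>
      (if (a : ℕ) < m ∧ (b : ℕ) < m then Q else 0) * y ⟨(0, j), by simp⟩ a b
    have h3 : (MeasurableEquiv.piCongrLeft (fun _ : {i : Letter N // i.1 = 1} =>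
        (Fin k → Fin k → ℝ)) (eqv N)) ⁻¹'
          ((fun u => (u, y)) ⁻¹' (E.symm ⁻¹' {x | zz Q m x ∈ A})) ⊆ (fun v => v + sh) ⁻¹' A := by
      intro v hv
      have h4 : zz Q m (E.symm ((MeasurableEquiv.piCongrLeft (fun _ : {i : Letter N // i.1 = 1} =>
        (Fin k → Fin k → ℝ)) (eqv N)) v, y)) ∈ A := hv
      have h5 : zz Q m (E.symm ((MeasurableEquiv.piCongrLeft (fun _ : {i : Letter N // i.1 = 1} =>
        (Fin k → Fin k → ℝ)) (eqv N)) v, y)) = v + sh := by
        funext j a b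
        have h6 : ((MeasurableEquiv.piCongrLeft (fun _ : {i : Letter N // i.1 = 1} =>
          (Fin k → Fin k → ℝ)) (eqv N)) v) (eqv N j) = v j :=
          Equiv.piCongrLeft_apply_apply (fun _ : {i : Letter N // i.1 = 1} =>
            (Fin k → Fin k → ℝ)) (eqv N) v j
        change ((MeasurableEquiv.piCongrLeft (fun _ : {i : Letter N // i.1 = 1} =>
          (Fin k → Fin k → ℝ)) (eqv N)) v) (eqv N j) a b + sh j a b = v j a b + sh j a b
        rw [h6]
      rw [h5] at h4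
      exact h4
    refine (measure_mono h3).trans ((nuN_le hk _).trans (le_of_eq ?_))
    have hinv : (volume : Measure (Fin N → Fin k → Fin k → ℝ)).IsAddLeftInvariant :=
      Measure.pi.isAddLeftInvariant (fun _ : Fin N => (volume : Measure (Fin k → Fin k → ℝ)))
    rw [Measure.smul_apply, measure_preimage_add_right, smul_eq_mul]
  calc ∫⁻ y, (Measure.pi fun _ : {i : Letter N // i.1 = 1} => nu k)
        ((fun u => (u, y)) ⁻¹' (E.symm ⁻¹' {x | zz Q m x ∈ A}))
        ∂(Measure.pi fun _ : {i : Letter N // ¬ i.1 = 1} => nu k)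
      ≤ ∫⁻ _y, ((cst k ^ k) ^ k) ^ N * volume A
        ∂(Measure.pi fun _ : {i : Letter N // ¬ i.1 = 1} => nu k) := lintegral_mono h2
    _ = ((cst k ^ k) ^ k) ^ N * volume A := by
      rw [lintegral_const, measure_univ, mul_one]

instance {N k : ℕ} : IsProbabilityMeasure (gm (Letter N) k) := by
  unfold gm
  infer_instance

/-- lower bound for the volume of the set of microstates -/
lemma vol_ge (T : TracialVN H) {N k : ℕ} (hk : 0 < k) (Q : ℝ) (m : ℕ)
    (Γ : Set (Fin N → Fin k → Fin k → ℝ))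
    (hbad : gm (Letter N) k {x | zz Q m x ∉ Γ} ≤ 2⁻¹) :
    ENNReal.ofReal (2⁻¹ / (((√(k / (2 * Real.pi))) ^ k) ^ k) ^ N) ≤ volume Γ := by
  have hk0 : (0 : ℝ) < k := by exact_mod_cast hk
  have hr : 0 < √(k / (2 * Real.pi)) := Real.sqrt_pos.mpr (by positivity)
  set A := toMeasurable volume Γ with hA
  have h1 := dom hk Q m A (measurableSet_toMeasurable volume Γ)
  rw [measure_toMeasurable] at h1
  have h2 : (1 : ℝ≥0∞) ≤ gm (Letter N) k {x | zz Q m x ∉ Γ} +
      gm (Letter N) k {x | zz Q m x ∈ A} := by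
    rw [← measure_univ (μ := gm (Letter N) k)]
    refine (measure_mono ?_).trans (measure_union_le _ _)
    intro x _
    by_cases hx : zz Q m x ∈ Γ
    · exact Or.inr (subset_toMeasurable volume Γ hx)
    · exact Or.inl hx
  have h3 : (2⁻¹ : ℝ≥0∞) ≤ ((cst k ^ k) ^ k) ^ N * volume Γ := by
    have h4 : (1 : ℝ≥0∞) ≤ 2⁻¹ + ((cst k ^ k) ^ k) ^ N * volume Γ :=
      h2.trans (add_le_add hbad h1)
    have h5 : (1 : ℝ≥0∞) = 2⁻¹ + 2⁻¹ := ENNReal.inv_two_add_inv_two.symm
    rw [h5] at h4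
    exact (ENNReal.add_le_add_iff_left (by simp)).mp h4
  have h6 : ((cst k ^ k) ^ k) ^ N = ENNReal.ofReal ((((√(k / (2 * Real.pi))) ^ k) ^ k) ^ N) := by
    rw [ENNReal.ofReal_pow (by positivity), ENNReal.ofReal_pow (by positivity),
      ENNReal.ofReal_pow (by positivity)]
    rfl
  rw [ENNReal.ofReal_div_of_pos (by positivity), ← h6]
  refine ENNReal.div_le_of_le_mul' ?_
  have h7 : ENNReal.ofReal (2⁻¹) = 2⁻¹ := by
    rw [ENNReal.ofReal_inv_of_pos (by norm_num)]
    simp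
  rw [h7]
  exact h3

lemma log_ge {N k : ℕ} (hk : 0 < k) {V : ℝ≥0∞}
    (hV : ENNReal.ofReal (2⁻¹ / (((√(k / (2 * Real.pi))) ^ k) ^ k) ^ N) ≤ V) :
    ((-1 : ℝ) : EReal) ≤ ((((k : ℝ) ^ 2)⁻¹ : ℝ) : EReal) * ENNReal.log V +
      (((N : ℝ) / 2 * Real.log k : ℝ) : EReal) := by
  have hk0 : (0 : ℝ) < k := by exact_mod_cast hk
  have hk1 : (1 : ℝ) ≤ k := by exact_mod_cast hk
  have hpi : (0 : ℝ) < 2 * Real.pi := by positivity
  have hr : 0 < √(k / (2 * Real.pi)) := Real.sqrt_pos.mpr (by positivity)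
  have hl := ENNReal.log_monotone hV
  rw [ENNReal.log_ofReal_of_pos (by positivity)] at hl
  have hm : ((((k : ℝ) ^ 2)⁻¹ : ℝ) : EReal) *
      ((Real.log (2⁻¹ / (((√(k / (2 * Real.pi))) ^ k) ^ k) ^ N) : ℝ) : EReal) ≤
      ((((k : ℝ) ^ 2)⁻¹ : ℝ) : EReal) * ENNReal.log V :=
    mul_le_mul_of_nonneg_left hl (by exact_mod_cast (by positivity : (0 : ℝ) ≤ ((k : ℝ) ^ 2)⁻¹))
  refine le_trans ?_ (add_le_add_left hm _)
  rw [← EReal.coe_mul, ← EReal.coe_add, EReal.coe_le_coe_iff, Real.log_div (by norm_num)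
    (by positivity), Real.log_pow, Real.log_pow, Real.log_pow, Real.log_sqrt (by positivity),
    Real.log_div hk0.ne' hpi.ne', Real.log_inv]
  have h1 : ((k : ℝ) ^ 2)⁻¹ * (-Real.log 2 - (N : ℝ) * ((k : ℝ) * ((k : ℝ) *
      ((Real.log k - Real.log (2 * Real.pi)) / 2)))) + (N : ℝ) / 2 * Real.log k =
      (N : ℝ) / 2 * Real.log (2 * Real.pi) - Real.log 2 / (k : ℝ) ^ 2 := by
    field_simp
    ring
  rw [h1]
  have h2 : Real.log 2 / (k : ℝ) ^ 2 ≤ 1 := by
    rw [div_le_one (by positivity)]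
    have h3 : Real.log 2 ≤ 1 := by linarith [Real.log_two_lt_d9]
    nlinarith
  have h4 : 0 ≤ (N : ℝ) / 2 * Real.log (2 * Real.pi) := by
    refine mul_nonneg (by positivity) (Real.log_nonneg ?_)
    nlinarith [Real.pi_gt_three]
  linarith

end T15

open T15 in
/-- T15 -/
theorem Rel.bot_lt_chi {N : ℕ} {l : Letter N → (H →L[ℂ] H)} {e : H →L[ℂ] H} (Q : ℕ) (hQ : 1 ≤ Q)
    (h : Rel T (1 / (Q : ℝ)) l e) : ⊥ < T.chi (Xof (Q : ℝ) (gen l e)) := by
  have hR : (0 : ℝ) < 10 * (Q + 1) := by positivity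
  refine lt_of_lt_of_le (EReal.bot_lt_coe (-1)) ?_
  refine le_iSup₂_of_le (10 * ((Q : ℝ) + 1)) hR ?_
  refine le_iInf fun m' => le_iInf fun ε => le_iInf fun hε => ?_
  have hbad := tendsto_bad T Q hQ (gen l e) h.law m' hε
  have hev : ∀ᶠ m : ℕ in atTop, gm (Letter N) (Q * m)
      {x | zz (Q : ℝ) m x ∉ T.Gamma (Xof (Q : ℝ) (gen l e)) (10 * (Q + 1)) m' (Q * m) ε} ≤ 2⁻¹ :=
    hbad.eventually_le_const (by simp)
  have hQm : Tendsto (fun m : ℕ => Q * m) atTop atTop :=
    tendsto_id.const_mul_atTop' (by omega)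
  have hfr : ∃ᶠ k : ℕ in atTop, ((-1 : ℝ) : EReal) ≤ ((((k : ℝ) ^ 2)⁻¹ : ℝ) : EReal) *
      ENNReal.log (volume (T.Gamma (Xof (Q : ℝ) (gen l e)) (10 * (Q + 1)) m' k ε)) +
      (((N : ℝ) / 2 * Real.log k : ℝ) : EReal) := by
    refine hQm.frequently (Eventually.frequently ?_)
    filter_upwards [hev, eventually_ge_atTop 1] with m hm hm1
    have hk : 0 < Q * m := Nat.mul_pos (by omega) (by omega)
    exact log_ge hk (vol_ge T hk (Q : ℝ) m _ hm)
  exact le_limsup_of_frequently_le hfr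

end P087
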