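import Vale.Agent.P087.T01b
import Vale.Agent.P087.T02
import Vale.Agent.P087.T07
import Vale.Agent.P087.T08
import Vale.Agent.P087.T11
import Vale.Agent.P087.T15

open MeasureTheory Filter Topology
open scoped ENNReal InnerProductSpace
noncomputable section
namespace P087

private theorem loglem : Tendsto (fun K : ℕ => Real.log (1 + 4 * (K : ℝ) ^ 11) / K) atTop (𝓝 0) := by
  have h1 : Tendsto (fun y : ℝ => Real.log y / y) atTop (𝓝 0) :=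
    Real.isLittleO_log_id_atTop.tendsto_div_nhds_zero
  have h2 : Tendsto (fun K : ℕ => Real.log (K : ℝ) / K) atTop (𝓝 0) :=
    h1.comp tendsto_natCast_atTop_atTop
  have h3 : Tendsto (fun K : ℕ => Real.log 5 / (K : ℝ)) atTop (𝓝 0) :=
    tendsto_const_div_atTop_nhds_zero_nat _
  have h4 : Tendsto (fun K : ℕ => Real.log 5 / (K : ℝ) + 11 * (Real.log (K : ℝ) / K)) atTop (𝓝 0) := by
    simpa using h3.add (h2.const_mul 11)
  refine squeeze_zero' ?_ ?_ h4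
  · filter_upwards [eventually_ge_atTop 1] with K hK
    have : (0 : ℝ) < K := by exact_mod_cast hK
    refine div_nonneg (Real.log_nonneg ?_) this.le
    have : (0:ℝ) ≤ 4 * (K : ℝ) ^ 11 := by positivity
    linarith
  · filter_upwards [eventually_ge_atTop 1] with K hK
    have hK0 : (0 : ℝ) < K := by exact_mod_cast hK
    have hK1 : (1 : ℝ) ≤ K := by exact_mod_cast hK
    have h5 : Real.log (1 + 4 * (K : ℝ) ^ 11) ≤ Real.log 5 + 11 * Real.log K := by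
      have : Real.log 5 + 11 * Real.log K = Real.log (5 * (K : ℝ) ^ 11) := by
        rw [Real.log_mul (by norm_num) (by positivity), Real.log_pow]
        norm_num
      rw [this]
      apply Real.log_le_log (by positivity)
      have : (1 : ℝ) ≤ (K : ℝ) ^ 11 := one_le_pow₀ hK1
      linarith
    rw [show Real.log 5 / (K : ℝ) + 11 * (Real.log (K : ℝ) / K) = (Real.log 5 + 11 * Real.log K) / K by
      field_simp]
    exact div_le_div_of_nonneg_right h5 hK0.le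

private theorem hlog (C : ℝ) : Tendsto (fun K : ℕ => (20 * C / (K : ℝ) ^ 4 + 50 * C ^ 2 / (K : ℝ) ^ 2) *
      Real.log (1 + 4 * (K : ℝ) ^ 11) + (6 * C / (K : ℝ) ^ 2 + 32 * C / K + 10 / K)) atTop
      (𝓝 0) := by
  have hi : Tendsto (fun K : ℕ => ((K : ℝ))⁻¹) atTop (𝓝 0) := tendsto_inv_atTop_nhds_zero_nat
  have h1 : Tendsto (fun K : ℕ => (20 * C * ((K : ℝ)⁻¹) ^ 3 + 50 * C ^ 2 * (K : ℝ)⁻¹) *
      (Real.log (1 + 4 * (K : ℝ) ^ 11) / K) +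
      (6 * C * ((K : ℝ)⁻¹) ^ 2 + 32 * C * (K : ℝ)⁻¹ + 10 * (K : ℝ)⁻¹)) atTop
      (𝓝 ((20 * C * 0 ^ 3 + 50 * C ^ 2 * 0) * 0 + (6 * C * 0 ^ 2 + 32 * C * 0 + 10 * 0))) :=
    ((((hi.pow 3).const_mul _).add (hi.const_mul _)).mul loglem).add
      ((((hi.pow 2).const_mul _).add (hi.const_mul _)).add (hi.const_mul _))
  have h2 : ((20 * C * 0 ^ 3 + 50 * C ^ 2 * 0) * 0 + (6 * C * 0 ^ 2 + 32 * C * 0 + 10 * 0) : ℝ) = 0 := by
    ring
  rw [h2] at h1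
  refine h1.congr' ?_
  filter_upwards [eventually_ge_atTop 1] with K hK
  have hK0 : (K : ℝ) ≠ 0 := by
    have : (0 : ℝ) < K := by exact_mod_cast hK
    exact this.ne'
  field_simp

/-- the real inequality behind the choice of parameters -/
theorem exists_K (C : ℝ) : ∃ K : ℕ, 2 ≤ K ∧
    (20 * C / (K : ℝ) ^ 6 + 50 * C ^ 2 / (K : ℝ) ^ 4) * Real.log (1 + 4 * (K : ℝ) ^ 11) +
      2 * (K : ℝ) ^ 8 * (3 * C / (K : ℝ) ^ 12 + 16 * C / (K : ℝ) ^ 11 + 5 / (K : ℝ) ^ 11) <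
      1 / (32 * (K : ℝ) ^ 2) := by
  have hev := (hlog C).eventually (gt_mem_nhds (show (0 : ℝ) < 1 / 32 by norm_num))
  obtain ⟨K, hK, hK2⟩ := (hev.and (eventually_ge_atTop 2)).exists
  refine ⟨K, hK2, ?_⟩
  have hK0 : (0 : ℝ) < K := by exact_mod_cast (by omega : 0 < K)
  have h1 : (20 * C / (K : ℝ) ^ 6 + 50 * C ^ 2 / (K : ℝ) ^ 4) * Real.log (1 + 4 * (K : ℝ) ^ 11) +
      2 * (K : ℝ) ^ 8 * (3 * C / (K : ℝ) ^ 12 + 16 * C / (K : ℝ) ^ 11 + 5 / (K : ℝ) ^ 11) =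
      ((20 * C / (K : ℝ) ^ 4 + 50 * C ^ 2 / (K : ℝ) ^ 2) *
      Real.log (1 + 4 * (K : ℝ) ^ 11) + (6 * C / (K : ℝ) ^ 2 + 32 * C / K + 10 / K)) / K ^ 2 := by
    field_simp
    ring
  have h2 : (1 : ℝ) / (32 * (K : ℝ) ^ 2) = (1 / 32) / K ^ 2 := by field_simp
  rw [h1, h2]
  exact div_lt_div_of_pos_right hK (by positivity)

private theorem final_ineq (C : ℝ) (K : ℕ) (hC0 : 0 < C) (hK0 : (0 : ℝ) < K)
    (hK : (20 * C / (K : ℝ) ^ 6 + 50 * C ^ 2 / (K : ℝ) ^ 4) * Real.log (1 + 4 * (K : ℝ) ^ 11) +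
      2 * (K : ℝ) ^ 8 * (3 * C / (K : ℝ) ^ 12 + 16 * C / (K : ℝ) ^ 11 + 5 / (K : ℝ) ^ 11) <
      1 / (32 * (K : ℝ) ^ 2)) :
    (4 * (5 * C / (K : ℝ) ^ 6) + (2 * (K : ℝ) ^ 8) * (5 * C / (K : ℝ) ^ 6) ^ 2) *
      Real.log (1 + 4 / (1 / (K : ℝ) ^ 11)) +
      (2 * (K : ℝ) ^ 8) / 2 * Real.log (2 * Real.pi * Real.exp 1 *
        ((1 + 3 * C / (K : ℝ) ^ 12) + 4 * (4 * C / (K : ℝ) ^ 11) +
          5 * (1 / (K : ℝ) ^ 11)) ^ 2) <
    (2 * (K : ℝ) ^ 8) / 2 * Real.log (2 * Real.pi * Real.exp 1) +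
      √(2 * (K : ℝ) ^ 8) / (32 * (K : ℝ) ^ 6) := by
  set b : ℝ := (1 + 3 * C / (K : ℝ) ^ 12) + 4 * (4 * C / (K : ℝ) ^ 11) + 5 * (1 / (K : ℝ) ^ 11)
    with hb
  have hb0 : 0 < b := by positivity
  have h1 : Real.log (2 * Real.pi * Real.exp 1 * b ^ 2) =
      Real.log (2 * Real.pi * Real.exp 1) + 2 * Real.log b := by
    rw [Real.log_mul (by positivity) (by positivity), Real.log_pow]
    norm_num
  have h2 : Real.log b ≤ 3 * C / (K : ℝ) ^ 12 + 16 * C / (K : ℝ) ^ 11 + 5 / (K : ℝ) ^ 11 := by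
    refine (Real.log_le_sub_one_of_pos hb0).trans (le_of_eq ?_)
    rw [hb]; ring
  have h3 : Real.log (1 + 4 / (1 / (K : ℝ) ^ 11)) = Real.log (1 + 4 * (K : ℝ) ^ 11) := by
    congr 1
    field_simp
  have h4 : 1 / (32 * (K : ℝ) ^ 2) ≤ √(2 * (K : ℝ) ^ 8) / (32 * (K : ℝ) ^ 6) := by
    have : (K : ℝ) ^ 4 ≤ √(2 * (K : ℝ) ^ 8) := by
      apply Real.le_sqrt_of_sq_le
      have h0 : 0 ≤ (K : ℝ) ^ 8 := by positivity
      calc ((K : ℝ) ^ 4) ^ 2 = (K : ℝ) ^ 8 := by ring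
        _ ≤ 2 * (K : ℝ) ^ 8 := by linarith
    calc 1 / (32 * (K : ℝ) ^ 2) = (K : ℝ) ^ 4 / (32 * (K : ℝ) ^ 6) := by field_simp
      _ ≤ _ := div_le_div_of_nonneg_right this (by positivity)
  have h5 : (4 * (5 * C / (K : ℝ) ^ 6) + 2 * (K : ℝ) ^ 8 * (5 * C / (K : ℝ) ^ 6) ^ 2) =
      20 * C / (K : ℝ) ^ 6 + 50 * C ^ 2 / (K : ℝ) ^ 4 := by
    field_simp
    ring
  rw [h1, h3, h5]
  have h8 : 0 < (K : ℝ) ^ 8 := by positivity
  have h6 : 2 * (K : ℝ) ^ 8 / 2 * (2 * Real.log b) ≤ 2 * (K : ℝ) ^ 8 *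
      (3 * C / (K : ℝ) ^ 12 + 16 * C / (K : ℝ) ^ 11 + 5 / (K : ℝ) ^ 11) := by
    have h9 : 2 * (K : ℝ) ^ 8 / 2 * (2 * Real.log b) = 2 * (K : ℝ) ^ 8 * Real.log b := by ring
    rw [h9]
    exact mul_le_mul_of_nonneg_left h2 (by positivity)
  have h7 : 2 * (K : ℝ) ^ 8 / 2 * (Real.log (2 * Real.pi * Real.exp 1) + 2 * Real.log b) =
      2 * (K : ℝ) ^ 8 / 2 * Real.log (2 * Real.pi * Real.exp 1) +
      2 * (K : ℝ) ^ 8 / 2 * (2 * Real.log b) := by ring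
  rw [h7]
  linarith

/-- the two halves of the index set -/
def halfSet (p : ℕ) : Fin 2 → Finset (Fin (2 * p))
  | 0 => Finset.univ.filter fun i => (i : ℕ) < p
  | 1 => Finset.univ.filter fun i => ¬ (i : ℕ) < p

/-- the half that does NOT contain the index -/
def otherHalf (p : ℕ) (i : Fin (2 * p)) : Fin 2 := if (i : ℕ) < p then 1 else 0

lemma card_halfSet (p : ℕ) (a : Fin 2) : (halfSet p a).card = p := by
  have h0 : (Finset.univ.filter fun i : Fin (2 * p) => (i : ℕ) < p).card = p := by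
    rw [Fin.card_filter_val_lt]
    omega
  fin_cases a
  · exact h0
  · show (Finset.univ.filter fun i : Fin (2 * p) => ¬ (i : ℕ) < p).card = p
    have h1 := Finset.card_filter_add_card_filter_not (s := (Finset.univ : Finset (Fin (2 * p))))
      (fun i : Fin (2 * p) => (i : ℕ) < p)
    rw [h0] at h1
    simp at h1
    simp
    omega

lemma not_mem_otherHalf (p : ℕ) (i : Fin (2 * p)) : i ∉ halfSet p (otherHalf p i) := by
  unfold otherHalf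
  split_ifs with h
  · simp [halfSet, h]
  · simp [halfSet, h]

section
variable {H : Type} [NormedAddCommGroup H] [InnerProductSpace ℂ H] [CompleteSpace H]
  {T : TracialVN H}

lemma Xof_mem {N : ℕ} {l : Letter N → (H →L[ℂ] H)} {e : H →L[ℂ] H} {α : ℝ} (h : Rel T α l e)
    (Q : ℝ) (j : Fin N) : Xof Q (gen l e) j ∈ T.M := by
  have he : gen l e none ∈ T.M := h.mem_e
  have hs : ∀ i, gen l e (some i) ∈ T.M := fun i => h.mem_l i
  have h1 : gen l e none * gen l e (some (0, j)) * gen l e none ∈ T.M :=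
    mul_mem (mul_mem he (hs _)) he
  have h2 : (Q : ℂ) • (gen l e none * gen l e (some (0, j)) * gen l e none) ∈ T.M := by
    have := T.M.toStarSubalgebra.smul_mem (x := gen l e none * gen l e (some (0, j)) * gen l e none)
      h1 (Q : ℂ)
    exact this
  exact add_mem h2 (hs _)

lemma Xof_sa {N : ℕ} {l : Letter N → (H →L[ℂ] H)} {e : H →L[ℂ] H} {α : ℝ} (h : Rel T α l e)
    (Q : ℝ) (j : Fin N) : IsSelfAdjoint (Xof Q (gen l e) j) := by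
  unfold Xof IsSelfAdjoint gen
  simp only [star_add, star_smul, star_mul, star_star, h.e_sa]
  have hQ : star (Q : ℂ) = (Q : ℂ) := Complex.conj_ofReal Q
  rw [hQ]
  simp only [add_comm (star _) _, mul_assoc]

end

theorem chi_upper (C : ℝ) (hC0 : 0 < C) (hC : ∀ {H : Type} [NormedAddCommGroup H]
      [InnerProductSpace ℂ H] [CompleteSpace H]
      (T : TracialVN H) (N : ℕ) (Q : ℝ) (l : Letter N → (H →L[ℂ] H)) (e : H →L[ℂ] H)
      (_ : Rel T (1 / Q) l e) (_ : 1 ≤ Q) (J : Finset (Fin N)) (_ : 1 ≤ J.card)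
      (X : Fin N → (H →L[ℂ] H)) (_ : X = Xof Q (gen l e))
      (P : H →L[ℂ] H) (_ : P = psi (Tpol Q J X)),
      (T.τ (P ^ 2)).re ≤ C / Q ∧
      ∀ j ∉ J,
        ‖(X j - P * X j * P) T.Ω‖ ^ 2 ≤
          1 + C / Q ^ 2 + C * (1 / √J.card ^ 3 + 1 / √(J.card * Q)) ^ 2 ∧
        ‖((P ^ 2 - P) * X j * P) T.Ω‖ ≤
          C * (1 / √J.card ^ 3 + 1 / √J.card * (1 / √(J.card * Q)) + 1 / (J.card * Q)) ∧
        ‖X j T.Ω‖ ^ 2 = 2)
    {H : Type} [NormedAddCommGroup H] [InnerProductSpace ℂ H] [CompleteSpace H]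
    {T : TracialVN H} (K : ℕ) (hK2 : 2 ≤ K) (p : ℕ) (hpn : p = K ^ 8) (Q : ℝ)
    (hQK : Q = (K : ℝ) ^ 6) {l : Letter (2 * p) → (H →L[ℂ] H)} {e : H →L[ℂ] H}
    (hR : Rel T (1 / Q) l e) :
    T.chi (Xof Q (gen l e)) ≤ (((4 * (5 * C / (K : ℝ) ^ 6) +
        ((2 * p : ℕ) : ℝ) * (5 * C / (K : ℝ) ^ 6) ^ 2) * Real.log (1 + 4 / (1 / (K : ℝ) ^ 11)) +
      ((2 * p : ℕ) : ℝ) / 2 * Real.log (2 * Real.pi * Real.exp 1 *
        ((1 + 3 * C / (K : ℝ) ^ 12) + 4 * (4 * C / (K : ℝ) ^ 11) +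
          5 * (1 / (K : ℝ) ^ 11)) ^ 2) : ℝ) : EReal) := by
  have hK0 : (0 : ℝ) < K := by exact_mod_cast (by omega : 0 < K)
  have hK1 : (1 : ℝ) ≤ K := by exact_mod_cast (by omega : 1 ≤ K)
  have hK2' : (2 : ℝ) ≤ K := by exact_mod_cast hK2
  have hp1 : 1 ≤ p := by rw [hpn]; exact Nat.one_le_pow _ _ (by omega)
  have hpK : (p : ℝ) = (K : ℝ) ^ 8 := by rw [hpn]; push_cast; ring
  have hQ1 : 1 ≤ Q := by
    rw [hQK]
    exact one_le_pow₀ hK1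
  have hQ0 : 0 < Q := by linarith
  have hsqp : √(p : ℝ) = (K : ℝ) ^ 4 := by
    rw [hpK, show (K : ℝ) ^ 8 = ((K : ℝ) ^ 4) ^ 2 by ring]
    exact Real.sqrt_sq (by positivity)
  have hsqpQ : √((p : ℝ) * Q) = (K : ℝ) ^ 7 := by
    rw [hpK, hQK, show (K : ℝ) ^ 8 * (K : ℝ) ^ 6 = ((K : ℝ) ^ 7) ^ 2 by ring]
    exact Real.sqrt_sq (by positivity)
  have hN1 : 1 ≤ 2 * p := by omega
  set X := Xof Q (gen l e) with hX
  set P : Fin 2 → (H →L[ℂ] H) := fun a => psi (Tpol Q (halfSet p a) X) with hP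
  have hest := fun a => hC T (2 * p) Q l e hR (by linarith) (halfSet p a)
    (by rw [card_halfSet]; exact hp1) X hX (P a) rfl
  refine iSup₂_le fun R _ => ?_
  have hbase : (1 : ℝ) / √(p : ℝ) ^ 3 = 1 / (K : ℝ) ^ 12 := by rw [hsqp]; ring
  refine chiR_le T hN1 X (fun j => Xof_mem hR Q j) (fun j => Xof_sa hR Q j) Q hQ0
    (halfSet p) (fun a => by rw [card_halfSet]; exact hp1) (otherHalf p) P (fun a => rfl)
    _ _ _ _ (by positivity) (by positivity) (by positivity) (by positivity) ?_ ?_ ?_ ?_ ?_ R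
  · rw [div_le_one (by positivity)]
    exact one_le_pow₀ hK1
  · intro a
    have h1 := (hest a).1
    rw [hQK] at h1
    have h2 : 0 < C / (K : ℝ) ^ 6 := by positivity
    have h3 : 5 * C / (K : ℝ) ^ 6 = 5 * (C / (K : ℝ) ^ 6) := by ring
    rw [h3]
    linarith
  · intro j
    have h1 := ((hest (otherHalf p j)).2 j (not_mem_otherHalf p j)).1
    rw [card_halfSet, hsqpQ, hbase, hQK] at h1
    refine lt_of_pow_lt_pow_left₀ 2 (by positivity) (lt_of_le_of_lt h1 ?_)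
    have e1 : 1 / (K : ℝ) ^ 12 + 1 / (K : ℝ) ^ 7 ≤ 2 / (K : ℝ) ^ 7 := by
      have : 1 / (K : ℝ) ^ 12 ≤ 1 / (K : ℝ) ^ 7 :=
        one_div_le_one_div_of_le (by positivity) (pow_le_pow_right₀ hK1 (by norm_num))
      calc 1 / (K : ℝ) ^ 12 + 1 / (K : ℝ) ^ 7 ≤ 1 / (K : ℝ) ^ 7 + 1 / (K : ℝ) ^ 7 := by linarith
        _ = 2 / (K : ℝ) ^ 7 := by ring
    have e2 : (1 / (K : ℝ) ^ 12 + 1 / (K : ℝ) ^ 7) ^ 2 ≤ 4 / (K : ℝ) ^ 14 := by
      calc (1 / (K : ℝ) ^ 12 + 1 / (K : ℝ) ^ 7) ^ 2 ≤ (2 / (K : ℝ) ^ 7) ^ 2 :=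
            pow_le_pow_left₀ (by positivity) e1 2
        _ = 4 / (K : ℝ) ^ 14 := by ring
    have e3 : 4 / (K : ℝ) ^ 14 ≤ 1 / (K : ℝ) ^ 12 := by
      rw [div_le_div_iff₀ (by positivity) (by positivity)]
      have : (4 : ℝ) ≤ (K : ℝ) ^ 2 := by nlinarith
      calc 4 * (K : ℝ) ^ 12 ≤ (K : ℝ) ^ 2 * (K : ℝ) ^ 12 :=
            mul_le_mul_of_nonneg_right this (by positivity)
        _ = 1 * (K : ℝ) ^ 14 := by ring
    have e4 : C * (1 / (K : ℝ) ^ 12 + 1 / (K : ℝ) ^ 7) ^ 2 ≤ C * (1 / (K : ℝ) ^ 12) :=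
      mul_le_mul_of_nonneg_left (e2.trans e3) hC0.le
    have e5 : C / ((K : ℝ) ^ 6) ^ 2 = C * (1 / (K : ℝ) ^ 12) := by ring
    have e6 : 3 * C / (K : ℝ) ^ 12 = 3 * (C * (1 / (K : ℝ) ^ 12)) := by ring
    rw [e5, e6]
    have e7 : 0 < C * (1 / (K : ℝ) ^ 12) := by positivity
    nlinarith
  · intro j
    have h1 := ((hest (otherHalf p j)).2 j (not_mem_otherHalf p j)).2.1
    rw [card_halfSet, hsqpQ, hbase, hsqp, hpK, hQK] at h1
    refine lt_of_le_of_lt h1 ?_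
    have e1 : 1 / (K : ℝ) ^ 12 ≤ 1 / (K : ℝ) ^ 11 :=
      one_div_le_one_div_of_le (by positivity) (pow_le_pow_right₀ hK1 (by norm_num))
    have e2 : 1 / (K : ℝ) ^ 4 * (1 / (K : ℝ) ^ 7) = 1 / (K : ℝ) ^ 11 := by ring
    have e3 : 1 / ((K : ℝ) ^ 8 * (K : ℝ) ^ 6) ≤ 1 / (K : ℝ) ^ 11 := by
      rw [← pow_add]
      exact one_div_le_one_div_of_le (by positivity) (pow_le_pow_right₀ hK1 (by norm_num))
    have e4 : 4 * C / (K : ℝ) ^ 11 = C * (4 * (1 / (K : ℝ) ^ 11)) := by ring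
    rw [e2, e4]
    apply mul_lt_mul_of_pos_left _ hC0
    have : 0 < 1 / (K : ℝ) ^ 11 := by positivity
    linarith
  · intro j
    rw [((hest (otherHalf p j)).2 j (not_mem_otherHalf p j)).2.2]
    norm_num

/-- The counterexample, with a real number on each side. -/
theorem exists_gap : ∃ (n : ℕ) (_ : 1 ≤ n) (H : Type) (_ : NormedAddCommGroup H)
    (_ : InnerProductSpace ℂ H) (_ : CompleteSpace H) (T : TracialVN H)
    (X S : Fin n → (H →L[ℂ] H)) (a b : ℝ), a < b ∧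
    (∀ j, X j ∈ T.M) ∧ (∀ j, IsSelfAdjoint (X j)) ∧ T.IsFreeSemicircular X S ∧
      ⊥ < T.chi X ∧ T.chi X ≤ a ∧ b ≤ T.chiStar X S := by
  obtain ⟨C, hC0, hC⟩ := op_estimates
  obtain ⟨K, hK2, hK⟩ := exists_K C
  have hK0 : (0 : ℝ) < K := by exact_mod_cast (by omega : 0 < K)
  have hK1 : (1 : ℝ) ≤ K := by exact_mod_cast (by omega : 1 ≤ K)
  have hK2' : (2 : ℝ) ≤ K := by exact_mod_cast hK2
  set p : ℕ := K ^ 8 with hp
  have hp1 : 1 ≤ p := Nat.one_le_pow _ _ (by omega)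
  set Qn : ℕ := K ^ 6 with hQn
  have hQn1 : 1 ≤ Qn := Nat.one_le_pow _ _ (by omega)
  set Q : ℝ := (Qn : ℝ) with hQ
  have hQK : Q = (K : ℝ) ^ 6 := by rw [hQ, hQn]; push_cast; ring
  have hpK : (p : ℝ) = (K : ℝ) ^ 8 := by rw [hp]; push_cast; ring
  have h64 : (64 : ℝ) ≤ Q := by
    rw [hQK]
    calc (64 : ℝ) = 2 ^ 6 := by norm_num
      _ ≤ (K : ℝ) ^ 6 := pow_le_pow_left₀ (by norm_num) hK2' 6
  have hQ2 : 2 ≤ Q := by linarith
  have hQ0 : 0 < Q := by linarith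
  obtain ⟨H, i1, i2, i3, T, l, e, hR⟩ := exists_model (Letter (2 * p)) (1 / Q) (by positivity)
    (by rw [div_lt_one hQ0]; linarith)
  have hN1 : 1 ≤ 2 * p := by omega
  have hN : ((2 * p : ℕ) : ℝ) = 2 * (K : ℝ) ^ 8 := by push_cast; rw [hpK]
  have hfin := final_ineq C K hC0 hK0 hK
  rw [← hN] at hfin
  have hstar := hR.chiStar_ge hQ2 hN1 (by
    have : (1 : ℝ) ≤ √((2 * p : ℕ) : ℝ) := by
      rw [Real.one_le_sqrt]
      exact_mod_cast hN1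
    nlinarith)
  rw [hQK] at hstar
  refine ⟨2 * p, hN1, H, i1, i2, i3, T, Xof Q (gen l e), fun j => l (2, j) + star (l (2, j)),
    _, _, hfin, fun j => Xof_mem hR Q j, fun j => Xof_sa hR Q j, ?_, ?_, ?_, ?_⟩
  · refine hR.isFreeSemicircular (fun j => ((2 : Fin 3), j)) (fun a b hab => by simpa using hab)
      _ (fun j => ?_)
    set A := Algebra.adjoin ℂ ({e} ∪ {x | ∃ i, i ∉ Set.range (fun j : Fin (2 * p) => ((2 : Fin 3), j)) ∧
      x = l i + star (l i)} : Set (H →L[ℂ] H)) with hA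
    have he : e ∈ A := Algebra.subset_adjoin (Or.inl rfl)
    have hs : ∀ a : Fin 3, a ≠ 2 → l (a, j) + star (l (a, j)) ∈ A := fun a ha =>
      Algebra.subset_adjoin (Or.inr ⟨(a, j), by
        rintro ⟨x, hx⟩
        exact ha (by simpa using (congrArg Prod.fst hx).symm), rfl⟩)
    exact add_mem (A.smul_mem (mul_mem (mul_mem he (hs 0 (by decide))) he) _) (hs 1 (by decide))
  · exact hR.bot_lt_chi Qn hQn1
  · exact chi_upper C hC0 hC K hK2 p hp Q hQK hR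
  · rw [← hQK] at hstar ⊢
    exact hstar

end P087
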