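import Vale.Agent.P087.Basic
import Vale.Agent.P087.Words

open MeasureTheory Filter
open scoped ENNReal InnerProductSpace
noncomputable section
namespace P087
variable {H : Type} [NormedAddCommGroup H] [InnerProductSpace ℂ H] [CompleteSpace H] {N : ℕ}

/-- `Y_i = Q e ŝ_i e` -/
def Yop (Q : ℝ) (l : Fin 2 × Fin N → (H →L[ℂ] H)) (e : H →L[ℂ] H) (i : Fin N) : H →L[ℂ] H :=
  (Q : ℂ) • (e * (l (0, i) + star (l (0, i))) * e)

/-- `X_i = Y_i + √s S_i` -/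
def Xs (Q s : ℝ) (l : Fin 2 × Fin N → (H →L[ℂ] H)) (e : H →L[ℂ] H) (i : Fin N) : H →L[ℂ] H :=
  Yop Q l e i + ((√s : ℝ) : ℂ) • (l (1, i) + star (l (1, i)))

/-- `E_u = L_{u₁} ⋯ L_{u_r} Ω`, `L_i = l (1, i)` -/
def Ewick (T : TracialVN H) (l : Fin 2 × Fin N → (H →L[ℂ] H)) (u : List (Fin N)) : H :=
  ((u.map fun i => l (1, i)).prod : H →L[ℂ] H) T.Ω

/-- `A(w) = τ(X_w)` -/
def Amom (T : TracialVN H) (Q s : ℝ) (l : Fin 2 × Fin N → (H →L[ℂ] H)) (e : H →L[ℂ] H)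
    (w : List (Fin N)) : ℂ := T.τ (word (Xs Q s l e) w)

/-- `B(w) = τ(e X_w)` -/
def Bmom (T : TracialVN H) (Q s : ℝ) (l : Fin 2 × Fin N → (H →L[ℂ] H)) (e : H →L[ℂ] H)
    (w : List (Fin N)) : ℂ := T.τ (e * word (Xs Q s l e) w)

end P087
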